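import Mathlib

/-!
Dedekind level core for the trace of reflexive forms.

`S` is a local Dedekind domain containing the rationals, `R` its integral closure in a finite
separable extension `L` of the fraction field `K`. A derivation `D` of `L` with `D S ⊆ S` has
poles of order at most `e - 1` on `R` at every prime of ramification index `e`, so the different
ideal multiplies `D R` into `R`. As a consequence, if `h` in `L` satisfies `c h ∈ R` for all `c` in
the different, the trace of `h` lies in `S`.
-/

namespace Vale.Agent.Lib.P266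

set_option linter.unusedSectionVars false
set_option linter.overlappingInstances false

open IsDedekindDomain WithZero Polynomial
open scoped nonZeroDivisors

section Basic

variable {L : Type*} [Field L]

/-- Power rule for a plain Leibniz map. -/
lemma deriv_pow (D : L → L) (hmul : ∀ x y, D (x * y) = x * D y + y * D x) (hone : D 1 = 0)
    (x : L) (n : ℕ) : D (x ^ n) = (n : L) * x ^ (n - 1) * D x := by
  induction n with
  | zero => simp [hone]
  | succ n ih =>
    rw [pow_succ, hmul, ih]
    cases n with
    | zero => simp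
    | succ m =>
      simp only [Nat.add_sub_cancel, Nat.cast_add, Nat.cast_one]
      rw [pow_succ x m]
      ring

end Basic

section Core

variable {S R K L : Type*} [CommRing S] [IsDomain S] [IsDedekindDomain S] [IsLocalRing S]
  [Field K] [Algebra S K] [IsFractionRing S K]
  [CommRing R] [IsDomain R] [IsDedekindDomain R] [Algebra S R] [Module.Finite S R]
  [Field L] [Algebra R L] [IsFractionRing R L] [Algebra K L] [Algebra S L]
  [IsScalarTower S K L] [IsScalarTower S R L] [Module.IsTorsionFree S R]
  [FiniteDimensional K L] [Algebra.IsSeparable K L]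

/-- Polynomial chain rule, for a Leibniz map preserving `S`. -/
lemma exists_deriv_aeval (D : L → L) (hadd : ∀ x y, D (x + y) = D x + D y)
    (hmul : ∀ x y, D (x * y) = x * D y + y * D x)
    (hS : ∀ s : S, ∃ s' : S, D (algebraMap S L s) = algebraMap S L s')
    (r : R) (G : S[X]) :
    ∃ w : R, D (algebraMap R L (aeval r G)) =
      algebraMap R L w + algebraMap R L (aeval r (derivative G)) * D (algebraMap R L r) := by
  have hone : D 1 = 0 := by
    have := hmul 1 1
    simp only [mul_one, one_mul] at this
    have h2 : D 1 + D 1 = D 1 := this.symm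
    simpa using h2
  induction G using Polynomial.induction_on' with
  | add p q hp hq =>
    obtain ⟨w1, h1⟩ := hp
    obtain ⟨w2, h2⟩ := hq
    refine ⟨w1 + w2, ?_⟩
    simp only [map_add, derivative_add, hadd, h1, h2]
    ring
  | monomial n a =>
    obtain ⟨s', hs'⟩ := hS a
    refine ⟨r ^ n * algebraMap S R s', ?_⟩
    simp only [aeval_monomial, derivative_monomial, map_mul, map_pow, map_natCast]
    rw [hmul, deriv_pow D hmul hone]
    simp only [← IsScalarTower.algebraMap_apply S R L]
    rw [hs']
    ring

/-- The residue polynomial: some polynomial over `S` vanishes at `r` modulo `P` but its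
derivative does not. This uses characteristic zero of the residue field of `S`. -/
lemma exists_poly_residue (hQ : ∀ n : ℕ, n ≠ 0 → IsUnit (n : S)) (P : Ideal R) [P.IsMaximal]
    [P.LiesOver (IsLocalRing.maximalIdeal S)] (r : R) :
    ∃ G : S[X], aeval r G ∈ P ∧ aeval r (derivative G) ∉ P := by
  classical
  let q := IsLocalRing.maximalIdeal S
  letI : Field (S ⧸ q) := Ideal.Quotient.field q
  haveI : CharZero (S ⧸ q) := by
    refine charZero_of_inj_zero (fun n hn => ?_)
    by_contra hne
    have h1 : IsUnit ((n : S)) := hQ n hne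
    have h2 : ((n : S)) ∈ q := by
      rw [← Ideal.Quotient.eq_zero_iff_mem, map_natCast]
      exact hn
    exact (IsLocalRing.mem_maximalIdeal _).1 h2 h1
  haveI : Algebra.IsIntegral S R := Algebra.IsIntegral.of_finite S R
  have hint : IsIntegral (S ⧸ q) (Ideal.Quotient.mk P r) := Algebra.IsIntegral.isIntegral _
  let m := minpoly (S ⧸ q) (Ideal.Quotient.mk P r)
  have hsep : m.Separable := (minpoly.irreducible hint).separable
  obtain ⟨G, hG⟩ := Polynomial.map_surjective (Ideal.Quotient.mk q) Ideal.Quotient.mk_surjective m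
  have key : ∀ F : S[X], Ideal.Quotient.mk P (aeval r F) =
      aeval (Ideal.Quotient.mk P r) (F.map (Ideal.Quotient.mk q)) := by
    intro F
    have h1 : (Ideal.Quotient.mk q) = algebraMap S (S ⧸ q) := rfl
    rw [h1, aeval_map_algebraMap]
    exact (aeval_algebraMap_apply (R ⧸ P) r F).symm ▸ rfl
  refine ⟨G, ?_, ?_⟩
  · rw [← Ideal.Quotient.eq_zero_iff_mem, key, hG]
    exact minpoly.aeval _ _
  · rw [← Ideal.Quotient.eq_zero_iff_mem, key, ← Polynomial.derivative_map, hG]
    exact hsep.aeval_derivative_ne_zero (minpoly.aeval _ _)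

/-- Main valuation bound. `P` is a height one prime of `R`, `ϖ` generates the maximal ideal of
`S` and `e` is its valuation at `P`. Then `D` has a pole of order at most `e - 1` on `R`. -/
lemma valuation_deriv_le (hQ : ∀ n : ℕ, n ≠ 0 → IsUnit (n : S))
    (D : L → L) (hadd : ∀ x y, D (x + y) = D x + D y)
    (hmul : ∀ x y, D (x * y) = x * D y + y * D x)
    (hS : ∀ s : S, ∃ s' : S, D (algebraMap S L s) = algebraMap S L s')
    (P : HeightOneSpectrum R) [P.asIdeal.LiesOver (IsLocalRing.maximalIdeal S)]
    (ϖ : S) (e : ℕ) (he : 1 ≤ e)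
    (hϖ : P.valuation L (algebraMap S L ϖ) = exp (-(e : ℤ))) (r : R) :
    P.valuation L (D (algebraMap R L r)) ≤ exp ((e : ℤ) - 1) := by
  classical
  set v := P.valuation L with hv
  have hone : D 1 = 0 := by
    have := hmul 1 1
    simp only [mul_one, one_mul] at this
    have h2 : D 1 + D 1 = D 1 := this.symm
    simpa using h2
  have hzero : D 0 = 0 := by
    have := hadd 0 0
    simp only [add_zero] at this
    simpa using this.symm
  have hvR : ∀ x : R, v (algebraMap R L x) ≤ 1 := fun x => P.valuation_le_one x
  have hvS : ∀ x : S, v (algebraMap S L x) ≤ 1 := fun x => by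
    rw [IsScalarTower.algebraMap_apply S R L]; exact hvR _
  -- boundedness
  have hbd : ∃ N : ℕ, ∀ x : R, v (D (algebraMap R L x)) ≤ exp (N : ℤ) := by
    obtain ⟨n, y, hy⟩ := Module.Finite.exists_fin (R := S) (M := R)
    have hN : ∃ N : ℕ, ∀ i, v (D (algebraMap R L (y i))) ≤ exp (N : ℤ) := by
      have hi : ∀ i, ∃ N : ℕ, v (D (algebraMap R L (y i))) ≤ exp (N : ℤ) := by
        intro i
        by_cases h0 : v (D (algebraMap R L (y i))) = 0
        · exact ⟨0, by simp [h0]⟩
        · refine ⟨(log (v (D (algebraMap R L (y i))))).toNat, ?_⟩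
          rw [← exp_log h0, exp_le_exp]
          simpa using Int.self_le_toNat _
      choose f hf using hi
      refine ⟨Finset.univ.sup f, fun i => (hf i).trans ?_⟩
      rw [exp_le_exp]
      exact_mod_cast Finset.le_sup (Finset.mem_univ i)
    obtain ⟨N, hN⟩ := hN
    refine ⟨N, fun x => ?_⟩
    have hx : x ∈ Submodule.span S (Set.range y) := by rw [hy]; trivial
    induction hx using Submodule.span_induction with
    | mem x hx => obtain ⟨i, rfl⟩ := hx; exact hN i
    | zero => simp [hzero]
    | add x y _ _ hx hy =>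
      rw [map_add, hadd]
      exact (Valuation.map_add_le v hx hy)
    | smul a x _ hx =>
      rw [Algebra.smul_def, map_mul, hmul, ← IsScalarTower.algebraMap_apply S R L]
      obtain ⟨s', hs'⟩ := hS a
      rw [hs']
      refine Valuation.map_add_le v ?_ ?_
      · rw [map_mul]
        exact mul_le_of_le_one_of_le (hvS a) hx
      · rw [map_mul]
        refine (mul_le_one' (hvR x) (hvS s')).trans ?_
        rw [← exp_zero, exp_le_exp]
        positivity
  -- the minimal bound
  let τ := Nat.find hbd
  have hτ : ∀ x : R, v (D (algebraMap R L x)) ≤ exp (τ : ℤ) := Nat.find_spec hbd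
  have hmin : ∀ n, n < τ → ¬ ∀ x : R, v (D (algebraMap R L x)) ≤ exp (n : ℤ) :=
    fun n hn => Nat.find_min hbd hn
  by_cases hτ0 : τ = 0
  · refine (hτ r).trans ?_
    rw [hτ0, exp_le_exp]
    simp only [Nat.cast_zero]
    omega
  obtain ⟨τ', hτ'⟩ : ∃ τ', τ = τ' + 1 := ⟨τ - 1, by omega⟩
  have hτ'cast : (τ : ℤ) = (τ' : ℤ) + 1 := by rw [hτ']; push_cast; ring
  obtain ⟨r₀, hr₀⟩ : ∃ r₀ : R, exp (τ' : ℤ) < v (D (algebraMap R L r₀)) := by
    have := hmin τ' (by omega)
    push Not at this
    exact this
  -- a uniformizer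
  obtain ⟨π, hπ⟩ := P.intValuation_exists_uniformizer
  have hπv : v (algebraMap R L π) = exp (-1 : ℤ) := by
    rw [hv, HeightOneSpectrum.valuation_of_algebraMap, hπ]
  have hπ0 : (algebraMap R L π) ≠ 0 := by
    intro h
    rw [h, map_zero] at hπv
    exact exp_ne_zero hπv.symm
  -- the derivative of the uniformizer has the full pole
  have hDπ : exp (τ' : ℤ) < v (D (algebraMap R L π)) := by
    by_contra hcon
    push Not at hcon
    haveI : P.asIdeal.IsMaximal := P.isMaximal
    obtain ⟨G, hG1, hG2⟩ := exists_poly_residue hQ P.asIdeal r₀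
    set y := aeval r₀ G with hy
    obtain ⟨w, hw⟩ := exists_deriv_aeval D hadd hmul hS r₀ G
    have hvy : v (algebraMap R L y) ≤ exp (-1 : ℤ) := by
      have : P.intValuation y ≤ exp (-((1 : ℕ) : ℤ)) := by
        rw [HeightOneSpectrum.intValuation_le_pow_iff_mem]
        simpa using hG1
      rw [hv, HeightOneSpectrum.valuation_of_algebraMap]
      simpa using this
    have hx : v (algebraMap R L y / algebraMap R L π) ≤ 1 := by
      rw [map_div₀, hπv]
      rw [div_le_one₀ (by
        exact zero_lt_iff.mpr exp_ne_zero)]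
      exact hvy
    obtain ⟨a, s, hsa⟩ := P.exists_primeCompl_mul_eq_of_integer _ hx
    have hsv : v (algebraMap R L s) = 1 := by
      rw [hv, HeightOneSpectrum.valuation_of_algebraMap]
      exact (P.intValuation_eq_one_iff_mem_primeCompl _).2 s.2
    have hrel : algebraMap R L y * algebraMap R L s = algebraMap R L a * algebraMap R L π := by
      rw [← hsa]; field_simp
    have hD := congrArg D hrel
    rw [hmul, hmul] at hD
    -- bound the derivative of `y`
    have hDy : v (D (algebraMap R L y)) ≤ exp (τ' : ℤ) := by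
      have hbig : ∀ x : R, v (algebraMap R L y * D (algebraMap R L x)) ≤ exp (τ' : ℤ) := by
        intro x
        rw [map_mul]
        refine (mul_le_mul' hvy (hτ x)).trans ?_
        rw [← exp_add, exp_le_exp, hτ'cast]
        omega
      have hbig' : ∀ x : R, v (algebraMap R L π * D (algebraMap R L x)) ≤ exp (τ' : ℤ) := by
        intro x
        rw [map_mul, hπv]
        refine (mul_le_mul' le_rfl (hτ x)).trans ?_
        rw [← exp_add, exp_le_exp, hτ'cast]
        omega
      have h1 : D (algebraMap R L y) * algebraMap R L s =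
          algebraMap R L a * D (algebraMap R L π) + algebraMap R L π * D (algebraMap R L a) -
            algebraMap R L y * D (algebraMap R L s) := by
        linear_combination hD
      have h2 : v (D (algebraMap R L y) * algebraMap R L s) ≤ exp (τ' : ℤ) := by
        rw [h1]
        refine Valuation.map_sub_le v (Valuation.map_add_le v ?_ (hbig' a)) (hbig _)
        rw [map_mul]
        exact mul_le_of_le_one_of_le (hvR a) hcon
      rwa [map_mul, hsv, mul_one] at h2
    -- contradiction
    have hunit : v (algebraMap R L (aeval r₀ (derivative G))) = 1 := by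
      rw [hv, HeightOneSpectrum.valuation_of_algebraMap]
      exact (P.intValuation_eq_one_iff_mem_primeCompl _).2 hG2
    have h3 : algebraMap R L (aeval r₀ (derivative G)) * D (algebraMap R L r₀) =
        D (algebraMap R L y) - algebraMap R L w := by
      rw [hw]; ring
    have h4 : v (D (algebraMap R L r₀)) ≤ exp (τ' : ℤ) := by
      have h5 := congrArg v h3
      rw [map_mul, hunit, one_mul] at h5
      rw [h5]
      refine Valuation.map_sub_le v hDy ((hvR w).trans ?_)
      rw [← exp_zero, exp_le_exp]
      positivity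
    exact absurd hr₀ (not_lt.mpr h4)
  -- exact value of the pole of `D π`
  have hDπeq : v (D (algebraMap R L π)) = exp (τ : ℤ) := by
    refine le_antisymm (hτ π) ?_
    by_cases h0 : v (D (algebraMap R L π)) = 0
    · rw [h0] at hDπ
      exact absurd hDπ (not_lt.mpr zero_le')
    · rw [← exp_log h0] at hDπ ⊢
      rw [exp_lt_exp] at hDπ
      rw [exp_le_exp, hτ'cast]
      omega
  -- compare with `ϖ`
  have hx : v (algebraMap S L ϖ / algebraMap R L π ^ e) ≤ 1 := by
    rw [map_div₀, map_pow, hπv, hϖ, ← exp_nsmul]
    rw [div_le_one₀ (by exact zero_lt_iff.mpr exp_ne_zero), exp_le_exp]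
    simp
  obtain ⟨a, s, hsa⟩ := P.exists_primeCompl_mul_eq_of_integer _ hx
  have hsv : v (algebraMap R L s) = 1 := by
    rw [hv, HeightOneSpectrum.valuation_of_algebraMap]
    exact (P.intValuation_eq_one_iff_mem_primeCompl _).2 s.2
  have hπe : algebraMap R L π ^ e ≠ 0 := pow_ne_zero _ hπ0
  have hrel : algebraMap S L ϖ * algebraMap R L s = algebraMap R L a * algebraMap R L π ^ e := by
    rw [← hsa]; field_simp
  have hav : v (algebraMap R L a) = 1 := by
    have := congrArg v hsa
    rw [map_mul, map_div₀, hsv, mul_one, map_pow, hπv, hϖ, ← exp_nsmul] at this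
    rw [← this, ← exp_sub]
    simp
  have hD := congrArg D hrel
  rw [hmul, hmul, deriv_pow D hmul hone] at hD
  obtain ⟨ϖ', hϖ'⟩ := hS ϖ
  rw [hϖ'] at hD
  have hen : v ((e : L)) = 1 := by
    obtain ⟨u, hu⟩ := hQ e (by omega)
    have h1 : ((e : L)) = algebraMap S L (u : S) := by rw [hu]; simp
    have h2 : ((e : L)) * algebraMap S L ((u⁻¹ : Sˣ) : S) = 1 := by
      rw [h1, ← map_mul]; simp
    have h3 : v (e : L) * v (algebraMap S L ((u⁻¹ : Sˣ) : S)) = 1 := by
      rw [← map_mul, h2, map_one]
    have h4 : v (algebraMap S L (u : S)) ≤ 1 := hvS _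
    rw [← h1] at h4
    exact le_antisymm h4 (by
      have h5 := hvS ((u⁻¹ : Sˣ) : S)
      calc (1 : ℤᵐ⁰) = v (e : L) * v (algebraMap S L ((u⁻¹ : Sˣ) : S)) := h3.symm
        _ ≤ v (e : L) * 1 := mul_le_mul' le_rfl h5
        _ = v (e : L) := mul_one _)
  -- the main term
  set T := algebraMap R L a * ((e : L) * algebraMap R L π ^ (e - 1) * D (algebraMap R L π)) with hT
  have hTv : v T = exp ((τ : ℤ) - (e : ℤ) + 1) := by
    rw [hT, map_mul, map_mul, map_mul, hav, hen, map_pow, hπv, hDπeq, ← exp_nsmul, one_mul, one_mul,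
      ← exp_add, nsmul_eq_mul, Nat.cast_sub he]
    congr 1
    push_cast
    ring
  have hTrel : T = algebraMap S L ϖ * D (algebraMap R L s) + algebraMap R L s * algebraMap S L ϖ' -
      algebraMap R L π ^ e * D (algebraMap R L a) := by
    rw [hT]
    linear_combination -hD
  by_contra hcon
  have hlt : (e : ℤ) - 1 < (τ : ℤ) := by
    by_contra hle
    push Not at hle
    apply hcon
    exact (hτ r).trans (by rw [exp_le_exp]; exact hle)
  have h1 : v T ≤ max (max (v (algebraMap S L ϖ * D (algebraMap R L s)))
      (v (algebraMap R L s * algebraMap S L ϖ')))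
      (v (algebraMap R L π ^ e * D (algebraMap R L a))) := by
    rw [hTrel]
    refine (Valuation.map_sub v _ _).trans ?_
    exact max_le_max_right _ (Valuation.map_add v _ _)
  have hbound : max (max (v (algebraMap S L ϖ * D (algebraMap R L s)))
      (v (algebraMap R L s * algebraMap S L ϖ')))
      (v (algebraMap R L π ^ e * D (algebraMap R L a))) < v T := by
    rw [hTv]
    refine max_lt (max_lt ?_ ?_) ?_
    · rw [map_mul, hϖ]
      refine (mul_le_mul' le_rfl (hτ s)).trans_lt ?_
      rw [← exp_add, exp_lt_exp]
      omega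
    · rw [map_mul, hsv, one_mul]
      refine (hvS ϖ').trans_lt ?_
      rw [← exp_zero, exp_lt_exp]
      omega
    · rw [map_mul, map_pow, hπv, ← exp_nsmul]
      refine (mul_le_mul' le_rfl (hτ a)).trans_lt ?_
      rw [← exp_add, exp_lt_exp]
      simp only [nsmul_eq_mul]
      push_cast
      omega
  exact absurd h1 (not_le.mpr hbound)

/-- Every height one prime of `R` lies over the maximal ideal of `S`. -/
lemma liesOver_maximal [Algebra.IsIntegral S R] (hSf : ¬ IsField S) (P : HeightOneSpectrum R) :
    P.asIdeal.LiesOver (IsLocalRing.maximalIdeal S) := by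
  have h1 : P.asIdeal.comap (algebraMap S R) ≠ ⊥ := by
    intro h
    exact P.ne_bot (Ideal.eq_bot_of_comap_eq_bot h)
  haveI : (P.asIdeal.comap (algebraMap S R)).IsPrime := Ideal.comap_isPrime _ _
  have h2 : (P.asIdeal.comap (algebraMap S R)).IsMaximal :=
    Ring.DimensionLEOne.maximalOfPrime h1 inferInstance
  exact ⟨((IsLocalRing.eq_maximalIdeal h2).symm)⟩

include K in
/-- The different multiplies `D R` into `R`. -/
lemma different_mul_deriv (hQ : ∀ n : ℕ, n ≠ 0 → IsUnit (n : S))
    (D : L → L) (hadd : ∀ x y, D (x + y) = D x + D y)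
    (hmul : ∀ x y, D (x * y) = x * D y + y * D x)
    (hS : ∀ s : S, ∃ s' : S, D (algebraMap S L s) = algebraMap S L s')
    (ϖ : S) (hϖ : IsLocalRing.maximalIdeal S = Ideal.span {ϖ}) (hϖ0 : ϖ ≠ 0)
    (c : R) (hc : c ∈ differentIdeal S R) (r : R) :
    ∃ r' : R, algebraMap R L c * D (algebraMap R L r) = algebraMap R L r' := by
  classical
  haveI : Algebra.IsIntegral S R := Algebra.IsIntegral.of_finite S R
  have hSf : ¬ IsField S := by
    intro hf
    have h1 : IsLocalRing.maximalIdeal S = ⊥ := by
      letI := hf.toField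
      exact IsLocalRing.isField_iff_maximalIdeal_eq.1 hf
    rw [hϖ, Ideal.span_singleton_eq_bot] at h1
    exact hϖ0 h1
  obtain ⟨r', hr'⟩ := HeightOneSpectrum.mem_integers_of_valuation_le_one (R := R) L
    (algebraMap R L c * D (algebraMap R L r)) (fun P => by
      haveI := liesOver_maximal (S := S) hSf P
      set v := P.valuation L with hv
      have hϖR : (algebraMap S R ϖ) ≠ 0 := by
        intro h
        exact hϖ0 ((map_eq_zero_iff _ (FaithfulSMul.algebraMap_injective S R)).1 h)
      have hϖmem : algebraMap S R ϖ ∈ P.asIdeal := by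
        have h1 : ϖ ∈ IsLocalRing.maximalIdeal S := by rw [hϖ]; exact Ideal.mem_span_singleton_self _
        have h2 : IsLocalRing.maximalIdeal S = P.asIdeal.under S :=
          Ideal.LiesOver.over
        rw [h2] at h1
        exact h1
      have hlt : P.intValuation (algebraMap S R ϖ) < 1 := by
        rw [HeightOneSpectrum.intValuation_lt_one_iff_mem]
        exact hϖmem
      have hne : P.intValuation (algebraMap S R ϖ) ≠ 0 := P.intValuation_ne_zero _ hϖR
      obtain ⟨e, he1, hev⟩ : ∃ e : ℕ, 1 ≤ e ∧
          P.intValuation (algebraMap S R ϖ) = exp (-(e : ℤ)) := by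
        refine ⟨(- log (P.intValuation (algebraMap S R ϖ))).toNat, ?_, ?_⟩
        · rw [← exp_log hne] at hlt
          rw [← exp_zero, exp_lt_exp] at hlt
          omega
        · rw [Int.toNat_of_nonneg, neg_neg, exp_log hne]
          rw [← exp_log hne] at hlt
          rw [← exp_zero, exp_lt_exp] at hlt
          omega
      have hvϖ : v (algebraMap S L ϖ) = exp (-(e : ℤ)) := by
        rw [IsScalarTower.algebraMap_apply S R L, hv, HeightOneSpectrum.valuation_of_algebraMap, hev]
      have hbound := valuation_deriv_le hQ D hadd hmul hS P ϖ e he1 hvϖ r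
      have hdvd : P.asIdeal ^ e ∣ Ideal.span {algebraMap S R ϖ} :=
        (P.intValuation_le_pow_iff_dvd _ e).1 hev.le
      have hmap : (IsLocalRing.maximalIdeal S).map (algebraMap S R) =
          Ideal.span {algebraMap S R ϖ} := by
        rw [hϖ, Ideal.map_span, Set.image_singleton]
      have hdiff : P.asIdeal ^ (e - 1) ∣ differentIdeal S R := by
        refine pow_sub_one_dvd_differentIdeal_aux S K L P.asIdeal (by omega) ?_ (by rw [hmap]; exact hdvd)
        rw [hϖ]
        intro h0
        exact hϖ0 (Ideal.span_singleton_eq_bot.1 h0)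
      have hcmem : c ∈ P.asIdeal ^ (e - 1) := Ideal.dvd_iff_le.1 hdiff hc
      have hcv : v (algebraMap R L c) ≤ exp (-(((e - 1 : ℕ)) : ℤ)) := by
        rw [hv, HeightOneSpectrum.valuation_of_algebraMap]
        exact (P.intValuation_le_pow_iff_mem _ _).2 hcmem
      rw [map_mul]
      refine (mul_le_mul' hcv hbound).trans ?_
      rw [← exp_add, Nat.cast_sub he1]
      simp)
  exact ⟨r', hr'.symm⟩

/-- If `c h ∈ R` for all `c` in the different, then the trace of `h` lies in `S`. -/
lemma trace_mem_of_different (h : L)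
    (hh : ∀ c ∈ differentIdeal S R, ∃ r' : R, algebraMap R L c * h = algebraMap R L r') :
    ∃ s : S, Algebra.trace K L h = algebraMap S K s := by
  classical
  haveI : Algebra.IsIntegral S R := Algebra.IsIntegral.of_finite S R
  have hI : (differentIdeal S R) ≠ ⊥ := by
    intro h0
    have h1 := coeIdeal_differentIdeal S K L R
    rw [h0] at h1
    simp only [FractionalIdeal.coeIdeal_bot] at h1
    have h2 := FractionalIdeal.dual_ne_zero S K (I := (1 : FractionalIdeal R⁰ L)) one_ne_zero
    exact inv_ne_zero h2 h1.symm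
  have hI' : ((differentIdeal S R : Ideal R) : FractionalIdeal R⁰ L) ≠ 0 := by
    simpa using hI
  have hmem : h ∈ ((differentIdeal S R : Ideal R) : FractionalIdeal R⁰ L)⁻¹ := by
    rw [FractionalIdeal.mem_inv_iff hI']
    intro y hy
    obtain ⟨c, hc, rfl⟩ := (FractionalIdeal.mem_coeIdeal _).1 hy
    obtain ⟨r', hr'⟩ := hh c hc
    rw [FractionalIdeal.mem_one_iff]
    exact ⟨r', by rw [mul_comm, hr']⟩
  rw [coeIdeal_differentIdeal S K L R, inv_inv] at hmem
  have h1 := (FractionalIdeal.mem_dual (A := S) (K := K) (I := (1 : FractionalIdeal R⁰ L))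
    one_ne_zero).1 hmem 1 (by simp)
  obtain ⟨s, hs⟩ := h1
  refine ⟨s, ?_⟩
  rw [hs]
  simp

end Core

end Vale.Agent.Lib.P266
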