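import Vale.Agent.Lib.P266.Poly
import Mathlib.RingTheory.Etale.Kaehler
import Mathlib.RingTheory.Etale.Field

/-!
Tools on derivations of fields.
-/

namespace Vale.Agent.Lib.P266

set_option linter.unusedSectionVars false
set_option linter.overlappingInstances false
set_option linter.style.haveILetI false

open Polynomial
open scoped nonZeroDivisors TensorProduct

section Lift

/-- A derivation into `L` lifts along a formally etale map. -/
lemma exists_lift_derivation {R B L : Type*} [CommRing R] [CommRing B] [Field L]
    [Algebra R B] [Algebra R L] [Algebra B L] [IsScalarTower R B L]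
    [Algebra.FormallyEtale B L] (d : Derivation R B L) :
    ∃ D : Derivation R L L, ∀ b, D (algebraMap B L b) = d b := by
  classical
  let f : Ω[B⁄R] →ₗ[B] L := d.liftKaehlerDifferential
  let g : L ⊗[B] Ω[B⁄R] →ₗ[L] L := f.liftBaseChange L
  let h : Ω[L⁄R] →ₗ[L] L :=
    g.comp (KaehlerDifferential.tensorKaehlerEquivOfFormallyEtale R B L).symm.toLinearMap
  refine ⟨h.compDer (KaehlerDifferential.D R L), ?_⟩
  intro b
  change h (KaehlerDifferential.D R L (algebraMap B L b)) = d b
  change g ((KaehlerDifferential.tensorKaehlerEquivOfFormallyEtale R B L).symm _) = d b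
  rw [KaehlerDifferential.tensorKaehlerEquivOfFormallyEtale_symm_D_algebraMap]
  simp [g, f]

end Lift

section Field

variable {K L : Type*} [Field K] [Field L] [Algebra K L]

/-- A Leibniz map on `L` vanishing on the ground field of a separable extension is zero. -/
lemma deriv_eq_zero_of_base [Algebra.IsSeparable K L]
    (D : L → L) (hadd : ∀ x y, D (x + y) = D x + D y)
    (hmul : ∀ x y, D (x * y) = x * D y + y * D x)
    (h0 : ∀ x : K, D (algebraMap K L x) = 0) (y : L) : D y = 0 := by
  have hone : D 1 = 0 := by simpa using h0 1
  have hzero : D 0 = 0 := by simpa using h0 0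
  have hpoly : ∀ P : K[X], D (aeval y P) = aeval y (derivative P) * D y := by
    intro P
    induction P using Polynomial.induction_on' with
    | add p q hp hq =>
      rw [map_add, hadd, hp, hq, map_add, map_add, add_mul]
    | monomial n a =>
      rw [aeval_monomial, hmul, h0, deriv_pow D hmul hone, derivative_monomial, aeval_monomial]
      simp only [mul_zero, add_zero, map_mul, map_natCast]
      ring
  have hsep := Algebra.IsSeparable.isSeparable K y
  have hm := hpoly (minpoly K y)
  rw [minpoly.aeval, hzero] at hm
  have hne : aeval y (derivative (minpoly K y)) ≠ 0 := hsep.aeval_derivative_ne_zero (minpoly.aeval K y)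
  exact (mul_eq_zero.mp hm.symm).resolve_left hne

/-- The trace commutes with a derivation preserving the ground field. -/
lemma trace_deriv [FiniteDimensional K L]
    (D : L → L) (hadd : ∀ x y, D (x + y) = D x + D y)
    (hmul : ∀ x y, D (x * y) = x * D y + y * D x)
    (d : K → K) (dadd : ∀ x y, d (x + y) = d x + d y)
    (hd : ∀ x, D (algebraMap K L x) = algebraMap K L (d x)) (y : L) :
    Algebra.trace K L (D y) = d (Algebra.trace K L y) := by
  classical
  let n := Module.finrank K L
  let b := Module.finBasis K L
  let Y := Algebra.leftMulMatrix b y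
  let Y' := Algebra.leftMulMatrix b (D y)
  let a : Matrix (Fin n) (Fin n) K := fun i j => b.repr (D (b j)) i
  let dh : K →+ K := AddMonoidHom.mk' d dadd
  let Dh : L →+ L := AddMonoidHom.mk' D hadd
  have hY : ∀ x j, x * b j = ∑ i, (Algebra.leftMulMatrix b x i j) • b i := by
    intro x j
    simp only [Algebra.leftMulMatrix_eq_repr_mul]
    exact (b.sum_repr _).symm
  have ha : ∀ j, D (b j) = ∑ i, a i j • b i := fun j => (b.sum_repr _).symm
  have key : ∀ j, D y * b j = ∑ i, ((a * Y) i j + d (Y i j) - (Y * a) i j) • b i := by
    intro j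
    have h1 : D (y * b j) = y * D (b j) + b j * D y := hmul _ _
    have h2 : D (y * b j) = ∑ i, (algebraMap K L (Y i j) * D (b i) + b i * algebraMap K L (d (Y i j))) := by
      rw [hY y j]
      change Dh _ = _
      rw [map_sum]
      refine Finset.sum_congr rfl fun i _ => ?_
      change D _ = _
      rw [Algebra.smul_def, hmul, hd]
    have h3 : D y * b j = ∑ i, (algebraMap K L (Y i j) * D (b i) + b i * algebraMap K L (d (Y i j))) - y * D (b j) := by
      rw [← h2, h1]
      ring
    rw [h3]
    have h4 : ∑ i, algebraMap K L (Y i j) * D (b i) = ∑ i, (a * Y) i j • b i := by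
      simp only [Matrix.mul_apply]
      simp only [ha, Finset.mul_sum, Finset.sum_smul]
      rw [Finset.sum_comm]
      refine Finset.sum_congr rfl fun i _ => Finset.sum_congr rfl fun k _ => ?_
      rw [Algebra.smul_def, Algebra.smul_def, map_mul]
      ring
    have h5 : y * D (b j) = ∑ i, (Y * a) i j • b i := by
      simp only [Matrix.mul_apply]
      rw [ha j, Finset.mul_sum]
      simp only [Finset.sum_smul]
      have h6 : ∀ k, y * (a k j • b k) = ∑ i, (Y i k * a k j) • b i := by
        intro k
        rw [mul_smul_comm, hY y k, Finset.smul_sum]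
        refine Finset.sum_congr rfl fun i _ => ?_
        rw [smul_smul, mul_comm]
      simp only [h6]
      rw [Finset.sum_comm]
    have h7 : ∑ i, b i * algebraMap K L (d (Y i j)) = ∑ i, d (Y i j) • b i := by
      refine Finset.sum_congr rfl fun i _ => ?_
      rw [Algebra.smul_def, mul_comm]
    rw [Finset.sum_add_distrib, h4, h5, h7]
    simp only [add_smul, sub_smul, Finset.sum_add_distrib, Finset.sum_sub_distrib]
    rfl
  have hY' : ∀ i j, Y' i j = (a * Y) i j + d (Y i j) - (Y * a) i j := by
    intro i j
    change Algebra.leftMulMatrix b (D y) i j = _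
    rw [Algebra.leftMulMatrix_eq_repr_mul, key j, b.repr_sum_self]
  rw [Algebra.trace_eq_matrix_trace b, Algebra.trace_eq_matrix_trace b]
  have h8 : Matrix.trace Y' = Matrix.trace (a * Y) + dh (Matrix.trace Y) - Matrix.trace (Y * a) := by
    simp only [Matrix.trace, Matrix.diag, map_sum]
    rw [← Finset.sum_add_distrib, ← Finset.sum_sub_distrib]
    exact Finset.sum_congr rfl fun i _ => hY' i i
  change Matrix.trace Y' = dh (Matrix.trace Y)
  rw [h8, Matrix.trace_mul_comm a Y]
  ring

end Field

end Vale.Agent.Lib.P266
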