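import Vale.Agent.Lib.P266.Noether

/-!
Derivations built degree by degree, the Euler derivation and the main vanishing statement.
-/

namespace Vale.Agent.Lib.P266

set_option linter.unusedSectionVars false
set_option linter.overlappingInstances false
set_option linter.style.haveILetI false

open scoped nonZeroDivisors

section Shift

variable {k A : Type*} [Field k] [CommRing A] [Algebra k A]
  (𝒜 : ℕ → Submodule k A) [GradedAlgebra 𝒜]

/-- The additive map with prescribed restrictions to the graded pieces. -/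
noncomputable def homExt (f : ∀ l, 𝒜 l →+ A) : A →+ A :=
  (DirectSum.toAddMonoid f).comp (DirectSum.decomposeAddEquiv 𝒜).toAddMonoidHom

lemma homExt_of_mem (f : ∀ l, 𝒜 l →+ A) {l : ℕ} (x : 𝒜 l) : homExt 𝒜 f x = f l x := by
  simp [homExt, DirectSum.decompose_coe]

lemma homExt_of_mem' (f : ∀ l, 𝒜 l →+ A) {l : ℕ} {x : A} (hx : x ∈ 𝒜 l) :
    homExt 𝒜 f x = f l ⟨x, hx⟩ := homExt_of_mem 𝒜 f ⟨x, hx⟩

lemma homExt_leibniz (f : ∀ l, 𝒜 l →+ A)
    (h : ∀ i j (x : 𝒜 i) (y : 𝒜 j), homExt 𝒜 f ((x : A) * y) = x * f j y + y * f i x) (a b : A) :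
    homExt 𝒜 f (a * b) = a * homExt 𝒜 f b + b * homExt 𝒜 f a := by
  induction a using DirectSum.Decomposition.inductionOn 𝒜 with
  | zero => simp
  | add a a' ha ha' =>
    rw [add_mul, map_add, ha, ha', map_add]
    ring
  | homogeneous x =>
    induction b using DirectSum.Decomposition.inductionOn 𝒜 with
    | zero => simp
    | add b b' hb hb' =>
      rw [mul_add, map_add, hb, hb', map_add]
      ring
    | homogeneous y =>
      rw [h, homExt_of_mem, homExt_of_mem]

/-- A derivation over the degree zero part, built degree by degree. -/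
noncomputable def mkDer (f : ∀ l, 𝒜 l →+ A)
    (h : ∀ i j (x : 𝒜 i) (y : 𝒜 j), homExt 𝒜 f ((x : A) * y) = x * f j y + y * f i x)
    (h0 : ∀ c : 𝒜 0, f 0 c = 0) : Derivation (𝒜 0) A A :=
  Derivation.mk'
    { toFun := homExt 𝒜 f
      map_add' := map_add _
      map_smul' := fun c a => by
        have h1 : c • a = (c : A) * a := rfl
        rw [h1, homExt_leibniz 𝒜 f h, homExt_of_mem, h0]
        simp only [mul_zero, add_zero, RingHom.id_apply]
        rfl }
    (fun a b => by
      change homExt 𝒜 f (a * b) = a • homExt 𝒜 f b + b • homExt 𝒜 f a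
      rw [homExt_leibniz 𝒜 f h]
      rfl)

lemma mkDer_apply (f : ∀ l, 𝒜 l →+ A)
    (h : ∀ i j (x : 𝒜 i) (y : 𝒜 j), homExt 𝒜 f ((x : A) * y) = x * f j y + y * f i x)
    (h0 : ∀ c : 𝒜 0, f 0 c = 0) (a : A) : mkDer 𝒜 f h h0 a = homExt 𝒜 f a := rfl

/-- The Euler derivation. -/
noncomputable def euler : Derivation (𝒜 0) A A :=
  mkDer 𝒜 (fun l =>
    { toFun := fun x => l • (x : A)
      map_zero' := by simp
      map_add' := fun x y => by simp })
    (fun i j x y => by
      have hm : (x : A) * y ∈ 𝒜 (i + j) := SetLike.mul_mem_graded x.2 y.2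
      rw [homExt_of_mem' 𝒜 _ hm]
      simp only [AddMonoidHom.mk'_apply, AddMonoidHom.coe_mk, ZeroHom.coe_mk, nsmul_eq_mul]
      push_cast
      ring)
    (fun c => by simp)

lemma euler_apply {l : ℕ} {x : A} (hx : x ∈ 𝒜 l) : euler 𝒜 x = l • x := by
  rw [euler, mkDer_apply, homExt_of_mem' 𝒜 _ hx]
  rfl

/-- The component of degree `-n` of a derivation, for `n > 0`. -/
noncomputable def negPart (p : Derivation k A A) (n : ℕ) (hn : 0 < n) : Derivation (𝒜 0) A A :=
  mkDer 𝒜 (fun l =>
    { toFun := fun x => if n ≤ l then GradedRing.proj 𝒜 (l - n) (p x) else 0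
      map_zero' := by simp
      map_add' := fun x y => by
        split_ifs <;> simp })
    (fun i j x y => by
      classical
      have hm : (x : A) * y ∈ 𝒜 (i + j) := SetLike.mul_mem_graded x.2 y.2
      rw [homExt_of_mem' 𝒜 _ hm]
      simp only [AddMonoidHom.coe_mk, ZeroHom.coe_mk]
      have hl : p ((x : A) * y) = (x : A) * p y + (y : A) * p x := by
        simp [Derivation.leibniz]
      rw [hl]
      by_cases h1 : n ≤ i + j
      · rw [if_pos h1, map_add]
        congr 1
        · by_cases h2 : n ≤ j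
          · rw [if_pos h2]
            have h3 : i + j - n = i + (j - n) := by omega
            rw [h3, GradedRing.proj_apply, GradedRing.proj_apply,
              DirectSum.coe_decompose_mul_add_of_left_mem 𝒜 x.2]
          · rw [if_neg h2, GradedRing.proj_apply,
              DirectSum.coe_decompose_mul_of_left_mem_of_not_le 𝒜 x.2 (by omega), mul_zero]
        · by_cases h2 : n ≤ i
          · rw [if_pos h2]
            have h3 : i + j - n = j + (i - n) := by omega
            rw [h3, GradedRing.proj_apply, GradedRing.proj_apply,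
              DirectSum.coe_decompose_mul_add_of_left_mem 𝒜 y.2]
          · rw [if_neg h2, GradedRing.proj_apply,
              DirectSum.coe_decompose_mul_of_left_mem_of_not_le 𝒜 y.2 (by omega), mul_zero]
      · rw [if_neg h1, if_neg (by omega), if_neg (by omega)]
        simp)
    (fun c => by
      have : ¬ n ≤ 0 := by omega
      simp [this])

lemma negPart_of_mem (p : Derivation k A A) (n : ℕ) (hn : 0 < n) {l : ℕ} {x : A} (hx : x ∈ 𝒜 l)
    (hl : n ≤ l) : negPart 𝒜 p n hn x = GradedRing.proj 𝒜 (l - n) (p x) := by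
  rw [negPart, mkDer_apply, homExt_of_mem' 𝒜 _ hx]
  simp [hl]

lemma negPart_of_lt (p : Derivation k A A) (n : ℕ) (hn : 0 < n) {l : ℕ} {x : A} (hx : x ∈ 𝒜 l)
    (hl : l < n) : negPart 𝒜 p n hn x = 0 := by
  rw [negPart, mkDer_apply, homExt_of_mem' 𝒜 _ hx]
  have : ¬ n ≤ l := by omega
  simp [this]

end Shift

end Vale.Agent.Lib.P266
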