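import Vale.Agent.Lib.P266.Zero

/-!
Projectivity of the derivation module expresses the Euler derivation with coefficients of
positive degree; the graded pieces of generators.
-/

namespace Vale.Agent.Lib.P266

set_option linter.unusedSectionVars false
set_option linter.overlappingInstances false
set_option linter.style.haveILetI false

open scoped nonZeroDivisors

section Expansion

variable {k A : Type*} [Field k] [CharZero k] [CommRing A] [IsDomain A] [IsIntegrallyClosed A]
  [Algebra k A] (𝒜 : ℕ → Submodule k A) [GradedAlgebra 𝒜] [Algebra.FiniteType (𝒜 0) A]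

theorem zero_part_L (L : Type*) [Field L] [Algebra A L] [IsFractionRing A L]
    (φ : Derivation (𝒜 0) A A →ₗ[A] A) :
    (DirectSum.decompose 𝒜 (φ (euler 𝒜)) 0 : A) = 0 := by
  classical
  haveI : IsDomain (𝒜 0) := isDomain_zero 𝒜
  letI : Algebra (𝒜 0) L := ((algebraMap A L).comp (algebraMap (𝒜 0) A)).toAlgebra
  haveI : IsScalarTower (𝒜 0) A L := IsScalarTower.of_algebraMap_eq (fun _ => rfl)
  haveI : FaithfulSMul (𝒜 0) L := by
    rw [faithfulSMul_iff_algebraMap_injective]
    exact (IsFractionRing.injective A L).comp Subtype.val_injective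
  letI : Algebra (FractionRing (𝒜 0)) L := FractionRing.liftAlgebra _ L
  haveI : IsScalarTower (𝒜 0) (FractionRing (𝒜 0)) L :=
    FractionRing.isScalarTower_liftAlgebra _ L
  exact zero_part_aux (K0 := FractionRing (𝒜 0)) (L := L) 𝒜 φ

/-- The degree zero part of the value of a functional on the Euler derivation vanishes. -/
theorem zero_part (φ : Derivation (𝒜 0) A A →ₗ[A] A) :
    (DirectSum.decompose 𝒜 (φ (euler 𝒜)) 0 : A) = 0 :=
  zero_part_L 𝒜 (FractionRing A) φ

/-- Restriction of scalars from the degree zero part to the base field. -/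
noncomputable def restr : Derivation (𝒜 0) A A →ₗ[A] Derivation k A A where
  toFun D := Derivation.mk'
    { toFun := D
      map_add' := map_add D
      map_smul' := fun r a => by
        have h1 : r • a = (algebraMap k (𝒜 0) r) • a := by
          change r • a = ((algebraMap k (𝒜 0) r : 𝒜 0) : A) * a
          rw [Algebra.smul_def]
          rfl
        rw [h1, D.map_smul, RingHom.id_apply]
        change ((algebraMap k (𝒜 0) r : 𝒜 0) : A) * D a = r • D a
        rw [Algebra.smul_def]
        rfl }
    (fun a b => D.leibniz a b)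
  map_add' _ _ := rfl
  map_smul' _ _ := rfl

lemma restr_apply (D : Derivation (𝒜 0) A A) (a : A) : restr 𝒜 D a = D a := rfl

/-- The Euler derivation has an expansion with coefficients without degree zero part. -/
theorem exists_expansion [Module.Projective A (Derivation k A A)] :
    ∃ (I : Finset (Derivation k A A)) (w : Derivation k A A → A),
      (∀ p, (DirectSum.decompose 𝒜 (w p) 0 : A) = 0) ∧
      ∀ a, euler 𝒜 a = ∑ p ∈ I, w p * p a := by
  classical
  obtain ⟨s, hs⟩ := Module.projective_def'.1 (inferInstance : Module.Projective A (Derivation k A A))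
  let Ek := restr 𝒜 (euler 𝒜)
  refine ⟨(s Ek).support, fun p => s Ek p, ?_, ?_⟩
  · intro p
    let φ : Derivation (𝒜 0) A A →ₗ[A] A :=
      (Finsupp.lapply p).comp (s.comp (restr 𝒜))
    exact zero_part 𝒜 φ
  · intro a
    have h1 := LinearMap.congr_fun hs Ek
    simp only [LinearMap.comp_apply, LinearMap.id_apply, Finsupp.linearCombination_apply,
      Finsupp.sum, id] at h1
    have h2 : euler 𝒜 a = Ek a := rfl
    rw [h2]
    conv_lhs => rw [← h1]
    have h3 : (∑ p ∈ (s Ek).support, (s Ek p) • p) a =
        ∑ p ∈ (s Ek).support, ((s Ek p) • p) a :=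
      map_sum ((Pi.evalAddMonoidHom _ a).comp Derivation.coeFnAddMonoidHom) _ _
    rw [h3]
    rfl

end Expansion

end Vale.Agent.Lib.P266
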