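import Vale.Agent.Lib.P266.Main

/-!
The version over a non-local degree zero part: polynomial after inverting one element of
the degree zero part outside a given maximal ideal.
-/

namespace Vale.Agent.Lib.P266

set_option linter.unusedSectionVars false
set_option linter.overlappingInstances false
set_option linter.style.haveILetI false

open scoped nonZeroDivisors

section Sat

variable {k A : Type*} [Field k] [CommRing A] [Algebra k A]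
  (𝒜 : ℕ → Submodule k A) [GradedAlgebra 𝒜] [DecidableEq A]
  (𝔪 : Ideal (𝒜 0)) [𝔪.IsPrime]

/-- `a` lies in the saturation of the subalgebra `C` with respect to the complement of `𝔪`. -/
def InSat (C : Subalgebra (𝒜 0) A) (a : A) : Prop :=
  ∃ s : 𝒜 0, s ∉ 𝔪 ∧ (s : A) * a ∈ C

variable {𝒜 𝔪} in
lemma InSat.of_mem {C : Subalgebra (𝒜 0) A} {a : A} (ha : a ∈ C) : InSat 𝒜 𝔪 C a :=
  ⟨1, fun h => (Ideal.ne_top_iff_one 𝔪).1 (Ideal.IsPrime.ne_top ‹_›) h, by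
    have h1 : ((1 : 𝒜 0) : A) = 1 := rfl
    rw [h1, one_mul]
    exact ha⟩

variable {𝒜 𝔪} in
lemma InSat.add {C : Subalgebra (𝒜 0) A} {a b : A} (ha : InSat 𝒜 𝔪 C a) (hb : InSat 𝒜 𝔪 C b) :
    InSat 𝒜 𝔪 C (a + b) := by
  obtain ⟨s, hs, hsa⟩ := ha
  obtain ⟨t, ht, htb⟩ := hb
  refine ⟨s * t, fun h => (‹𝔪.IsPrime›.mem_or_mem h).elim hs ht, ?_⟩
  have h1 : ((s * t : 𝒜 0) : A) * (a + b) = (t : A) * ((s : A) * a) + (s : A) * ((t : A) * b) := by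
    have : ((s * t : 𝒜 0) : A) = (s : A) * t := rfl
    rw [this]
    ring
  rw [h1]
  exact C.add_mem (C.mul_mem (C.algebraMap_mem t) hsa) (C.mul_mem (C.algebraMap_mem s) htb)

variable {𝒜 𝔪} in
lemma InSat.mul {C : Subalgebra (𝒜 0) A} {a b : A} (ha : InSat 𝒜 𝔪 C a) (hb : InSat 𝒜 𝔪 C b) :
    InSat 𝒜 𝔪 C (a * b) := by
  obtain ⟨s, hs, hsa⟩ := ha
  obtain ⟨t, ht, htb⟩ := hb
  refine ⟨s * t, fun h => (‹𝔪.IsPrime›.mem_or_mem h).elim hs ht, ?_⟩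
  have h1 : ((s * t : 𝒜 0) : A) * (a * b) = ((s : A) * a) * ((t : A) * b) := by
    have : ((s * t : 𝒜 0) : A) = (s : A) * t := rfl
    rw [this]
    ring
  rw [h1]
  exact C.mul_mem hsa htb

/-- An element of the subalgebra generated by `F` is congruent modulo `x0` to an element of the
subalgebra generated by the other generators. -/
lemma exists_decomp' (F : Finset A) (x0 : A) (a : A) (ha : a ∈ Algebra.adjoin (𝒜 0) (F : Set A)) :
    ∃ c ∈ Algebra.adjoin (𝒜 0) (F.erase x0 : Set A), ∃ b : A, a = c + x0 * b := by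
  induction ha using Algebra.adjoin_induction with
  | mem x hx =>
    by_cases hxx : x = x0
    · exact ⟨0, Subalgebra.zero_mem _, 1, by rw [hxx]; ring⟩
    · refine ⟨x, Algebra.subset_adjoin ?_, 0, by ring⟩
      exact Finset.mem_coe.2 (Finset.mem_erase.2 ⟨hxx, hx⟩)
  | algebraMap r => exact ⟨_, Subalgebra.algebraMap_mem _ r, 0, by ring⟩
  | add x y _ _ hx hy =>
    obtain ⟨c, hc, b, rfl⟩ := hx
    obtain ⟨c', hc', b', rfl⟩ := hy
    exact ⟨c + c', Subalgebra.add_mem _ hc hc', b + b', by ring⟩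
  | mul x y _ _ hx hy =>
    obtain ⟨c, hc, b, rfl⟩ := hx
    obtain ⟨c', hc', b', rfl⟩ := hy
    exact ⟨c * c', Subalgebra.mul_mem _ hc hc', b * c' + c * b' + x0 * b * b', by ring⟩

lemma smul_zero_mem (s : 𝒜 0) {l : ℕ} {a : A} (ha : a ∈ 𝒜 l) : (s : A) * a ∈ 𝒜 l := by
  have h1 := SetLike.mul_mem_graded s.2 ha
  rwa [zero_add] at h1

/-- Elements of degree below that of `x0`. -/
lemma low_mem' (F : Finset A) (x0 : A) (hgen : ∀ a, InSat 𝒜 𝔪 (Algebra.adjoin (𝒜 0) (F : Set A)) a)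
    (hF : ∀ x ∈ F, ∃ n, x ∈ 𝒜 n) {n : ℕ} (hx0 : x0 ∈ 𝒜 n) {l : ℕ} (hl : l < n) {a : A}
    (ha : a ∈ 𝒜 l) : InSat 𝒜 𝔪 (Algebra.adjoin (𝒜 0) (F.erase x0 : Set A)) a := by
  obtain ⟨s, hs, hsa⟩ := hgen a
  obtain ⟨c, hc, b, hab⟩ := exists_decomp' 𝒜 F x0 _ hsa
  refine ⟨s, hs, ?_⟩
  have h1 : (DirectSum.decompose 𝒜 ((s : A) * a) l : A) = (s : A) * a :=
    DirectSum.decompose_of_mem_same 𝒜 (smul_zero_mem 𝒜 s ha)
  rw [← h1, hab, DirectSum.decompose_add, DirectSum.add_apply, AddMemClass.coe_add,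
    DirectSum.coe_decompose_mul_of_left_mem_of_not_le 𝒜 hx0 (by omega), add_zero]
  exact adjoin_homog 𝒜 _ (erase_homog hF) c hc l

/-- Elements of the degree of `x0`. -/
lemma mid_mem' (F : Finset A) (x0 : A) (hgen : ∀ a, InSat 𝒜 𝔪 (Algebra.adjoin (𝒜 0) (F : Set A)) a)
    (hF : ∀ x ∈ F, ∃ n, x ∈ 𝒜 n) {n : ℕ} (hx0 : x0 ∈ 𝒜 n) {a : A} (ha : a ∈ 𝒜 n) :
    ∃ s : 𝒜 0, s ∉ 𝔪 ∧ ∃ c ∈ Algebra.adjoin (𝒜 0) (F.erase x0 : Set A), ∃ μ : 𝒜 0,
      (s : A) * a = c + (μ : A) * x0 := by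
  obtain ⟨s, hs, hsa⟩ := hgen a
  obtain ⟨c, hc, b, hab⟩ := exists_decomp' 𝒜 F x0 _ hsa
  have h1 : (DirectSum.decompose 𝒜 ((s : A) * a) n : A) = (s : A) * a :=
    DirectSum.decompose_of_mem_same 𝒜 (smul_zero_mem 𝒜 s ha)
  refine ⟨s, hs, _, adjoin_homog 𝒜 _ (erase_homog hF) c hc n, DirectSum.decompose 𝒜 b 0, ?_⟩
  have h2 := DirectSum.coe_decompose_mul_add_of_left_mem 𝒜 (i := n) (j := 0) (a := x0) (b := b) hx0
  rw [add_zero] at h2
  rw [← h1]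
  conv_lhs => rw [hab]
  rw [DirectSum.decompose_add, DirectSum.add_apply, AddMemClass.coe_add, h2]
  ring

/-- The additive set of elements which, up to a factor outside `𝔪`, have the form `c + μ x0`. -/
def Yset' (C : Subalgebra (𝒜 0) A) (x0 : A) : AddSubmonoid A where
  carrier := {y | ∃ s : 𝒜 0, s ∉ 𝔪 ∧ ∃ c ∈ C, ∃ μ ∈ 𝔪, (s : A) * y = c + (μ : A) * x0}
  zero_mem' := ⟨1, fun h => (Ideal.ne_top_iff_one 𝔪).1 (Ideal.IsPrime.ne_top ‹_›) h,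
    0, C.zero_mem, 0, Ideal.zero_mem _, by simp⟩
  add_mem' := by
    rintro y y' ⟨s, hs, c, hc, μ, hμ, h⟩ ⟨s', hs', c', hc', μ', hμ', h'⟩
    refine ⟨s * s', fun h => (‹𝔪.IsPrime›.mem_or_mem h).elim hs hs',
      (s' : A) * c + (s : A) * c', C.add_mem (C.mul_mem (C.algebraMap_mem s') hc)
        (C.mul_mem (C.algebraMap_mem s) hc'),
      s' * μ + s * μ', Ideal.add_mem _ (Ideal.mul_mem_left _ _ hμ) (Ideal.mul_mem_left _ _ hμ'), ?_⟩
    have h1 : ((s * s' : 𝒜 0) : A) = (s : A) * s' := rfl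
    have h2 : ((s' * μ + s * μ' : 𝒜 0) : A) = (s' : A) * μ + (s : A) * μ' := rfl
    rw [h1, h2]
    linear_combination (s' : A) * h + (s : A) * h'

/-- The degree `n` part of a product lies in `Yset'`. -/
lemma proj_mul_mem' (F : Finset A) (x0 : A)
    (hgen : ∀ a, InSat 𝒜 𝔪 (Algebra.adjoin (𝒜 0) (F : Set A)) a)
    (hF : ∀ x ∈ F, ∃ n, x ∈ 𝒜 n) {n : ℕ} (hx0 : x0 ∈ 𝒜 n) (a b : A)
    (ha : (DirectSum.decompose 𝒜 a 0 : A) = 0)
    (hb : DirectSum.decompose 𝒜 b 0 ∈ 𝔪) :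
    GradedRing.proj 𝒜 n (a * b) ∈ Yset' 𝒜 𝔪 (Algebra.adjoin (𝒜 0) (F.erase x0 : Set A)) x0 := by
  have hsum : a * b = ∑ i ∈ (DirectSum.decompose 𝒜 a).support, ∑ j ∈ (DirectSum.decompose 𝒜 b).support,
      ((DirectSum.decompose 𝒜 a i : A) * (DirectSum.decompose 𝒜 b j : A)) := by
    conv_lhs => rw [← DirectSum.sum_support_decompose 𝒜 a, ← DirectSum.sum_support_decompose 𝒜 b]
    rw [Finset.sum_mul_sum]
  rw [hsum, map_sum]
  refine AddSubmonoid.sum_mem _ fun i _ => ?_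
  rw [map_sum]
  refine AddSubmonoid.sum_mem _ fun j _ => ?_
  have hai : (DirectSum.decompose 𝒜 a i : A) ∈ 𝒜 i := SetLike.coe_mem _
  have hbj : (DirectSum.decompose 𝒜 b j : A) ∈ 𝒜 j := SetLike.coe_mem _
  have hprod := SetLike.mul_mem_graded hai hbj
  rw [GradedRing.proj_apply]
  have hone : (1 : 𝒜 0) ∉ 𝔪 := fun h => (Ideal.ne_top_iff_one 𝔪).1 (Ideal.IsPrime.ne_top ‹_›) h
  by_cases hij : i + j = n
  · rw [DirectSum.decompose_of_mem_same 𝒜 (hij ▸ hprod)]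
    rcases Nat.eq_zero_or_pos i with rfl | hi
    · rw [ha, zero_mul]
      exact AddSubmonoid.zero_mem _
    rcases Nat.eq_zero_or_pos j with rfl | hj
    · rw [add_zero] at hij
      subst hij
      obtain ⟨s, hs, c, hc, μ, hμ⟩ := mid_mem' 𝒜 𝔪 F x0 hgen hF hx0 hai
      refine ⟨s, hs, (DirectSum.decompose 𝒜 b 0 : 𝒜 0) • c, Subalgebra.smul_mem _ hc _,
        (DirectSum.decompose 𝒜 b 0 : 𝒜 0) * μ, Ideal.mul_mem_right _ _ hb, ?_⟩
      have h1 : (DirectSum.decompose 𝒜 b 0 : 𝒜 0) • c = (DirectSum.decompose 𝒜 b 0 : A) * c := rfl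
      have h2 : (((DirectSum.decompose 𝒜 b 0 : 𝒜 0) * μ : 𝒜 0) : A) =
        (DirectSum.decompose 𝒜 b 0 : A) * μ := rfl
      rw [h1, h2]
      linear_combination (DirectSum.decompose 𝒜 b 0 : A) * hμ
    · obtain ⟨s, hs, h1⟩ := low_mem' 𝒜 𝔪 F x0 hgen hF hx0 (by omega : i < n) hai
      obtain ⟨t, ht, h2⟩ := low_mem' 𝒜 𝔪 F x0 hgen hF hx0 (by omega : j < n) hbj
      refine ⟨s * t, fun h => (‹𝔪.IsPrime›.mem_or_mem h).elim hs ht, _,
        Subalgebra.mul_mem _ h1 h2, 0, Ideal.zero_mem _, ?_⟩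
      have h3 : ((s * t : 𝒜 0) : A) = (s : A) * t := rfl
      have h4 : ((0 : 𝒜 0) : A) = 0 := rfl
      rw [h3, h4]
      ring
  · rw [DirectSum.decompose_of_mem_ne 𝒜 hprod hij]
    exact AddSubmonoid.zero_mem _

/-- If a combination of generators of the degree of `x0`, with a coefficient outside `𝔪` at `x0`,
had all its derivatives in `𝔪`, then `x0` would be redundant. -/
theorem exists_deriv_not_mem' (hk : ∀ m : ℕ, m ≠ 0 → IsUnit (m : 𝒜 0))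
    (I : Finset (Derivation k A A)) (w : Derivation k A A → A)
    (hw : ∀ p, (DirectSum.decompose 𝒜 (w p) 0 : A) = 0)
    (hexp : ∀ a, euler 𝒜 a = ∑ p ∈ I, w p * p a)
    (F : Finset A) (hgen : ∀ a, InSat 𝒜 𝔪 (Algebra.adjoin (𝒜 0) (F : Set A)) a)
    (hF : ∀ x ∈ F, ∃ n, x ∈ 𝒜 n)
    (x0 : A) {n : ℕ} (hn : 0 < n) (hx0 : x0 ∈ 𝒜 n)
    (hmin : ¬ InSat 𝒜 𝔪 (Algebra.adjoin (𝒜 0) (F.erase x0 : Set A)) x0)
    (J : Finset A) (hJF : J ⊆ F) (hJ : ∀ x ∈ J, x ∈ 𝒜 n) (hx0J : x0 ∈ J) (c : J → 𝒜 0)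
    (hc : c ⟨x0, hx0J⟩ ∉ 𝔪) :
    ∃ p ∈ I, DirectSum.decompose 𝒜 (p (∑ x : J, (c x : A) * (x : A))) 0 ∉ 𝔪 := by
  by_contra hall
  push Not at hall
  set f := ∑ x : J, (c x : A) * (x : A) with hf
  have hfn : f ∈ 𝒜 n := Submodule.sum_mem _ fun x _ => smul_zero_mem 𝒜 _ (hJ x x.2)
  have hnf : (n : A) * f ∈ 𝒜 n := by
    have h1 : (n : A) * f = n • f := by rw [nsmul_eq_mul]
    rw [h1]
    exact Submodule.smul_of_tower_mem _ n hfn
  have h1 : (n : A) * f = ∑ p ∈ I, w p * p f := by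
    rw [← hexp, euler_apply 𝒜 hfn, nsmul_eq_mul]
  have h2 : (n : A) * f ∈ Yset' 𝒜 𝔪 (Algebra.adjoin (𝒜 0) (F.erase x0 : Set A)) x0 := by
    have h3 : GradedRing.proj 𝒜 n ((n : A) * f) = (n : A) * f := by
      rw [GradedRing.proj_apply, DirectSum.decompose_of_mem_same 𝒜 hnf]
    rw [← h3, h1, map_sum]
    refine AddSubmonoid.sum_mem _ fun p hp => ?_
    exact proj_mul_mem' 𝒜 𝔪 F x0 hgen hF hx0 _ _ (hw p) (hall p hp)
  obtain ⟨s, hs, c', hc', μ, hμ, hcμ⟩ := h2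
  let x0' : J := ⟨x0, hx0J⟩
  let f' : A := ∑ x ∈ Finset.univ.erase x0', (c x : A) * (x : A)
  have hf' : f' ∈ Algebra.adjoin (𝒜 0) (F.erase x0 : Set A) := by
    refine Subalgebra.sum_mem _ fun x hx => ?_
    have hx1 : (x : A) ≠ x0 := fun h => (Finset.mem_erase.1 hx).1 (Subtype.ext h)
    have hx2 : (x : A) ∈ Algebra.adjoin (𝒜 0) (F.erase x0 : Set A) :=
      Algebra.subset_adjoin (Finset.mem_coe.2 (Finset.mem_erase.2 ⟨hx1, hJF x.2⟩))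
    exact Subalgebra.mul_mem _ (Subalgebra.algebraMap_mem _ (c x)) hx2
  have hfdec : f = (c x0' : A) * x0 + f' :=
    (Finset.add_sum_erase Finset.univ (fun x : J => (c x : A) * (x : A)) (Finset.mem_univ x0')).symm
  -- the multiplier
  let u : 𝒜 0 := s * (n : 𝒜 0) * c x0' - μ
  have hnm : (n : 𝒜 0) ∉ 𝔪 := by
    intro hnm
    obtain ⟨v, hv⟩ := hk n hn.ne'
    apply (Ideal.ne_top_iff_one 𝔪).1 (Ideal.IsPrime.ne_top ‹_›)
    have h3 : (1 : 𝒜 0) = ((v⁻¹ : (𝒜 0)ˣ) : 𝒜 0) * (n : 𝒜 0) := by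
      rw [← hv]
      simp
    rw [h3]
    exact Ideal.mul_mem_left _ _ hnm
  have hu : u ∉ 𝔪 := by
    intro hu
    have h3 : s * (n : 𝒜 0) * c x0' ∈ 𝔪 := by
      have h4 : s * (n : 𝒜 0) * c x0' = u + μ := by simp [u]
      rw [h4]
      exact Ideal.add_mem _ hu hμ
    rcases ‹𝔪.IsPrime›.mem_or_mem h3 with h5 | h5
    · rcases ‹𝔪.IsPrime›.mem_or_mem h5 with h6 | h6
      · exact hs h6
      · exact hnm h6
    · exact hc h5
  apply hmin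
  refine ⟨u, hu, ?_⟩
  have h5 : (u : A) * x0 = c' - (s : A) * ((n : A) * f') := by
    have h6 : ((n : 𝒜 0) : A) = (n : A) := by simp
    have h7 : (u : A) = (s : A) * (n : A) * (c x0' : A) - (μ : A) := by
      have h8 : (u : A) = (s : A) * ((n : 𝒜 0) : A) * (c x0' : A) - (μ : A) := rfl
      rw [h8, h6]
    rw [h7]
    rw [hfdec] at hcμ
    linear_combination hcμ
  rw [h5]
  refine Subalgebra.sub_mem _ hc' (Subalgebra.mul_mem _ (Subalgebra.algebraMap_mem _ s)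
    (Subalgebra.mul_mem _ ?_ hf'))
  exact Subalgebra.natCast_mem _ n

end Sat

end Vale.Agent.Lib.P266
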