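import Mathlib.Algebra.MvPolynomial.PDeriv
import Mathlib.RingTheory.AlgebraicIndependent.Basic
import Mathlib.RingTheory.Derivation.Basic
import Mathlib.LinearAlgebra.Matrix.NonsingularInverse
import Mathlib.LinearAlgebra.Matrix.ToLinearEquiv

/-!
A Jacobian criterion for algebraic independence in characteristic zero.
-/

namespace Vale.Agent.Lib.P266

set_option linter.unusedSectionVars false

section Jacobian

variable {R A ι : Type*} [CommRing R] [CommRing A] [Algebra R A] [Fintype ι] [DecidableEq ι]

lemma chain_rule (f : ι → A) (δ : Derivation R A A) (Q : MvPolynomial ι R) :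
    δ (MvPolynomial.aeval f Q) =
      ∑ j, MvPolynomial.aeval f (MvPolynomial.pderiv j Q) * δ (f j) := by
  induction Q using MvPolynomial.induction_on with
  | C r =>
    simp [MvPolynomial.pderiv_C]
  | add p q hp hq =>
    simp only [map_add, hp, hq, add_mul, Finset.sum_add_distrib]
  | mul_X p i hp =>
    rw [map_mul, MvPolynomial.aeval_X, Derivation.leibniz, hp]
    simp only [MvPolynomial.pderiv_mul, map_add, map_mul, MvPolynomial.aeval_X, smul_eq_mul,
      add_mul, Finset.sum_add_distrib]
    rw [add_comm]
    congr 1
    · rw [Finset.mul_sum]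
      refine Finset.sum_congr rfl fun j _ => ?_
      ring
    · rw [Finset.sum_eq_single i]
      · simp
      · intro j _ hj
        rw [MvPolynomial.pderiv_X_of_ne hj.symm]
        simp
      · simp

lemma totalDegree_pderiv_lt (Q : MvPolynomial ι R) (j : ι) (h : MvPolynomial.pderiv j Q ≠ 0) :
    (MvPolynomial.pderiv j Q).totalDegree < Q.totalDegree := by
  classical
  have key : ∀ m ∈ (MvPolynomial.pderiv j Q).support,
      (m.sum fun _ e => e) < Q.totalDegree := by
    intro m hm
    have h1 : MvPolynomial.coeff m (MvPolynomial.pderiv j Q) ≠ 0 :=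
      MvPolynomial.mem_support_iff.1 hm
    rw [MvPolynomial.coeff_pderiv] at h1
    have h2 : MvPolynomial.coeff (m + Finsupp.single j 1) Q ≠ 0 := left_ne_zero_of_mul h1
    have h3 := MvPolynomial.le_totalDegree (MvPolynomial.mem_support_iff.2 h2)
    rw [Finsupp.sum_add_index' (by simp) (by simp), Finsupp.sum_single_index rfl] at h3
    omega
  obtain ⟨m, hm⟩ := MvPolynomial.support_nonempty.2 h
  have hpos : 0 < Q.totalDegree := lt_of_le_of_lt (Nat.zero_le _) (key m hm)
  rw [MvPolynomial.totalDegree]
  exact (Finset.sup_lt_iff hpos).2 key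

/-- The Jacobian criterion. -/
theorem algebraicIndependent_of_det [IsDomain A] [IsDomain R] [CharZero R]
    (hinj : Function.Injective (algebraMap R A)) (f : ι → A) (δ : ι → Derivation R A A)
    (hdet : Matrix.det (Matrix.of fun i j => δ i (f j)) ≠ 0) : AlgebraicIndependent R f := by
  classical
  rw [algebraicIndependent_iff]
  intro Q
  induction hn : Q.totalDegree using Nat.strong_induction_on generalizing Q with
  | _ n ih =>
    intro hQ
    have hv : (fun j => MvPolynomial.aeval f (MvPolynomial.pderiv j Q)) = 0 := by
      apply Matrix.eq_zero_of_mulVec_eq_zero hdet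
      funext i
      have h1 := chain_rule f (δ i) Q
      rw [hQ, map_zero] at h1
      simp only [Matrix.mulVec, dotProduct, Matrix.of_apply, Pi.zero_apply]
      rw [h1]
      exact Finset.sum_congr rfl fun j _ => mul_comm _ _
    have hp : ∀ j, MvPolynomial.pderiv j Q = 0 := by
      intro j
      by_contra hne
      have h2 := totalDegree_pderiv_lt Q j hne
      rw [hn] at h2
      exact hne (ih _ h2 _ rfl (congrFun hv j))
    have hcoeff : ∀ m : ι →₀ ℕ, m ≠ 0 → MvPolynomial.coeff m Q = 0 := by
      intro m hm
      obtain ⟨j, hj⟩ := Finsupp.ne_iff.1 hm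
      have hj' : m j ≠ 0 := hj
      obtain ⟨m', hm'⟩ : ∃ m' : ι →₀ ℕ, m = m' + Finsupp.single j 1 :=
        ⟨m - Finsupp.single j 1, by
          ext i
          by_cases hi : i = j
          · subst hi
            simp
            omega
          · simp [Finsupp.single_apply, Ne.symm hi]⟩
      have h3 := MvPolynomial.coeff_pderiv (i := j) Q m'
      rw [hp j, MvPolynomial.coeff_zero, ← hm'] at h3
      have h4 : ((m' j + 1 : ℕ) : R) ≠ 0 := Nat.cast_ne_zero.2 (by omega)
      push_cast at h4
      exact (mul_eq_zero.1 h3.symm).resolve_right h4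
    have hQC : Q = MvPolynomial.C (MvPolynomial.coeff 0 Q) := by
      ext m
      by_cases hm : m = 0
      · subst hm
        simp
      · rw [hcoeff m hm, MvPolynomial.coeff_C, if_neg (Ne.symm hm)]
    rw [hQC, MvPolynomial.aeval_C] at hQ
    have h5 := (map_eq_zero_iff _ hinj).1 hQ
    rw [hQC, h5, map_zero]

end Jacobian

end Vale.Agent.Lib.P266
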