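import Vale.Agent.Lib.P266.Minimal

/-!
The main theorem: a normal graded algebra with local degree zero part and projective
derivation module is a polynomial ring over its degree zero part.
-/

namespace Vale.Agent.Lib.P266

set_option linter.unusedSectionVars false
set_option linter.overlappingInstances false
set_option linter.style.haveILetI false

open scoped nonZeroDivisors

section Main

variable {k A : Type*} [Field k] [CommRing A] [Algebra k A]
  (𝒜 : ℕ → Submodule k A) [GradedAlgebra 𝒜] [IsLocalRing (𝒜 0)]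

/-- Derivations lowering degrees by `n`. -/
def IsDeg (δ : Derivation (𝒜 0) A A) (n : ℕ) : Prop :=
  ∀ l a, a ∈ 𝒜 l → (n ≤ l → δ a ∈ 𝒜 (l - n)) ∧ (l < n → δ a = 0)

/-- The map to the residue field of the degree zero part. -/
noncomputable def resPi : A →+* IsLocalRing.ResidueField (𝒜 0) :=
  (IsLocalRing.residue (𝒜 0)).comp (pi0 𝒜)

lemma resPi_zero (c : 𝒜 0) : resPi 𝒜 (c : A) = IsLocalRing.residue (𝒜 0) c := by
  simp [resPi, pi0_of_zero]

lemma resPi_pos {l : ℕ} (hl : 0 < l) {a : A} (ha : a ∈ 𝒜 l) : resPi 𝒜 a = 0 := by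
  simp [resPi, pi0_of_pos 𝒜 hl ha]

lemma negPart_isDeg (p : Derivation k A A) (n : ℕ) (hn : 0 < n) :
    IsDeg 𝒜 (negPart 𝒜 p n hn) n := by
  intro l a ha
  refine ⟨fun hl => ?_, fun hl => negPart_of_lt 𝒜 p n hn ha hl⟩
  rw [negPart_of_mem 𝒜 p n hn ha hl, GradedRing.proj_apply]
  exact SetLike.coe_mem _

/-- Any prescribed values in the residue field on generators of degree `n` are attained
by a derivation lowering degrees by `n`. -/
theorem exists_degree_derivation [DecidableEq A] (hk : ∀ m : ℕ, m ≠ 0 → IsUnit (m : 𝒜 0))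
    (I : Finset (Derivation k A A)) (w : Derivation k A A → A)
    (hw : ∀ p, (DirectSum.decompose 𝒜 (w p) 0 : A) = 0)
    (hexp : ∀ a, euler 𝒜 a = ∑ p ∈ I, w p * p a)
    (F : Finset A) (hgen : Algebra.adjoin (𝒜 0) (F : Set A) = ⊤) (hF : ∀ x ∈ F, ∃ n, x ∈ 𝒜 n)
    {n : ℕ} (hn : 0 < n) (J : Finset A) (hJF : J ⊆ F) (hJ : ∀ x ∈ J, x ∈ 𝒜 n)
    (hmin : ∀ x0 ∈ J, x0 ∉ Algebra.adjoin (𝒜 0) (F.erase x0 : Set A))
    (v : J → IsLocalRing.ResidueField (𝒜 0)) :
    ∃ δ, IsDeg 𝒜 δ n ∧ ∀ x : J, v x = resPi 𝒜 (δ x) := by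
  classical
  let κ := IsLocalRing.ResidueField (𝒜 0)
  let U : Submodule κ (J → κ) :=
    { carrier := {v | ∃ δ, IsDeg 𝒜 δ n ∧ ∀ x : J, v x = resPi 𝒜 (δ x)}
      zero_mem' := ⟨0, fun l a _ => ⟨fun _ => by simp, fun _ => by simp⟩, fun x => by simp⟩
      add_mem' := by
        rintro v v' ⟨δ, hδ, hv⟩ ⟨δ', hδ', hv'⟩
        refine ⟨δ + δ', fun l a ha => ⟨fun hl => ?_, fun hl => ?_⟩, fun x => ?_⟩
        · exact Submodule.add_mem _ ((hδ l a ha).1 hl) ((hδ' l a ha).1 hl)
        · simp [(hδ l a ha).2 hl, (hδ' l a ha).2 hl]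
        · simp [hv x, hv' x]
      smul_mem' := by
        rintro r v ⟨δ, hδ, hv⟩
        obtain ⟨r', rfl⟩ := IsLocalRing.residue_surjective r
        refine ⟨(r' : A) • δ, fun l a ha => ⟨fun hl => ?_, fun hl => ?_⟩, fun x => ?_⟩
        · have h1 := SetLike.mul_mem_graded r'.2 ((hδ l a ha).1 hl)
          rw [zero_add] at h1
          exact h1
        · simp [(hδ l a ha).2 hl]
        · simp only [Pi.smul_apply, hv x, Derivation.smul_apply, smul_eq_mul, map_mul, resPi_zero] }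
  have hU : U = ⊤ := by
    by_contra hne
    obtain ⟨ℓ, hℓ0, hℓ⟩ := Submodule.exists_le_ker_of_lt_top U (lt_top_iff_ne_top.2 hne)
    let e : J → (J → κ) := fun x j => if x = j then 1 else 0
    have hform : ∀ u : J → κ, ℓ u = ∑ x, u x * ℓ (e x) := by
      intro u
      rw [LinearMap.pi_apply_eq_sum_univ ℓ u]
      rfl
    obtain ⟨x0, hx0⟩ : ∃ x0, ℓ (e x0) ≠ 0 := by
      by_contra hall
      push Not at hall
      apply hℓ0
      refine LinearMap.ext fun u => ?_
      rw [hform u]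
      simp [hall]
    have hlift : ∀ x, ∃ c : 𝒜 0, IsLocalRing.residue (𝒜 0) c = ℓ (e x) :=
      fun x => IsLocalRing.residue_surjective _
    choose c hc using hlift
    have hc0 : c x0 ∉ IsLocalRing.maximalIdeal (𝒜 0) := by
      rw [← IsLocalRing.residue_eq_zero_iff, hc]
      exact hx0
    obtain ⟨p, _, hp⟩ := exists_deriv_not_mem 𝒜 hk I w hw hexp F hgen hF x0.1 hn (hJ _ x0.2)
      (hmin _ x0.2) J hJF hJ x0.2 c hc0
    set f := ∑ x : J, (c x : A) * (x : A) with hf
    let δ := negPart 𝒜 p n hn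
    have hmem : (fun x : J => resPi 𝒜 (δ x)) ∈ U := ⟨δ, negPart_isDeg 𝒜 p n hn, fun _ => rfl⟩
    have h0 : ℓ (fun x : J => resPi 𝒜 (δ x)) = 0 := hℓ hmem
    rw [hform] at h0
    have hfn : f ∈ 𝒜 n := by
      refine Submodule.sum_mem _ fun x _ => ?_
      have h1 := SetLike.mul_mem_graded (c x).2 (hJ x x.2)
      rwa [zero_add] at h1
    have h1 : δ f = ∑ x : J, (c x : A) * δ x := by
      rw [hf, map_sum]
      refine Finset.sum_congr rfl fun x _ => ?_
      exact δ.map_smul (c x) (x : A)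
    have h2 : resPi 𝒜 (δ f) = 0 := by
      rw [h1, map_sum, ← h0]
      refine Finset.sum_congr rfl fun x _ => ?_
      rw [map_mul, resPi_zero, hc, mul_comm]
    have h3 : δ f = (DirectSum.decompose 𝒜 (p f) 0 : A) := by
      have h4 := negPart_of_mem 𝒜 p n hn hfn le_rfl
      rw [Nat.sub_self, GradedRing.proj_apply] at h4
      exact h4
    rw [h3, resPi_zero, IsLocalRing.residue_eq_zero_iff] at h2
    exact hp h2
  have hv : v ∈ U := by rw [hU]; trivial
  exact hv

/-- The main theorem. -/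
theorem graded_polynomial [CharZero k] [IsDomain A] [IsIntegrallyClosed A]
    [Algebra.FiniteType (𝒜 0) A] [Module.Projective A (Derivation k A A)] :
    ∃ (r : ℕ) (f : Fin r → A) (n : Fin r → ℕ), (∀ j, 0 < n j ∧ f j ∈ 𝒜 (n j)) ∧
      AlgebraicIndependent (𝒜 0) f ∧ Algebra.adjoin (𝒜 0) (Set.range f) = ⊤ := by
  classical
  haveI : IsDomain (𝒜 0) := isDomain_zero 𝒜
  have hinjk : Function.Injective (algebraMap k (𝒜 0)) := (algebraMap k (𝒜 0)).injective
  haveI : CharZero (𝒜 0) := charZero_of_injective_algebraMap hinjk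
  have hk : ∀ m : ℕ, m ≠ 0 → IsUnit (m : 𝒜 0) := by
    intro m hm
    have h1 : IsUnit (m : k) := (Nat.cast_ne_zero.2 hm).isUnit
    have h2 := h1.map (algebraMap k (𝒜 0))
    simpa using h2
  obtain ⟨I, w, hw, hexp⟩ := exists_expansion 𝒜
  let P : ℕ → Prop := fun r => ∃ F : Finset A, ((∀ x ∈ F, ∃ n, 0 < n ∧ x ∈ 𝒜 n) ∧
    Algebra.adjoin (𝒜 0) (F : Set A) = ⊤) ∧ F.card = r
  have hex : ∃ r, P r := by
    obtain ⟨F, h1, h2⟩ := exists_homog_gens 𝒜
    exact ⟨_, F, ⟨h1, h2⟩, rfl⟩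
  obtain ⟨F, ⟨hF, hgen⟩, hcard⟩ := Nat.find_spec hex
  have hminF : ∀ F' : Finset A, (∀ x ∈ F', ∃ n, 0 < n ∧ x ∈ 𝒜 n) →
      Algebra.adjoin (𝒜 0) (F' : Set A) = ⊤ → F.card ≤ F'.card := fun F' h1 h2 => by
    rw [hcard]
    exact Nat.find_min' hex ⟨F', ⟨h1, h2⟩, rfl⟩
  have hmin : ∀ x0 ∈ F, x0 ∉ Algebra.adjoin (𝒜 0) (F.erase x0 : Set A) := by
    intro x0 hx0 hmem
    have h1 : Algebra.adjoin (𝒜 0) (F.erase x0 : Set A) = ⊤ := by
      rw [eq_top_iff, ← hgen]
      refine Algebra.adjoin_le fun x hx => ?_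
      by_cases hxx : x = x0
      · rw [hxx]
        exact hmem
      · exact Algebra.subset_adjoin (Finset.mem_coe.2 (Finset.mem_erase.2 ⟨hxx, hx⟩))
    have h2 := hminF (F.erase x0) (fun x hx => hF x (Finset.mem_of_mem_erase hx)) h1
    have h3 := Finset.card_erase_lt_of_mem hx0
    omega
  have hF' : ∀ x ∈ F, ∃ n, x ∈ 𝒜 n := fun x hx => by
    obtain ⟨n, _, h⟩ := hF x hx
    exact ⟨n, h⟩
  choose! deg hdeg using hF
  have hδ : ∀ x : F, ∃ δ, IsDeg 𝒜 δ (deg x) ∧ ∀ y : F, deg y = deg x →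
      resPi 𝒜 (δ y) = if y = x then 1 else 0 := by
    intro x
    let J := F.filter (fun y => deg y = deg x)
    have hJF : J ⊆ F := Finset.filter_subset _ _
    have hJ : ∀ y ∈ J, y ∈ 𝒜 (deg x) := by
      intro y hy
      obtain ⟨hy1, hy2⟩ := Finset.mem_filter.1 hy
      rw [← hy2]
      exact (hdeg y hy1).2
    obtain ⟨δ, h1, h2⟩ := exists_degree_derivation 𝒜 hk I w hw hexp F hgen hF' (hdeg x x.2).1 J hJF hJ
      (fun x0 hx0 => hmin x0 (hJF hx0)) (fun y => if (y : A) = x then 1 else 0)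
    refine ⟨δ, h1, fun y hy => ?_⟩
    have h3 := h2 ⟨y, Finset.mem_filter.2 ⟨y.2, hy⟩⟩
    rw [← h3]
    by_cases hyx : y = x
    · subst hyx
      simp
    · have hyx' : (y : A) ≠ x := fun h => hyx (Subtype.ext h)
      simp [hyx, hyx']
  choose δ hδ1 hδ2 using hδ
  have hdet : Matrix.det (Matrix.of fun (i j : F) => δ i (j : A)) ≠ 0 := by
    intro h0
    have h1 := RingHom.map_det (resPi 𝒜) (Matrix.of fun (i j : F) => δ i (j : A))
    have h2 : (resPi 𝒜).mapMatrix (Matrix.of fun (i j : F) => δ i (j : A)) = 1 := by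
      ext i j
      simp only [RingHom.mapMatrix_apply, Matrix.map_apply, Matrix.of_apply, Matrix.one_apply]
      have hj := (hdeg j j.2).2
      rcases lt_trichotomy (deg j) (deg i) with hlt | heq | hgt
      · rw [((hδ1 i _ _ hj).2 hlt), map_zero, if_neg]
        rintro rfl
        exact lt_irrefl _ hlt
      · rw [hδ2 i j heq]
        by_cases hij : i = j
        · rw [if_pos hij, if_pos hij.symm]
        · rw [if_neg hij, if_neg (fun h => hij h.symm)]
      · rw [resPi_pos 𝒜 (Nat.sub_pos_of_lt hgt) ((hδ1 i _ _ hj).1 hgt.le), if_neg]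
        rintro rfl
        exact lt_irrefl _ hgt
    rw [h0, map_zero, h2, Matrix.det_one] at h1
    exact zero_ne_one h1
  have hind : AlgebraicIndependent (𝒜 0) (fun x : F => (x : A)) :=
    algebraicIndependent_of_det Subtype.val_injective _ δ hdet
  let e := F.equivFin
  refine ⟨F.card, fun j => (e.symm j : A), fun j => deg (e.symm j : A),
    fun j => hdeg _ (e.symm j).2, ?_, ?_⟩
  · exact hind.comp _ e.symm.injective
  · have h1 : Set.range (fun j => (e.symm j : A)) = (F : Set A) := by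
      ext x
      constructor
      · rintro ⟨j, rfl⟩
        exact (e.symm j).2
      · intro hx
        exact ⟨e ⟨x, hx⟩, by simp⟩
    rw [h1, hgen]

end Main

end Vale.Agent.Lib.P266
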