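import Vale.Agent.Lib.P266.Expansion
import Vale.Agent.Lib.P266.Jacobian

/-!
Minimal homogeneous generators: their derivatives in degree zero.
-/

namespace Vale.Agent.Lib.P266

set_option linter.unusedSectionVars false
set_option linter.overlappingInstances false
set_option linter.style.haveILetI false

open scoped nonZeroDivisors

section Homog

variable {k A : Type*} [Field k] [CommRing A] [Algebra k A]
  (𝒜 : ℕ → Submodule k A) [GradedAlgebra 𝒜]

/-- A subalgebra generated by homogeneous elements is homogeneous. -/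
lemma adjoin_homog (s : Set A) (hs : ∀ x ∈ s, ∃ n, x ∈ 𝒜 n) (a : A)
    (ha : a ∈ Algebra.adjoin (𝒜 0) s) (l : ℕ) :
    (DirectSum.decompose 𝒜 a l : A) ∈ Algebra.adjoin (𝒜 0) s := by
  classical
  have hsp : ∀ x, x ∈ Submodule.span (𝒜 0) (Submonoid.closure s : Set A) →
      x ∈ Algebra.adjoin (𝒜 0) s := by
    intro x hx
    have h1 : x ∈ Subalgebra.toSubmodule (Algebra.adjoin (𝒜 0) s) := by
      rw [Algebra.adjoin_eq_span]
      exact hx
    exact h1
  have hcl : ∀ x ∈ Submonoid.closure s, ∃ n, x ∈ 𝒜 n := by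
    intro x hx
    induction hx using Submonoid.closure_induction with
    | mem x hx => exact hs x hx
    | one => exact ⟨0, SetLike.GradedOne.one_mem⟩
    | mul x y _ _ hx hy =>
      obtain ⟨n, hn⟩ := hx
      obtain ⟨m, hm⟩ := hy
      exact ⟨n + m, SetLike.mul_mem_graded hn hm⟩
  have h : a ∈ Submodule.span (𝒜 0) (Submonoid.closure s : Set A) := by
    rw [← Algebra.adjoin_eq_span]
    exact ha
  clear ha
  induction h using Submodule.span_induction with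
  | mem x hx =>
    obtain ⟨n, hn⟩ := hcl x hx
    by_cases hl : n = l
    · subst hl
      rw [DirectSum.decompose_of_mem_same 𝒜 hn]
      exact hsp x (Submodule.subset_span hx)
    · rw [DirectSum.decompose_of_mem_ne 𝒜 hn hl]
      exact Subalgebra.zero_mem _
  | zero =>
    rw [DirectSum.decompose_zero]
    exact Subalgebra.zero_mem _
  | add x y _ _ hx hy =>
    rw [DirectSum.decompose_add, DirectSum.add_apply, AddMemClass.coe_add]
    exact Subalgebra.add_mem _ hx hy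
  | smul c x _ hx =>
    have h1 : c • x = (c : A) * x := rfl
    have h2 := DirectSum.coe_decompose_mul_add_of_left_mem 𝒜 (i := 0) (j := l) (a := (c : A))
      (b := x) c.2
    rw [zero_add] at h2
    rw [h1, h2]
    exact Subalgebra.mul_mem _ (Subalgebra.algebraMap_mem _ c) hx

/-- The ring homomorphism onto the degree zero part. -/
noncomputable def pi0 : A →+* 𝒜 0 where
  toFun a := DirectSum.decompose 𝒜 a 0
  map_one' := Subtype.ext (map_one (GradedRing.projZeroRingHom 𝒜))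
  map_mul' a b := Subtype.ext (map_mul (GradedRing.projZeroRingHom 𝒜) a b)
  map_zero' := Subtype.ext (map_zero (GradedRing.projZeroRingHom 𝒜))
  map_add' a b := Subtype.ext (map_add (GradedRing.projZeroRingHom 𝒜) a b)

lemma pi0_coe (a : A) : (pi0 𝒜 a : A) = DirectSum.decompose 𝒜 a 0 := rfl

lemma pi0_of_zero (c : 𝒜 0) : pi0 𝒜 (c : A) = c := by
  apply Subtype.ext
  rw [pi0_coe, DirectSum.decompose_of_mem_same 𝒜 c.2]

lemma pi0_of_pos {l : ℕ} (hl : 0 < l) {a : A} (ha : a ∈ 𝒜 l) : pi0 𝒜 a = 0 := by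
  apply Subtype.ext
  rw [pi0_coe, DirectSum.decompose_of_mem_ne 𝒜 ha (by omega)]
  rfl

end Homog

section Gens

variable {k A : Type*} [Field k] [CommRing A] [Algebra k A]
  (𝒜 : ℕ → Submodule k A) [GradedAlgebra 𝒜] [DecidableEq A]

/-- Every element is congruent modulo `x0` to an element of the subalgebra generated by
the other generators. -/
lemma exists_decomp (F : Finset A) (x0 : A) (hgen : Algebra.adjoin (𝒜 0) (F : Set A) = ⊤) (a : A) :
    ∃ c ∈ Algebra.adjoin (𝒜 0) (F.erase x0 : Set A), ∃ b : A, a = c + x0 * b := by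
  have ha : a ∈ Algebra.adjoin (𝒜 0) (F : Set A) := by rw [hgen]; trivial
  induction ha using Algebra.adjoin_induction with
  | mem x hx =>
    by_cases hxx : x = x0
    · exact ⟨0, Subalgebra.zero_mem _, 1, by rw [hxx]; ring⟩
    · refine ⟨x, Algebra.subset_adjoin ?_, 0, by ring⟩
      exact Finset.mem_coe.2 (Finset.mem_erase.2 ⟨hxx, hx⟩)
  | algebraMap r => exact ⟨_, Subalgebra.algebraMap_mem _ r, 0, by ring⟩
  | add x y _ _ hx hy =>
    obtain ⟨c, hc, b, rfl⟩ := hx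
    obtain ⟨c', hc', b', rfl⟩ := hy
    exact ⟨c + c', Subalgebra.add_mem _ hc hc', b + b', by ring⟩
  | mul x y _ _ hx hy =>
    obtain ⟨c, hc, b, rfl⟩ := hx
    obtain ⟨c', hc', b', rfl⟩ := hy
    exact ⟨c * c', Subalgebra.mul_mem _ hc hc', b * c' + c * b' + x0 * b * b', by ring⟩

variable {𝒜} in
lemma erase_homog {F : Finset A} {x0 : A} (hF : ∀ x ∈ F, ∃ n, x ∈ 𝒜 n) :
    ∀ x ∈ ((F.erase x0 : Finset A) : Set A), ∃ n, x ∈ 𝒜 n := fun x hx =>
  hF x (Finset.mem_of_mem_erase (Finset.mem_coe.1 hx))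

/-- Elements of degree below that of `x0` lie in the subalgebra of the other generators. -/
lemma low_mem (F : Finset A) (x0 : A) (hgen : Algebra.adjoin (𝒜 0) (F : Set A) = ⊤)
    (hF : ∀ x ∈ F, ∃ n, x ∈ 𝒜 n) {n : ℕ} (hx0 : x0 ∈ 𝒜 n) {l : ℕ} (hl : l < n) {a : A}
    (ha : a ∈ 𝒜 l) : a ∈ Algebra.adjoin (𝒜 0) (F.erase x0 : Set A) := by
  obtain ⟨c, hc, b, hab⟩ := exists_decomp 𝒜 F x0 hgen a
  have h1 : (DirectSum.decompose 𝒜 a l : A) = a := DirectSum.decompose_of_mem_same 𝒜 ha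
  rw [← h1, hab, DirectSum.decompose_add, DirectSum.add_apply, AddMemClass.coe_add,
    DirectSum.coe_decompose_mul_of_left_mem_of_not_le 𝒜 hx0 (by omega), add_zero]
  exact adjoin_homog 𝒜 _ (erase_homog hF) c hc l

/-- Elements of the degree of `x0`. -/
lemma mid_mem (F : Finset A) (x0 : A) (hgen : Algebra.adjoin (𝒜 0) (F : Set A) = ⊤)
    (hF : ∀ x ∈ F, ∃ n, x ∈ 𝒜 n) {n : ℕ} (hx0 : x0 ∈ 𝒜 n) {a : A} (ha : a ∈ 𝒜 n) :
    ∃ c ∈ Algebra.adjoin (𝒜 0) (F.erase x0 : Set A), ∃ μ : 𝒜 0, a = c + (μ : A) * x0 := by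
  obtain ⟨c, hc, b, hab⟩ := exists_decomp 𝒜 F x0 hgen a
  have h1 : (DirectSum.decompose 𝒜 a n : A) = a := DirectSum.decompose_of_mem_same 𝒜 ha
  refine ⟨_, adjoin_homog 𝒜 _ (erase_homog hF) c hc n, DirectSum.decompose 𝒜 b 0, ?_⟩
  have h2 := DirectSum.coe_decompose_mul_add_of_left_mem 𝒜 (i := n) (j := 0) (a := x0) (b := b) hx0
  rw [add_zero] at h2
  rw [← h1]
  conv_lhs => rw [hab]
  rw [DirectSum.decompose_add, DirectSum.add_apply, AddMemClass.coe_add, h2]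
  ring

variable [IsLocalRing (𝒜 0)]

/-- The additive set of elements `c + μ x0`, with `c` in a subalgebra and `μ` in the maximal ideal
of the degree zero part. -/
def Yset (C : Subalgebra (𝒜 0) A) (x0 : A) : AddSubmonoid A where
  carrier := {y | ∃ c ∈ C, ∃ μ ∈ IsLocalRing.maximalIdeal (𝒜 0), y = c + (μ : A) * x0}
  zero_mem' := ⟨0, C.zero_mem, 0, Ideal.zero_mem _, by simp⟩
  add_mem' := by
    rintro _ _ ⟨c, hc, μ, hμ, rfl⟩ ⟨c', hc', μ', hμ', rfl⟩
    refine ⟨c + c', C.add_mem hc hc', μ + μ', Ideal.add_mem _ hμ hμ', ?_⟩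
    push_cast
    ring

/-- The degree `n` part of a product lies in `Yset`. -/
lemma proj_mul_mem (F : Finset A) (x0 : A) (hgen : Algebra.adjoin (𝒜 0) (F : Set A) = ⊤)
    (hF : ∀ x ∈ F, ∃ n, x ∈ 𝒜 n) {n : ℕ} (hx0 : x0 ∈ 𝒜 n) (a b : A)
    (ha : (DirectSum.decompose 𝒜 a 0 : A) = 0)
    (hb : DirectSum.decompose 𝒜 b 0 ∈ IsLocalRing.maximalIdeal (𝒜 0)) :
    GradedRing.proj 𝒜 n (a * b) ∈ Yset 𝒜 (Algebra.adjoin (𝒜 0) (F.erase x0 : Set A)) x0 := by
  have hsum : a * b = ∑ i ∈ (DirectSum.decompose 𝒜 a).support, ∑ j ∈ (DirectSum.decompose 𝒜 b).support,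
      ((DirectSum.decompose 𝒜 a i : A) * (DirectSum.decompose 𝒜 b j : A)) := by
    conv_lhs => rw [← DirectSum.sum_support_decompose 𝒜 a, ← DirectSum.sum_support_decompose 𝒜 b]
    rw [Finset.sum_mul_sum]
  rw [hsum, map_sum]
  refine AddSubmonoid.sum_mem _ fun i _ => ?_
  rw [map_sum]
  refine AddSubmonoid.sum_mem _ fun j _ => ?_
  have hai : (DirectSum.decompose 𝒜 a i : A) ∈ 𝒜 i := SetLike.coe_mem _
  have hbj : (DirectSum.decompose 𝒜 b j : A) ∈ 𝒜 j := SetLike.coe_mem _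
  have hprod := SetLike.mul_mem_graded hai hbj
  rw [GradedRing.proj_apply]
  by_cases hij : i + j = n
  · rw [DirectSum.decompose_of_mem_same 𝒜 (hij ▸ hprod)]
    rcases Nat.eq_zero_or_pos i with rfl | hi
    · rw [ha, zero_mul]
      exact AddSubmonoid.zero_mem _
    rcases Nat.eq_zero_or_pos j with rfl | hj
    · rw [add_zero] at hij
      subst hij
      obtain ⟨c, hc, μ, hμ⟩ := mid_mem 𝒜 F x0 hgen hF hx0 hai
      refine ⟨(DirectSum.decompose 𝒜 b 0 : 𝒜 0) • c, Subalgebra.smul_mem _ hc _,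
        (DirectSum.decompose 𝒜 b 0 : 𝒜 0) * μ, Ideal.mul_mem_right _ _ hb, ?_⟩
      rw [hμ]
      change (c + (μ : A) * x0) * (DirectSum.decompose 𝒜 b 0 : A) =
        (DirectSum.decompose 𝒜 b 0 : A) * c + ((DirectSum.decompose 𝒜 b 0 : A) * μ) * x0
      ring
    · have h1 := low_mem 𝒜 F x0 hgen hF hx0 (by omega : i < n) hai
      have h2 := low_mem 𝒜 F x0 hgen hF hx0 (by omega : j < n) hbj
      exact ⟨_, Subalgebra.mul_mem _ h1 h2, 0, Ideal.zero_mem _, by simp⟩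
  · rw [DirectSum.decompose_of_mem_ne 𝒜 hprod hij]
    exact AddSubmonoid.zero_mem _

/-- If a combination of generators of the degree of `x0`, with a unit coefficient at `x0`, had all
its derivatives in the maximal ideal, `x0` would be a redundant generator. -/
theorem exists_deriv_not_mem (hk : ∀ m : ℕ, m ≠ 0 → IsUnit (m : 𝒜 0))
    (I : Finset (Derivation k A A)) (w : Derivation k A A → A)
    (hw : ∀ p, (DirectSum.decompose 𝒜 (w p) 0 : A) = 0)
    (hexp : ∀ a, euler 𝒜 a = ∑ p ∈ I, w p * p a)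
    (F : Finset A) (hgen : Algebra.adjoin (𝒜 0) (F : Set A) = ⊤) (hF : ∀ x ∈ F, ∃ n, x ∈ 𝒜 n)
    (x0 : A) {n : ℕ} (hn : 0 < n) (hx0 : x0 ∈ 𝒜 n)
    (hmin : x0 ∉ Algebra.adjoin (𝒜 0) (F.erase x0 : Set A))
    (J : Finset A) (hJF : J ⊆ F) (hJ : ∀ x ∈ J, x ∈ 𝒜 n) (hx0J : x0 ∈ J) (c : J → 𝒜 0)
    (hc : c ⟨x0, hx0J⟩ ∉ IsLocalRing.maximalIdeal (𝒜 0)) :
    ∃ p ∈ I, DirectSum.decompose 𝒜 (p (∑ x : J, (c x : A) * (x : A))) 0 ∉
      IsLocalRing.maximalIdeal (𝒜 0) := by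
  by_contra hall
  push Not at hall
  set f := ∑ x : J, (c x : A) * (x : A) with hf
  have hmulmem : ∀ (u : 𝒜 0) {v : A}, v ∈ 𝒜 n → (u : A) * v ∈ 𝒜 n := by
    intro u v hv
    have h1 := SetLike.mul_mem_graded u.2 hv
    rwa [zero_add] at h1
  have hfn : f ∈ 𝒜 n := Submodule.sum_mem _ fun x _ => hmulmem _ (hJ x x.2)
  have hnf : (n : A) * f ∈ 𝒜 n := by
    have h1 : (n : A) * f = n • f := by rw [nsmul_eq_mul]
    rw [h1]
    exact Submodule.smul_of_tower_mem _ n hfn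
  have h1 : (n : A) * f = ∑ p ∈ I, w p * p f := by
    rw [← hexp, euler_apply 𝒜 hfn, nsmul_eq_mul]
  have h2 : (n : A) * f ∈ Yset 𝒜 (Algebra.adjoin (𝒜 0) (F.erase x0 : Set A)) x0 := by
    have h3 : GradedRing.proj 𝒜 n ((n : A) * f) = (n : A) * f := by
      rw [GradedRing.proj_apply, DirectSum.decompose_of_mem_same 𝒜 hnf]
    rw [← h3, h1, map_sum]
    refine AddSubmonoid.sum_mem _ fun p hp => ?_
    exact proj_mul_mem 𝒜 F x0 hgen hF hx0 _ _ (hw p) (hall p hp)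
  obtain ⟨c', hc', μ, hμ, hcμ⟩ := h2
  let x0' : J := ⟨x0, hx0J⟩
  let f' : A := ∑ x ∈ Finset.univ.erase x0', (c x : A) * (x : A)
  have hf' : f' ∈ Algebra.adjoin (𝒜 0) (F.erase x0 : Set A) := by
    refine Subalgebra.sum_mem _ fun x hx => ?_
    have hx1 : (x : A) ≠ x0 := fun h => (Finset.mem_erase.1 hx).1 (Subtype.ext h)
    have hx2 : (x : A) ∈ Algebra.adjoin (𝒜 0) (F.erase x0 : Set A) :=
      Algebra.subset_adjoin (Finset.mem_coe.2 (Finset.mem_erase.2 ⟨hx1, hJF x.2⟩))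
    exact Subalgebra.mul_mem _ (Subalgebra.algebraMap_mem _ (c x)) hx2
  have hfdec : f = (c x0' : A) * x0 + f' :=
    (Finset.add_sum_erase Finset.univ (fun x : J => (c x : A) * (x : A)) (Finset.mem_univ x0')).symm
  -- the unit
  let u : 𝒜 0 := (n : 𝒜 0) * c x0' - μ
  have hu : IsUnit u := by
    rw [← IsLocalRing.notMem_maximalIdeal]
    intro hu
    have h3 : (n : 𝒜 0) * c x0' ∈ IsLocalRing.maximalIdeal (𝒜 0) := by
      have h4 : (n : 𝒜 0) * c x0' = u + μ := by simp [u]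
      rw [h4]
      exact Ideal.add_mem _ hu hμ
    rw [IsLocalRing.mem_maximalIdeal, mem_nonunits_iff] at h3
    apply h3
    exact (hk n hn.ne').mul ((IsLocalRing.notMem_maximalIdeal).1 hc)
  have hux : (u : A) * x0 ∈ Algebra.adjoin (𝒜 0) (F.erase x0 : Set A) := by
    have h5 : (u : A) * x0 = c' - (n : A) * f' := by
      have h6 : ((n : 𝒜 0) : A) = (n : A) := by simp
      have h7 : (u : A) = (n : A) * (c x0' : A) - (μ : A) := by
        simp [u, h6]
      rw [h7]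
      rw [hfdec] at hcμ
      linear_combination hcμ
    rw [h5]
    refine Subalgebra.sub_mem _ hc' (Subalgebra.mul_mem _ ?_ hf')
    exact Subalgebra.natCast_mem _ n
  apply hmin
  obtain ⟨v, hv⟩ := hu
  have h8 : x0 = (((v⁻¹ : (𝒜 0)ˣ) : 𝒜 0) : A) * ((u : A) * x0) := by
    rw [← hv, ← mul_assoc]
    have h9 : (((v⁻¹ : (𝒜 0)ˣ) : 𝒜 0) : A) * ((v : 𝒜 0) : A) = 1 := by
      have := congrArg (Subtype.val) (Units.inv_mul v)
      exact this
    rw [h9, one_mul]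
  have h10 := Subalgebra.mul_mem _ (Subalgebra.algebraMap_mem (Algebra.adjoin (𝒜 0) (F.erase x0 : Set A))
    ((v⁻¹ : (𝒜 0)ˣ) : 𝒜 0)) hux
  have h11 : algebraMap (𝒜 0) A ((v⁻¹ : (𝒜 0)ˣ) : 𝒜 0) * ((u : A) * x0) = x0 := h8.symm
  rw [h11] at h10
  exact h10

end Gens

end Vale.Agent.Lib.P266
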