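import Vale.Agent.Lib.P266.Trace2

/-!
A homogeneous Noether normalization.
-/

namespace Vale.Agent.Lib.P266

set_option linter.unusedSectionVars false
set_option linter.overlappingInstances false
set_option linter.style.haveILetI false

open scoped nonZeroDivisors

section Abstract

variable {F L : Type*} [Field F] [Field L] [Algebra F L]

/-- Transitivity of integrality for subalgebras. -/
lemma int_trans (S T : Subalgebra F L) (hT : ∀ t ∈ T, IsIntegral S t) {x : L}
    (hx : IsIntegral T x) : IsIntegral S x := by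
  let C : Subalgebra S L := integralClosure S L
  let f : T →+* C :=
    { toFun := fun t => ⟨t.1, hT t.1 t.2⟩
      map_one' := rfl
      map_mul' := fun _ _ => rfl
      map_zero' := rfl
      map_add' := fun _ _ => rfl }
  have h1 : algebraMap T L = (algebraMap C L).comp f := rfl
  have h2 : (algebraMap T L).IsIntegralElem x := hx
  rw [h1] at h2
  have h3 : IsIntegral C x := RingHom.IsIntegralElem.of_comp h2
  exact isIntegral_trans x h3

lemma int_adjoin (S : Subalgebra F L) (s : Set L) (hs : ∀ t ∈ s, IsIntegral S t) :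
    ∀ t ∈ Algebra.adjoin F s, IsIntegral S t := by
  intro t ht
  induction ht using Algebra.adjoin_induction with
  | mem x hx => exact hs x hx
  | algebraMap r =>
    have : algebraMap F L r = algebraMap S L (algebraMap F S r) := rfl
    rw [this]
    exact isIntegral_algebraMap
  | add x y _ _ hx hy => exact hx.add hy
  | mul x y _ _ hx hy => exact hx.mul hy

omit [Field F] [Algebra F L] in
lemma homog_sum {F : Type*} [CommSemiring F] {N : ℕ} {R : MvPolynomial (Fin N) F} {e : ℕ}
    (hR : R.IsHomogeneous e)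
    {m : Fin N →₀ ℕ} (hm : MvPolynomial.coeff m R ≠ 0) : ∑ i, m i = e := by
  have h1 := hR hm
  rw [Finsupp.weight_apply, Finsupp.sum_fintype _ _ (by simp)] at h1
  simpa using h1

/-- Scaling a homogeneous polynomial. -/
lemma aeval_smul_homog {N : ℕ} {R : MvPolynomial (Fin N) F} {e : ℕ} (hR : R.IsHomogeneous e)
    (y : Fin N → L) (c : F) :
    MvPolynomial.aeval (fun i => c • y i) R = c ^ e • MvPolynomial.aeval y R := by
  classical
  simp only [MvPolynomial.aeval_def, MvPolynomial.eval₂_eq', Finset.smul_sum]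
  refine Finset.sum_congr rfl fun m hm => ?_
  have h1 := homog_sum hR (MvPolynomial.mem_support_iff.1 hm)
  simp only [smul_pow]
  rw [Finset.prod_smul, Finset.prod_pow_eq_pow_sum, h1, mul_smul_comm]

/-- Top coefficient of a product of powers of polynomials of degree at most one. -/
lemma top_coeff_prod {S : Type*} [CommRing S] {ι : Type*} (I : Finset ι)
    (ℓ : ι → Polynomial S) (hℓ : ∀ i, (ℓ i).natDegree ≤ 1) (m : ι → ℕ) :
    (∏ i ∈ I, ℓ i ^ m i).natDegree ≤ ∑ i ∈ I, m i ∧
      (∏ i ∈ I, ℓ i ^ m i).coeff (∑ i ∈ I, m i) = ∏ i ∈ I, ((ℓ i).coeff 1) ^ m i := by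
  classical
  induction I using Finset.induction_on with
  | empty => simp
  | insert a I ha ih =>
    rw [Finset.prod_insert ha, Finset.sum_insert ha, Finset.prod_insert ha]
    have h1 : (ℓ a ^ m a).natDegree ≤ m a := by
      have := Polynomial.natDegree_pow_le (p := ℓ a) (n := m a)
      have h2 := hℓ a
      nlinarith
    refine ⟨(Polynomial.natDegree_mul_le).trans (add_le_add h1 ih.1), ?_⟩
    rw [Polynomial.coeff_mul_add_eq_of_natDegree_le h1 ih.1, ih.2]
    congr 1
    have := Polynomial.coeff_pow_of_natDegree_le (m := m a) (hℓ a)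
    simpa using this

/-- The integrality step of Noether normalization. -/
lemma integral_step {N : ℕ} (R : MvPolynomial (Fin (N + 1)) F) (e : ℕ) (hR : R.IsHomogeneous e)
    (y : Fin (N + 1) → L) (hy : MvPolynomial.aeval y R = 0)
    (c : Fin (N + 1) → F) (hc : MvPolynomial.eval c R ≠ 0)
    (z : Fin N → L) (hz : ∀ i, z i = c 0 • y i.succ - c i.succ • y 0) :
    IsIntegral (Algebra.adjoin F (Set.range z)) (y 0) := by
  classical
  let S := Algebra.adjoin F (Set.range z)
  have hzS : ∀ i, z i ∈ S := fun i => Algebra.subset_adjoin ⟨i, rfl⟩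
  let ℓ : Fin (N + 1) → Polynomial S := Fin.cases
    (Polynomial.C (algebraMap F S (c 0)) * Polynomial.X)
    (fun i => Polynomial.C (⟨z i, hzS i⟩ : S) + Polynomial.C (algebraMap F S (c i.succ)) * Polynomial.X)
  have hCX : ∀ a : S, (Polynomial.C a * Polynomial.X).natDegree ≤ 1 := fun a => by
    simpa using Polynomial.natDegree_C_mul_X_pow_le a 1
  have hℓ : ∀ i, (ℓ i).natDegree ≤ 1 := by
    intro i
    refine Fin.cases ?_ (fun i => ?_) i
    · exact hCX _
    · exact Polynomial.natDegree_add_le_of_degree_le (by simp) (hCX _)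
  have hℓ1 : ∀ i, (ℓ i).coeff 1 = algebraMap F S (c i) := by
    intro i
    refine Fin.cases ?_ (fun i => ?_) i
    · simp [ℓ]
    · simp [ℓ, Polynomial.coeff_C]
  let P : Polynomial S := MvPolynomial.aeval ℓ R
  have hPexp : P = ∑ m ∈ R.support, Polynomial.C (algebraMap F S (MvPolynomial.coeff m R)) *
      ∏ i, ℓ i ^ m i := by
    simp only [P, MvPolynomial.aeval_def, MvPolynomial.eval₂_eq']
    rfl
  have htop := fun m : Fin (N + 1) →₀ ℕ => top_coeff_prod Finset.univ ℓ hℓ m
  have hdeg : P.natDegree ≤ e := by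
    rw [hPexp]
    refine Polynomial.natDegree_sum_le_of_forall_le _ _ fun m hm => ?_
    have h1 := homog_sum hR (MvPolynomial.mem_support_iff.1 hm)
    rw [← h1]
    exact (Polynomial.natDegree_C_mul_le _ _).trans (htop m).1
  have hcoeff : P.coeff e = algebraMap F S (MvPolynomial.eval c R) := by
    rw [hPexp, Polynomial.finsetSum_coeff, MvPolynomial.eval_eq', map_sum]
    refine Finset.sum_congr rfl fun m hm => ?_
    have h1 := homog_sum hR (MvPolynomial.mem_support_iff.1 hm)
    rw [Polynomial.coeff_C_mul, ← h1, (htop m).2, map_mul, map_prod]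
    simp only [hℓ1, map_pow]
  let r := MvPolynomial.eval c R
  let Q : Polynomial S := Polynomial.C (algebraMap F S r⁻¹) * P
  have hQ : Q.Monic := by
    refine Polynomial.monic_of_natDegree_le_of_coeff_eq_one e
      ((Polynomial.natDegree_C_mul_le _ _).trans hdeg) ?_
    rw [Polynomial.coeff_C_mul, hcoeff, ← map_mul, inv_mul_cancel₀ hc, map_one]
  refine ⟨Q, hQ, ?_⟩
  -- evaluation
  let Ψ : Polynomial S →ₐ[F] L := (Polynomial.aeval (y 0)).restrictScalars F
  have hΨ : ∀ i, Ψ (ℓ i) = c 0 • y i := by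
    intro i
    refine Fin.cases ?_ (fun i => ?_) i
    · simp only [ℓ, Fin.cases_zero, Ψ, AlgHom.restrictScalars_apply, map_mul, Polynomial.aeval_C,
        Polynomial.aeval_X]
      rw [Algebra.smul_def]
      rfl
    · simp only [ℓ, Fin.cases_succ, Ψ, AlgHom.restrictScalars_apply, map_mul, map_add,
        Polynomial.aeval_C, Polynomial.aeval_X]
      have h1 : algebraMap S L ⟨z i, hzS i⟩ = z i := rfl
      have h2 : algebraMap S L (algebraMap F S (c i.succ)) = algebraMap F L (c i.succ) := rfl
      rw [h1, h2, hz i, ← Algebra.smul_def]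
      abel
  have hev : Ψ P = 0 := by
    simp only [P]
    rw [MvPolynomial.comp_aeval_apply]
    simp only [hΨ]
    rw [aeval_smul_homog hR, hy, smul_zero]
  have : Polynomial.eval₂ (algebraMap S L) (y 0) Q = 0 := by
    change Polynomial.aeval (y 0) Q = 0
    have h3 : Polynomial.aeval (y 0) P = 0 := hev
    rw [map_mul, h3, mul_zero]
  exact this

end Abstract

section Graded

variable {k A : Type*} [Field k] [CommRing A] [IsDomain A] [Algebra k A]
  (𝒜 : ℕ → Submodule k A) [GradedAlgebra 𝒜]

lemma isDomain_zero : IsDomain (𝒜 0) :=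
  Function.Injective.isDomain (algebraMap (𝒜 0) A) Subtype.val_injective

/-- Values of homogeneous polynomials on elements of degree `d`. -/
lemma aeval_mem_graded {N : ℕ} (Q : MvPolynomial (Fin N) (𝒜 0)) (e : ℕ) (hQ : Q.IsHomogeneous e)
    (d : ℕ) (y : Fin N → A) (hy : ∀ i, y i ∈ 𝒜 d) : MvPolynomial.aeval y Q ∈ 𝒜 (e * d) := by
  classical
  rw [MvPolynomial.aeval_def, MvPolynomial.eval₂_eq']
  refine Submodule.sum_mem _ fun m hm => ?_
  have h1 := homog_sum hQ (MvPolynomial.mem_support_iff.1 hm)
  have h2 : ∏ i, y i ^ m i ∈ 𝒜 (∑ i, m i • d) :=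
    SetLike.prod_pow_mem_graded 𝒜 (fun _ => d) y m (fun i _ => hy i)
  have h3 : ∑ i, m i • d = e * d := by
    rw [← Finset.sum_smul, h1, smul_eq_mul]
  rw [h3] at h2
  have h4 : algebraMap (𝒜 0) A (MvPolynomial.coeff m Q) ∈ 𝒜 0 := (MvPolynomial.coeff m Q).2
  have h5 := SetLike.mul_mem_graded h4 h2
  rwa [zero_add] at h5

/-- Homogeneous components of a relation are relations. -/
lemma relation_component {N : ℕ} (d : ℕ) (hd : 0 < d) (y : Fin N → A) (hy : ∀ i, y i ∈ 𝒜 d)
    (R : MvPolynomial (Fin N) (𝒜 0)) (hR : MvPolynomial.aeval y R = 0) (e : ℕ) :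
    MvPolynomial.aeval y (MvPolynomial.homogeneousComponent e R) = 0 := by
  classical
  by_cases he : R.totalDegree < e
  · rw [MvPolynomial.homogeneousComponent_eq_zero _ _ he, map_zero]
  have hmem : ∀ i, MvPolynomial.aeval y (MvPolynomial.homogeneousComponent i R) ∈ 𝒜 (i * d) :=
    fun i => aeval_mem_graded 𝒜 _ i (MvPolynomial.homogeneousComponent_isHomogeneous i R) d y hy
  have h1 := MvPolynomial.sum_homogeneousComponent R
  have h2 : ∑ i ∈ Finset.range (R.totalDegree + 1),
      MvPolynomial.aeval y (MvPolynomial.homogeneousComponent i R) = 0 := by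
    rw [← map_sum, h1, hR]
  have h3 := congrArg (GradedRing.proj 𝒜 (e * d)) h2
  rw [map_sum, map_zero, Finset.sum_eq_single e] at h3
  · rw [GradedRing.proj_apply, DirectSum.decompose_of_mem_same 𝒜 (hmem e)] at h3
    exact h3
  · intro i _ hi
    rw [GradedRing.proj_apply, DirectSum.decompose_of_mem_ne 𝒜 (hmem i)]
    intro h4
    exact hi (Nat.eq_of_mul_eq_mul_right hd h4)
  · intro h4
    exact absurd (Finset.mem_range.2 (by omega)) h4

variable {K0 L : Type*} [Field K0] [Algebra (𝒜 0) K0] [IsFractionRing (𝒜 0) K0]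
  [Field L] [Algebra A L] [IsFractionRing A L] [Algebra K0 L] [Algebra (𝒜 0) L]
  [IsScalarTower (𝒜 0) K0 L] [IsScalarTower (𝒜 0) A L]

/-- Homogeneous Noether normalization for a family of elements of the same degree. -/
theorem graded_noether [CharZero k] (d : ℕ) (hd : 0 < d) (N : ℕ) (y : Fin N → A)
    (hy : ∀ i, y i ∈ 𝒜 d) :
    ∃ (s : ℕ) (g : Fin s → A), (∀ j, g j ∈ 𝒜 d) ∧ AlgebraicIndependent (𝒜 0) g ∧
      ∀ i, IsIntegral (Algebra.adjoin K0 (Set.range fun j => algebraMap A L (g j)))
        (algebraMap A L (y i)) := by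
  classical
  haveI : IsDomain (𝒜 0) := isDomain_zero 𝒜
  have hinjA : Function.Injective (algebraMap (𝒜 0) A) := Subtype.val_injective
  haveI : CharZero (𝒜 0) := charZero_of_injective_algebraMap (algebraMap k (𝒜 0)).injective
  haveI : Infinite (𝒜 0) := Infinite.of_injective _ (Nat.cast_injective (R := 𝒜 0))
  have hinjK : Function.Injective (algebraMap (𝒜 0) K0) := IsFractionRing.injective _ _
  induction N with
  | zero =>
    refine ⟨0, y, hy, ?_, fun i => i.elim0⟩
    exact (algebraicIndependent_empty_type_iff).2 hinjA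
  | succ N ih =>
    by_cases hind : AlgebraicIndependent (𝒜 0) y
    · refine ⟨N + 1, y, hy, hind, fun i => ?_⟩
      let S := Algebra.adjoin K0 (Set.range fun j => algebraMap A L (y j))
      have hmem : algebraMap A L (y i) ∈ S := Algebra.subset_adjoin ⟨i, rfl⟩
      exact isIntegral_algebraMap (R := S) (x := (⟨_, hmem⟩ : S))
    rw [algebraicIndependent_iff] at hind
    push Not at hind
    obtain ⟨R, hR, hR0⟩ := hind
    obtain ⟨e, he⟩ : ∃ e, MvPolynomial.homogeneousComponent e R ≠ 0 := by
      by_contra hall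
      push Not at hall
      apply hR0
      rw [← MvPolynomial.sum_homogeneousComponent R]
      exact Finset.sum_eq_zero fun i _ => hall i
    set Re := MvPolynomial.homogeneousComponent e R with hRe
    have hReh : Re.IsHomogeneous e := MvPolynomial.homogeneousComponent_isHomogeneous e R
    have hRey : MvPolynomial.aeval y Re = 0 := relation_component 𝒜 d hd y hy R hR e
    -- a good point
    obtain ⟨c, hc⟩ : ∃ c : Fin (N + 1) → 𝒜 0, MvPolynomial.eval c (Re * MvPolynomial.X 0) ≠ 0 := by
      by_contra hall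
      push Not at hall
      have h0 : Re * MvPolynomial.X 0 = 0 := MvPolynomial.funext (fun x => by rw [hall x, map_zero])
      rcases mul_eq_zero.1 h0 with h1 | h1
      · exact he h1
      · exact MvPolynomial.X_ne_zero _ h1
    rw [map_mul, MvPolynomial.eval_X, mul_ne_zero_iff] at hc
    obtain ⟨hc1, hc0⟩ := hc
    -- the new family
    let z : Fin N → A := fun i => c 0 • y i.succ - c i.succ • y 0
    have hzmem : ∀ i, z i ∈ 𝒜 d := by
      intro i
      have hs : ∀ (u : 𝒜 0) (v : A), v ∈ 𝒜 d → u • v ∈ 𝒜 d := by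
        intro u v hv
        have h1 := SetLike.mul_mem_graded u.2 hv
        rw [zero_add] at h1
        exact h1
      exact Submodule.sub_mem _ (hs _ _ (hy _)) (hs _ _ (hy _))
    obtain ⟨s, g, hg, hgind, hgint⟩ := ih z hzmem
    refine ⟨s, g, hg, hgind, ?_⟩
    let ι : A → L := fun a => algebraMap A L a
    let Sg := Algebra.adjoin K0 (Set.range fun j => algebraMap A L (g j))
    let zL : Fin N → L := fun i => algebraMap A L (z i)
    let cF : Fin (N + 1) → K0 := fun i => algebraMap (𝒜 0) K0 (c i)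
    have hsmul : ∀ (u : 𝒜 0) (v : A), algebraMap A L (u • v) = algebraMap (𝒜 0) K0 u • algebraMap A L v := by
      intro u v
      rw [Algebra.smul_def, map_mul, ← IsScalarTower.algebraMap_apply (𝒜 0) A L, Algebra.smul_def,
        ← IsScalarTower.algebraMap_apply (𝒜 0) K0 L]
    have hzL : ∀ i, zL i = cF 0 • algebraMap A L (y i.succ) - cF i.succ • algebraMap A L (y 0) := by
      intro i
      simp only [zL, z, map_sub, hsmul, cF]
    have hReF : (MvPolynomial.map (algebraMap (𝒜 0) K0) Re).IsHomogeneous e := hReh.map _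
    have hyF : MvPolynomial.aeval (fun i => algebraMap A L (y i))
        (MvPolynomial.map (algebraMap (𝒜 0) K0) Re) = 0 := by
      rw [MvPolynomial.aeval_map_algebraMap]
      have h1 : MvPolynomial.aeval (fun i => algebraMap A L (y i)) Re =
          (algebraMap A L) (MvPolynomial.aeval y Re) := by
        have := MvPolynomial.comp_aeval_apply y (IsScalarTower.toAlgHom (𝒜 0) A L) Re
        exact this.symm
      rw [h1, hRey, map_zero]
    have hcF : MvPolynomial.eval cF (MvPolynomial.map (algebraMap (𝒜 0) K0) Re) ≠ 0 := by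
      rw [MvPolynomial.eval_map]
      have h1 : MvPolynomial.eval₂ (algebraMap (𝒜 0) K0) cF Re =
          algebraMap (𝒜 0) K0 (MvPolynomial.eval c Re) := by
        rw [← MvPolynomial.eval₂_id, MvPolynomial.eval₂_comp_left]
        rfl
      rw [h1]
      exact (map_ne_zero_iff _ hinjK).2 hc1
    have hy0 := integral_step _ e hReF _ hyF cF hcF zL hzL
    -- transfer to `g`
    have hzint : ∀ t ∈ Algebra.adjoin K0 (Set.range zL), IsIntegral Sg t :=
      int_adjoin Sg _ (by rintro _ ⟨i, rfl⟩; exact hgint i)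
    have hy0' : IsIntegral Sg (algebraMap A L (y 0)) := int_trans Sg _ hzint hy0
    have hsm : ∀ (r : K0) (x : L), IsIntegral Sg x → IsIntegral Sg (r • x) := by
      intro r x hx
      rw [Algebra.smul_def]
      have h1 : algebraMap K0 L r = algebraMap Sg L (algebraMap K0 Sg r) := rfl
      rw [h1]
      exact isIntegral_algebraMap.mul hx
    have hcF0 : cF 0 ≠ 0 := (map_ne_zero_iff _ hinjK).2 hc0
    intro i
    refine Fin.cases hy0' (fun i => ?_) i
    have h2 : algebraMap A L (y i.succ) =
        (cF 0)⁻¹ • (zL i + cF i.succ • algebraMap A L (y 0)) := by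
      rw [hzL, sub_add_cancel, smul_smul, inv_mul_cancel₀ hcF0, one_smul]
    rw [h2]
    exact hsm _ _ ((hgint i).add (hsm _ _ hy0'))

/-- Homogeneous generators of positive degree. -/
lemma exists_homog_gens [Algebra.FiniteType (𝒜 0) A] :
    ∃ F : Finset A, (∀ x ∈ F, ∃ n, 0 < n ∧ x ∈ 𝒜 n) ∧ Algebra.adjoin (𝒜 0) (F : Set A) = ⊤ := by
  classical
  obtain ⟨S, hS⟩ := (Algebra.FiniteType.out : (⊤ : Subalgebra (𝒜 0) A).FG)
  let F : Finset A := S.biUnion fun a =>
    ((DirectSum.decompose 𝒜 a).support.filter (0 < ·)).image fun l => (DirectSum.decompose 𝒜 a l : A)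
  refine ⟨F, ?_, ?_⟩
  · intro x hx
    obtain ⟨a, _, hx⟩ := Finset.mem_biUnion.1 hx
    obtain ⟨l, hl, rfl⟩ := Finset.mem_image.1 hx
    exact ⟨l, (Finset.mem_filter.1 hl).2, SetLike.coe_mem _⟩
  · rw [eq_top_iff, ← hS]
    refine Algebra.adjoin_le fun a ha => ?_
    rw [← DirectSum.sum_support_decompose 𝒜 a]
    refine Subalgebra.sum_mem _ fun l hl => ?_
    rcases Nat.eq_zero_or_pos l with rfl | hl0
    · exact Subalgebra.algebraMap_mem _ (DirectSum.decompose 𝒜 a 0)
    · refine Algebra.subset_adjoin ?_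
      refine Finset.mem_coe.2 (Finset.mem_biUnion.2 ⟨a, ha, Finset.mem_image.2 ⟨l, ?_, rfl⟩⟩)
      exact Finset.mem_filter.2 ⟨hl, hl0⟩

/-- Homogeneous Noether normalization for `A`. -/
theorem exists_noether_A [CharZero k] (F : Finset A) (hF : ∀ x ∈ F, ∃ n, 0 < n ∧ x ∈ 𝒜 n)
    (hFgen : Algebra.adjoin (𝒜 0) (F : Set A) = ⊤) :
    ∃ (d s : ℕ) (g : Fin s → A), 0 < d ∧ (∀ j, g j ∈ 𝒜 d) ∧ AlgebraicIndependent (𝒜 0) g ∧
      ∀ a : A, IsIntegral (Algebra.adjoin K0 (Set.range fun j => algebraMap A L (g j)))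
        (algebraMap A L a) := by
  classical
  choose! n hn using hF
  let d := ∏ x ∈ F, n x
  have hd : 0 < d := Finset.prod_pos fun x hx => (hn x hx).1
  let e := F.equivFin
  let y : Fin F.card → A := fun i => (e.symm i : A) ^ (d / n (e.symm i : A))
  have hy : ∀ i, y i ∈ 𝒜 d := by
    intro i
    have hi := (e.symm i).2
    have h1 : n (e.symm i : A) ∣ d := Finset.dvd_prod_of_mem n hi
    have h2 := SetLike.pow_mem_graded (d / n (e.symm i : A)) (hn _ hi).2
    rwa [smul_eq_mul, Nat.div_mul_cancel h1] at h2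
  obtain ⟨s, g, hg, hgind, hgint⟩ := graded_noether (K0 := K0) (L := L) 𝒜 d hd _ y hy
  refine ⟨d, s, g, hd, hg, hgind, ?_⟩
  let Sg := Algebra.adjoin K0 (Set.range fun j => algebraMap A L (g j))
  have hgen : ∀ x ∈ F, IsIntegral Sg (algebraMap A L x) := by
    intro x hx
    have h1 := hgint (e ⟨x, hx⟩)
    have h2 : y (e ⟨x, hx⟩) = x ^ (d / n x) := by simp [y]
    rw [h2, map_pow] at h1
    have h3 : n x ∣ d := Finset.dvd_prod_of_mem n hx
    exact h1.of_pow (Nat.div_pos (Nat.le_of_dvd hd h3) (hn x hx).1)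
  intro a
  have ha : a ∈ Algebra.adjoin (𝒜 0) (F : Set A) := by rw [hFgen]; trivial
  induction ha using Algebra.adjoin_induction with
  | mem x hx => exact hgen x hx
  | algebraMap r =>
    have h1 : algebraMap A L (algebraMap (𝒜 0) A r) =
        algebraMap Sg L (algebraMap K0 Sg (algebraMap (𝒜 0) K0 r)) := by
      rw [← IsScalarTower.algebraMap_apply (𝒜 0) A L, IsScalarTower.algebraMap_apply (𝒜 0) K0 L]
      rfl
    rw [h1]
    exact isIntegral_algebraMap
  | add x y _ _ hx hy =>
    rw [map_add]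
    exact hx.add hy
  | mul x y _ _ hx hy =>
    rw [map_mul]
    exact hx.mul hy

end Graded

end Vale.Agent.Lib.P266
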