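import Vale.Agent.Lib.P266.Core

/-!
From height one primes to the whole UFD: a trace criterion.
-/

namespace Vale.Agent.Lib.P266

set_option linter.unusedSectionVars false
set_option linter.overlappingInstances false
set_option linter.style.haveILetI false

open IsDedekindDomain Polynomial
open scoped nonZeroDivisors

section Poly

variable {B K L : Type*} [CommRing B] [IsDomain B] [UniqueFactorizationMonoid B]
  [IsNoetherianRing B]
  [Field K] [Algebra B K] [IsFractionRing B K]
  [Field L] [Algebra K L] [Algebra B L] [IsScalarTower B K L]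
  [FiniteDimensional K L] [Algebra.IsSeparable K L]

/-- `y` is integral over the localization of `B` at the prime element `p`. -/
def PInt (p : B) (y : L) : Prop :=
  ∃ s : B, ¬ p ∣ s ∧ IsIntegral B (algebraMap B L s * y)

lemma localized_trace (hQ : ∀ n : ℕ, n ≠ 0 → IsUnit (n : B))
    (D : L → L) (hadd : ∀ x y, D (x + y) = D x + D y)
    (hmul : ∀ x y, D (x * y) = x * D y + y * D x)
    (hB : ∀ b : B, ∃ b' : B, D (algebraMap B L b) = algebraMap B L b')
    (h : L) (p : B) (hp : Prime p)
    (hh : ∀ c, PInt p c → (∀ y, PInt p y → PInt p (c * D y)) → PInt p (c * h)) :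
    ∃ a s : B, ¬ p ∣ s ∧ Algebra.trace K L h * algebraMap B K s = algebraMap B K a := by
  classical
  -- the local ring
  let P : Ideal B := Ideal.span {p}
  have hPp : P.IsPrime := (Ideal.span_singleton_prime hp.ne_zero).2 hp
  have hmemP : ∀ x : B, x ∈ P ↔ p ∣ x := fun x => Ideal.mem_span_singleton
  let M := P.primeCompl
  have hM : M ≤ B⁰ := Ideal.primeCompl_le_nonZeroDivisors P
  let S : Subalgebra B K := Localization.subalgebra.ofField K M hM
  haveI : IsLocalization M S := Localization.subalgebra.isLocalization_ofField K M hM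
  haveI : IsLocalization.AtPrime S P := this
  haveI : IsLocalRing S := IsLocalization.AtPrime.isLocalRing S P
  haveI : IsNoetherianRing S := IsLocalization.isNoetherianRing M S inferInstance
  have hmax : IsLocalRing.maximalIdeal S = Ideal.span {algebraMap B S p} := by
    rw [← IsLocalization.AtPrime.map_eq_maximalIdeal P S, Ideal.map_span, Set.image_singleton]
  have hprin : (IsLocalRing.maximalIdeal S).IsPrincipal := ⟨⟨algebraMap B S p, hmax⟩⟩
  haveI : IsPrincipalIdealRing S :=
    ((tfae_of_isNoetherianRing_of_isLocalRing_of_isDomain S).out 0 4).mpr hprin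
  have hinj : Function.Injective (algebraMap S K) := FaithfulSMul.algebraMap_injective S K
  haveI : IsScalarTower B S L := inferInstance
  let R := integralClosure S L
  haveI : IsFractionRing R L := integralClosure.isFractionRing_of_finite_extension K L
  haveI : IsDedekindDomain R := integralClosure.isDedekindDomain S K L
  haveI : Module.Finite S R := IsIntegralClosure.finite S K L R
  -- membership in `R` and the predicate `PInt`
  have hPInt_of : ∀ y : L, IsIntegral S y → PInt p y := by
    intro y hy
    obtain ⟨⟨s, hs⟩, hsy⟩ := IsIntegral.exists_multiple_integral_of_isLocalization M y hy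
    refine ⟨s, fun hd => hs ((hmemP s).2 hd), ?_⟩
    rw [← Algebra.smul_def]
    exact hsy
  have hof_PInt : ∀ y : L, PInt p y → IsIntegral S y := by
    rintro y ⟨s, hs, hsy⟩
    have h1 : IsIntegral S (algebraMap B L s * y) := hsy.tower_top
    have hsM : s ∈ M := fun hd => hs ((hmemP s).1 hd)
    have hunit : IsUnit (algebraMap B S s) := IsLocalization.map_units S (⟨s, hsM⟩ : M)
    obtain ⟨u, hu⟩ := hunit
    have h2 : y = algebraMap S L ((u⁻¹ : Sˣ) : S) * (algebraMap B L s * y) := by
      have h3 : algebraMap B L s = algebraMap S L (u : S) := by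
        rw [hu, ← IsScalarTower.algebraMap_apply B S L]
      rw [h3, ← mul_assoc, ← map_mul]
      simp
    rw [h2]
    exact isIntegral_algebraMap.mul h1
  have hRmem : ∀ y : L, y ∈ Set.range (algebraMap R L) ↔ IsIntegral S y := by
    intro y
    constructor
    · rintro ⟨r, rfl⟩
      exact r.2
    · intro hy
      exact ⟨⟨y, hy⟩, rfl⟩
  -- apply the core lemma
  have hQS : ∀ n : ℕ, n ≠ 0 → IsUnit (n : S) := by
    intro n hn
    have := (hQ n hn).map (algebraMap B S)
    simpa using this
  have hSder : ∀ s : S, ∃ s' : S, D (algebraMap S L s) = algebraMap S L s' := by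
    intro s
    obtain ⟨a, t, rfl⟩ := IsLocalization.exists_mk'_eq M s
    obtain ⟨a', ha'⟩ := hB a
    obtain ⟨b', hb'⟩ := hB (t : B)
    have htu : algebraMap B L (t : B) ≠ 0 := by
      have h1 : (t : B) ≠ 0 := nonZeroDivisors.ne_zero (hM t.2)
      rw [IsScalarTower.algebraMap_apply B K L]
      simpa using h1
    set x : S := IsLocalization.mk' S a t with hx
    have hxt : algebraMap S L x * algebraMap B L (t : B) = algebraMap B L a := by
      have := IsLocalization.mk'_spec S a t
      rw [IsScalarTower.algebraMap_apply B S L (t : B), IsScalarTower.algebraMap_apply B S L a,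
        ← map_mul, ← this]
    have hD := congrArg D hxt
    rw [hmul, ha', hb'] at hD
    refine ⟨(IsLocalization.mk' S a' t) - x * (IsLocalization.mk' S b' t), ?_⟩
    have h1 : algebraMap S L (IsLocalization.mk' S a' t) * algebraMap B L (t : B) =
        algebraMap B L a' := by
      rw [IsScalarTower.algebraMap_apply B S L (t : B), IsScalarTower.algebraMap_apply B S L a',
        ← map_mul, IsLocalization.mk'_spec]
    have h2 : algebraMap S L (IsLocalization.mk' S b' t) * algebraMap B L (t : B) =
        algebraMap B L b' := by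
      rw [IsScalarTower.algebraMap_apply B S L (t : B), IsScalarTower.algebraMap_apply B S L b',
        ← map_mul, IsLocalization.mk'_spec]
    apply mul_right_cancel₀ htu
    rw [map_sub, map_mul]
    linear_combination hD - h1 + algebraMap S L x * h2
  have hp0 : algebraMap B S p ≠ 0 := by
    intro h0
    have h1 : algebraMap B K p = 0 := by
      rw [IsScalarTower.algebraMap_apply B S K, h0, map_zero]
    rw [map_eq_zero_iff _ (IsFractionRing.injective B K)] at h1
    exact hp.ne_zero h1
  have hdiff := fun (c : R) (hc : c ∈ differentIdeal S R) =>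
    different_mul_deriv (S := S) (R := R) (K := K) (L := L) hQS D hadd hmul hSder
      (algebraMap B S p) hmax hp0 c hc
  obtain ⟨s, hs⟩ := trace_mem_of_different (S := S) (R := R) (K := K) (L := L) h (by
    intro c hc
    have hcP : PInt p (algebraMap R L c) := hPInt_of _ c.2
    have hall : ∀ y, PInt p y → PInt p (algebraMap R L c * D y) := by
      intro y hy
      have hyR := hof_PInt y hy
      obtain ⟨r', hr'⟩ := hdiff c hc ⟨y, hyR⟩
      refine hPInt_of _ ?_
      have : algebraMap R L c * D y = algebraMap R L r' := hr'
      rw [this]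
      exact r'.2
    have hres := hof_PInt _ (hh _ hcP hall)
    exact ⟨⟨_, hres⟩, rfl⟩)
  obtain ⟨a, t, rfl⟩ := IsLocalization.exists_mk'_eq M s
  refine ⟨a, t, fun hd => t.2 ((hmemP _).2 hd), ?_⟩
  rw [hs]
  have := IsLocalization.mk'_spec S a t
  rw [IsScalarTower.algebraMap_apply B S K (t : B), IsScalarTower.algebraMap_apply B S K a,
    ← map_mul, this]

/-- The gluing: a trace that is integral at all height one primes is in `B`. -/
theorem trace_integral (hQ : ∀ n : ℕ, n ≠ 0 → IsUnit (n : B))
    (D : L → L) (hadd : ∀ x y, D (x + y) = D x + D y)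
    (hmul : ∀ x y, D (x * y) = x * D y + y * D x)
    (hB : ∀ b : B, ∃ b' : B, D (algebraMap B L b) = algebraMap B L b')
    (h : L)
    (hh : ∀ p : B, Prime p → ∀ c, PInt p c → (∀ y, PInt p y → PInt p (c * D y)) →
      PInt p (c * h)) :
    ∃ b : B, Algebra.trace K L h = algebraMap B K b := by
  classical
  obtain ⟨a, ⟨b, hb⟩, hcop, hab⟩ :=
    IsFractionRing.exists_reduced_fraction (A := B) (Algebra.trace K L h)
  have hb0 : b ≠ 0 := nonZeroDivisors.ne_zero hb
  by_cases hu : IsUnit b
  · obtain ⟨u, rfl⟩ := hu
    refine ⟨a * ((u⁻¹ : Bˣ) : B), ?_⟩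
    rw [← hab, IsFractionRing.mk'_eq_div, map_mul, div_eq_mul_inv]
    congr 1
    rw [← map_units_inv]
  · exfalso
    obtain ⟨p, hp, hpb⟩ := WfDvdMonoid.exists_irreducible_factor hu hb0
    have hpp : Prime p := hp.prime
    obtain ⟨a', s, hs, hrel⟩ := localized_trace (K := K) hQ D hadd hmul hB h p hpp (hh p hpp)
    have hrel2 : a * s = a' * b := by
      have hbK : algebraMap B K b ≠ 0 := by
        simpa using hb0
      have h1 : Algebra.trace K L h = algebraMap B K a / algebraMap B K b := by
        rw [← hab, IsFractionRing.mk'_eq_div]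
      rw [h1] at hrel
      apply IsFractionRing.injective B K
      rw [map_mul, map_mul, ← hrel]
      field_simp
    have hpa : p ∣ a := by
      have h2 : p ∣ a * s := by rw [hrel2]; exact Dvd.dvd.mul_left hpb _
      exact (hpp.dvd_or_dvd h2).resolve_right hs
    exact hp.not_isUnit (hcop hpa hpb)

end Poly

end Vale.Agent.Lib.P266
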