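import Vale.Agent.Lib.P266.Regular

/-!
In the polynomial situation, the derivation module of the degree zero part is projective;
and the degree zero part is integrally closed.
-/

namespace Vale.Agent.Lib.P266

set_option linter.unusedSectionVars false
set_option linter.overlappingInstances false
set_option linter.style.haveILetI false

open scoped nonZeroDivisors

section Coeff

variable {k R σ : Type*} [Field k] [CommRing R] [Algebra k R]

/-- A derivation applied to the coefficients of a polynomial. -/
noncomputable def coeffDer (d : Derivation k R R) (a : MvPolynomial σ R) : MvPolynomial σ R :=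
  ∑ m ∈ a.support, MvPolynomial.monomial m (d (MvPolynomial.coeff m a))

lemma coeff_coeffDer (d : Derivation k R R) (a : MvPolynomial σ R) (m : σ →₀ ℕ) :
    MvPolynomial.coeff m (coeffDer d a) = d (MvPolynomial.coeff m a) := by
  classical
  simp only [coeffDer, MvPolynomial.coeff_sum, MvPolynomial.coeff_monomial]
  rw [Finset.sum_ite_eq']
  split_ifs with h
  · rfl
  · rw [MvPolynomial.notMem_support_iff.1 h, map_zero]

lemma coeffDer_add (d : Derivation k R R) (a b : MvPolynomial σ R) :
    coeffDer d (a + b) = coeffDer d a + coeffDer d b := by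
  ext m
  simp only [coeff_coeffDer, MvPolynomial.coeff_add, map_add]

lemma coeffDer_mul (d : Derivation k R R) (a b : MvPolynomial σ R) :
    coeffDer d (a * b) = a * coeffDer d b + b * coeffDer d a := by
  classical
  ext m
  rw [coeff_coeffDer, MvPolynomial.coeff_add, mul_comm b, MvPolynomial.coeff_mul,
    MvPolynomial.coeff_mul, MvPolynomial.coeff_mul, map_sum, ← Finset.sum_add_distrib]
  refine Finset.sum_congr rfl fun x _ => ?_
  rw [Derivation.leibniz, coeff_coeffDer, coeff_coeffDer, smul_eq_mul, smul_eq_mul]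
  ring

lemma coeffDer_C (d : Derivation k R R) (c : R) :
    coeffDer d (MvPolynomial.C c : MvPolynomial σ R) = MvPolynomial.C (d c) := by
  classical
  ext m
  rw [coeff_coeffDer, MvPolynomial.coeff_C, MvPolynomial.coeff_C]
  split_ifs
  · rfl
  · exact map_zero d

lemma coeffDer_smul (c : R) (d : Derivation k R R) (a : MvPolynomial σ R) :
    coeffDer (c • d) a = MvPolynomial.C c * coeffDer d a := by
  ext m
  rw [coeff_coeffDer, MvPolynomial.coeff_C_mul, coeff_coeffDer]
  rfl

lemma coeffDer_add' (d d' : Derivation k R R) (a : MvPolynomial σ R) :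
    coeffDer (d + d') a = coeffDer d a + coeffDer d' a := by
  ext m
  rw [coeff_coeffDer, MvPolynomial.coeff_add, coeff_coeffDer, coeff_coeffDer]
  rfl

end Coeff

section Red

variable {k A : Type*} [Field k] [CommRing A] [Algebra k A]
  (𝒜 : ℕ → Submodule k A) [GradedAlgebra 𝒜]

/-- If `A` is a polynomial ring over its degree zero part on some family, and the derivations
of `A` form a projective module, then so do the derivations of the degree zero part. -/
theorem projective_zero_of_polynomial [Module.Projective A (Derivation k A A)]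
    {r : ℕ} (f : Fin r → A) (hind : AlgebraicIndependent (𝒜 0) f)
    (hgen : Algebra.adjoin (𝒜 0) (Set.range f) = ⊤) :
    Module.Projective (𝒜 0) (Derivation k (𝒜 0) (𝒜 0)) := by
  classical
  have hsurj : Function.Surjective (MvPolynomial.aeval f : MvPolynomial (Fin r) (𝒜 0) →ₐ[𝒜 0] A) := by
    intro a
    have ha : a ∈ Algebra.adjoin (𝒜 0) (Set.range f) := by rw [hgen]; trivial
    rw [Algebra.adjoin_range_eq_range_aeval] at ha
    exact ha
  let Φ : MvPolynomial (Fin r) (𝒜 0) ≃ₐ[𝒜 0] A := AlgEquiv.ofBijective _ ⟨hind, hsurj⟩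
  have hΦC : ∀ c : 𝒜 0, Φ (MvPolynomial.C c) = (c : A) := fun c => MvPolynomial.aeval_C f c
  haveI hcomm : SMulCommClass k (𝒜 0) A := ⟨fun r c a => by
    change r • ((c : A) * a) = (c : A) * (r • a)
    rw [Algebra.smul_def, Algebra.smul_def]
    ring⟩
  -- extension of a derivation
  let ext : Derivation k (𝒜 0) (𝒜 0) → Derivation k A A := fun d =>
    Derivation.mk'
      { toFun := fun a => Φ (coeffDer d (Φ.symm a))
        map_add' := fun a b => by
          rw [map_add, coeffDer_add, map_add]
        map_smul' := fun t a => by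
          have h1 : t • a = Φ (MvPolynomial.C (algebraMap k (𝒜 0) t)) * a := by
            rw [hΦC, Algebra.smul_def]
            rfl
          have h2 : d (algebraMap k (𝒜 0) t) = 0 := Derivation.map_algebraMap d t
          rw [h1, map_mul, AlgEquiv.symm_apply_apply, coeffDer_mul, coeffDer_C, h2, map_zero,
            mul_zero, add_zero, map_mul, RingHom.id_apply, hΦC, Algebra.smul_def]
          rfl }
      (fun a b => by
        change Φ (coeffDer d (Φ.symm (a * b))) = a • Φ (coeffDer d (Φ.symm b)) + b • Φ (coeffDer d (Φ.symm a))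
        rw [map_mul, coeffDer_mul, map_add, map_mul, map_mul, AlgEquiv.apply_symm_apply,
          AlgEquiv.apply_symm_apply]
        rfl)
  have hext : ∀ d a, ext d a = Φ (coeffDer d (Φ.symm a)) := fun _ _ => rfl
  let ιlin : Derivation k (𝒜 0) (𝒜 0) →ₗ[𝒜 0] Derivation k A A :=
    { toFun := ext
      map_add' := fun d d' => by
        ext a
        simp only [Derivation.add_apply, hext, coeffDer_add', map_add]
      map_smul' := fun c d => by
        ext a
        rw [RingHom.id_apply, Derivation.smul_apply, hext, hext, coeffDer_smul, map_mul, hΦC]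
        rfl }
  have hpi0k : ∀ (t : k) (x : A), pi0 𝒜 (t • x) = t • pi0 𝒜 x := by
    intro t x
    have h1 : t • pi0 𝒜 x = algebraMap k (𝒜 0) t * pi0 𝒜 x := by
      apply Subtype.ext
      change t • (pi0 𝒜 x : A) = algebraMap k A t * (pi0 𝒜 x : A)
      rw [Algebra.smul_def]
    rw [Algebra.smul_def, map_mul, h1]
    congr 1
    exact pi0_of_zero 𝒜 (algebraMap k (𝒜 0) t)
  let ρ : Derivation k A A →ₗ[𝒜 0] Derivation k (𝒜 0) (𝒜 0) :=
    { toFun := fun p => Derivation.mk'
        { toFun := fun c => pi0 𝒜 (p (c : A))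
          map_add' := fun c c' => by
            have h1 : ((c + c' : 𝒜 0) : A) = (c : A) + c' := rfl
            rw [h1, map_add, map_add]
          map_smul' := fun t c => by
            have h1 : ((t • c : 𝒜 0) : A) = t • (c : A) := rfl
            rw [h1, Derivation.map_smul, hpi0k, RingHom.id_apply] }
        (fun c c' => by
          change pi0 𝒜 (p ((c * c' : 𝒜 0) : A)) = c • pi0 𝒜 (p (c' : A)) + c' • pi0 𝒜 (p (c : A))
          have h1 : ((c * c' : 𝒜 0) : A) = (c : A) * c' := rfl
          rw [h1, Derivation.leibniz, map_add, smul_eq_mul, smul_eq_mul, map_mul, map_mul,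
            pi0_of_zero, pi0_of_zero]
          rfl)
      map_add' := fun p p' => by
        refine Derivation.ext fun c => ?_
        change pi0 𝒜 ((p + p') (c : A)) = pi0 𝒜 (p (c : A)) + pi0 𝒜 (p' (c : A))
        rw [Derivation.add_apply, map_add]
      map_smul' := fun c p => by
        refine Derivation.ext fun c' => ?_
        change pi0 𝒜 ((c • p) (c' : A)) = c • pi0 𝒜 (p (c' : A))
        rw [Derivation.smul_apply]
        have h1 : c • (p (c' : A)) = (c : A) * p (c' : A) := rfl
        rw [h1, map_mul, pi0_of_zero]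
        rfl }
  have hρ : ∀ d, ρ (ext d) = d := by
    intro d
    refine Derivation.ext fun c => ?_
    change pi0 𝒜 (Φ (coeffDer d (Φ.symm (c : A)))) = d c
    have h1 : Φ.symm (c : A) = MvPolynomial.C c := by
      rw [← hΦC, AlgEquiv.symm_apply_apply]
    rw [h1, coeffDer_C, hΦC, pi0_of_zero]
  -- the splitting
  haveI hfree : Module.Free (𝒜 0) A := Module.Free.of_equiv Φ.toLinearEquiv
  obtain ⟨s, hs⟩ := Module.projective_def'.1 (inferInstance : Module.Projective A (Derivation k A A))
  have hs' : ∀ p, Finsupp.linearCombination A id (s p) = p := fun p => LinearMap.congr_fun hs p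
  let i : Derivation k (𝒜 0) (𝒜 0) →ₗ[𝒜 0] (Derivation k A A →₀ A) :=
    (s.restrictScalars (𝒜 0)).comp ιlin
  let j : (Derivation k A A →₀ A) →ₗ[𝒜 0] Derivation k (𝒜 0) (𝒜 0) :=
    ρ.comp ((Finsupp.linearCombination A id).restrictScalars (𝒜 0))
  refine Module.Projective.of_split i j ?_
  refine LinearMap.ext fun d => Derivation.ext fun c => ?_
  change ρ (Finsupp.linearCombination A id (s (ext d))) c = d c
  rw [hs', hρ]

end Red

section Closed

variable {k A : Type*} [Field k] [CommRing A] [IsDomain A] [Algebra k A]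
  (𝒜 : ℕ → Submodule k A) [GradedAlgebra 𝒜]

/-- The degree zero part of a graded integrally closed domain is integrally closed. -/
lemma isIntegrallyClosed_zero_aux [IsIntegrallyClosed A] [IsDomain (𝒜 0)]
    (L : Type*) [Field L] [Algebra A L] [IsFractionRing A L] : IsIntegrallyClosed (𝒜 0) := by
  classical
  letI : Algebra (𝒜 0) L := ((algebraMap A L).comp (algebraMap (𝒜 0) A)).toAlgebra
  haveI : IsScalarTower (𝒜 0) A L := IsScalarTower.of_algebraMap_eq (fun _ => rfl)
  haveI : FaithfulSMul (𝒜 0) L := by
    rw [faithfulSMul_iff_algebraMap_injective]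
    exact (IsFractionRing.injective A L).comp Subtype.val_injective
  letI : Algebra (FractionRing (𝒜 0)) L := FractionRing.liftAlgebra _ L
  haveI : IsScalarTower (𝒜 0) (FractionRing (𝒜 0)) L :=
    FractionRing.isScalarTower_liftAlgebra _ L
  rw [isIntegrallyClosed_iff (FractionRing (𝒜 0))]
  intro x hx
  obtain ⟨u, v, hv, rfl⟩ := IsFractionRing.div_surjective (A := 𝒜 0) x
  have hv0 : v ≠ 0 := nonZeroDivisors.ne_zero hv
  have hx1 : IsIntegral (𝒜 0) (algebraMap (FractionRing (𝒜 0)) L
      (algebraMap (𝒜 0) (FractionRing (𝒜 0)) u / algebraMap (𝒜 0) (FractionRing (𝒜 0)) v)) := by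
    obtain ⟨P, hP, hP0⟩ := hx
    refine ⟨P, hP, ?_⟩
    have h1 := congrArg (algebraMap (FractionRing (𝒜 0)) L) hP0
    rw [Polynomial.hom_eval₂, map_zero, ← IsScalarTower.algebraMap_eq] at h1
    exact h1
  have hx2 : IsIntegral A (algebraMap (FractionRing (𝒜 0)) L
      (algebraMap (𝒜 0) (FractionRing (𝒜 0)) u / algebraMap (𝒜 0) (FractionRing (𝒜 0)) v)) :=
    IsIntegral.tower_top hx1
  obtain ⟨c, hc⟩ := IsIntegrallyClosed.isIntegral_iff.1 hx2
  have hinj : Function.Injective (algebraMap (𝒜 0) (FractionRing (𝒜 0))) :=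
    IsFractionRing.injective _ _
  have hvK : algebraMap (𝒜 0) (FractionRing (𝒜 0)) v ≠ 0 := (map_ne_zero_iff _ hinj).2 hv0
  have h1 : c * (v : A) = (u : A) := by
    apply IsFractionRing.injective A L
    rw [map_mul, hc, map_div₀, ← IsScalarTower.algebraMap_apply, ← IsScalarTower.algebraMap_apply]
    have h2 : algebraMap A L (v : A) = algebraMap (𝒜 0) L v :=
      (IsScalarTower.algebraMap_apply (𝒜 0) A L v).symm
    have h3 : algebraMap A L (u : A) = algebraMap (𝒜 0) L u :=
      (IsScalarTower.algebraMap_apply (𝒜 0) A L u).symm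
    have h4 : algebraMap (𝒜 0) L v ≠ 0 := by
      rw [IsScalarTower.algebraMap_apply (𝒜 0) (FractionRing (𝒜 0)) L]
      exact (map_ne_zero _).2 hvK
    rw [h2, h3]
    field_simp
  have h2 : pi0 𝒜 c * v = u := by
    have h3 := congrArg (pi0 𝒜) h1
    rwa [map_mul, pi0_of_zero, pi0_of_zero] at h3
  refine ⟨pi0 𝒜 c, ?_⟩
  rw [eq_div_iff hvK, ← map_mul, h2]

lemma isIntegrallyClosed_zero [IsIntegrallyClosed A] [IsDomain (𝒜 0)] :
    IsIntegrallyClosed (𝒜 0) :=
  isIntegrallyClosed_zero_aux 𝒜 (FractionRing A)

/-- If `A` is Noetherian and the degree zero part has dimension at most one, `A` is regular. -/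
theorem regular_of_dim_le_one [CharZero k] [IsIntegrallyClosed A] [IsNoetherianRing A]
    [Algebra.FiniteType (𝒜 0) A] [Module.Projective A (Derivation k A A)]
    [Ring.DimensionLEOne (𝒜 0)] : IsRegularRing A := by
  haveI : IsDomain (𝒜 0) := isDomain_zero 𝒜
  haveI : IsIntegrallyClosed (𝒜 0) := isIntegrallyClosed_zero 𝒜
  have hsurj : Function.Surjective (pi0 𝒜) := fun c => ⟨(c : A), pi0_of_zero 𝒜 c⟩
  haveI : IsNoetherianRing (𝒜 0) := isNoetherianRing_of_surjective A (𝒜 0) (pi0 𝒜) hsurj
  haveI : IsDedekindDomain (𝒜 0) := { }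
  exact regular_of_graded 𝒜

end Closed

end Vale.Agent.Lib.P266
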