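import Vale.Agent.Lib.P266.Global2
import Mathlib.RingTheory.RegularLocalRing.Polynomial

/-!
If the degree zero part is a regular ring, so is the whole ring.
-/

namespace Vale.Agent.Lib.P266

set_option linter.unusedSectionVars false
set_option linter.overlappingInstances false
set_option linter.style.haveILetI false

open scoped nonZeroDivisors

section Reg

/-- Localizing at a prime avoiding `s`, where `A` and a regular subring agree after inverting `s`. -/
lemma regular_local_of_saturated {Q A : Type*} [CommRing Q] [CommRing A] [IsDomain A]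
    (φ : Q →+* A) (hφinj : Function.Injective φ) (P : Ideal A) [hP : P.IsPrime] (s : Q)
    (hs : φ s ∉ P) (hφ : ∀ a, ∃ K : ℕ, ∃ u : Q, (φ s) ^ K * a = φ u) [hreg : IsRegularRing Q] :
    IsRegularLocalRing (Localization.AtPrime P) := by
  have hspow : ∀ K : ℕ, (φ s) ^ K ∉ P := fun K h => hs (hP.mem_of_pow_mem K h)
  let P' : Ideal Q := P.comap φ
  haveI hP' : P'.IsPrime := Ideal.comap_isPrime _ _
  let T := Localization.AtPrime P
  let ι : A →+* T := algebraMap A T
  have hιinj : Function.Injective ι :=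
    IsLocalization.injective T (Ideal.primeCompl_le_nonZeroDivisors P)
  letI algQ : Algebra Q T := (ι.comp φ).toAlgebra
  have halg : ∀ x, algebraMap Q T x = ι (φ x) := fun _ => rfl
  haveI hloc : IsLocalization P'.primeCompl T := by
    refine ⟨⟨?_, ?_, ?_⟩⟩
    · rintro ⟨y, hy⟩
      have h1 : φ y ∈ P.primeCompl := hy
      rw [halg]
      exact IsLocalization.map_units T (⟨φ y, h1⟩ : P.primeCompl)
    · intro z
      obtain ⟨⟨a, t⟩, hz⟩ := IsLocalization.surj P.primeCompl z
      obtain ⟨N, u, hu⟩ := hφ a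
      obtain ⟨M, v, hv⟩ := hφ (t : A)
      have hvP : v ∈ P'.primeCompl := by
        change φ v ∉ P
        rw [← hv]
        intro h
        rcases hP.mem_or_mem h with h1 | h1
        · exact hspow M h1
        · exact t.2 h1
      refine ⟨(s ^ M * u, ⟨s ^ N * v, ?_⟩), ?_⟩
      · change φ (s ^ N * v) ∉ P
        rw [map_mul, map_pow]
        intro h
        rcases hP.mem_or_mem h with h2 | h2
        · exact hspow N h2
        · exact hvP h2
      · change z * ι (φ (s ^ N * v)) = ι (φ (s ^ M * u))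
        have h2 : φ (s ^ N * v) = (φ s) ^ N * ((φ s) ^ M * (t : A)) := by
          rw [map_mul, map_pow, ← hv]
        have h3 : φ (s ^ M * u) = (φ s) ^ M * ((φ s) ^ N * a) := by
          rw [map_mul, map_pow, ← hu]
        rw [h2, h3]
        simp only [map_mul, map_pow]
        have hz' : z * ι (t : A) = ι a := hz
        linear_combination (ι (φ s)) ^ N * (ι (φ s)) ^ M * hz'
    · intro x y hxy
      refine ⟨1, ?_⟩
      have h1 : x = y := hφinj (hιinj hxy)
      rw [h1]
  haveI h1 : IsRegularLocalRing (Localization.AtPrime P') := isRegularRing_iff.1 hreg P'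
  let e := IsLocalization.algEquiv P'.primeCompl (Localization.AtPrime P') T
  exact IsRegularLocalRing.of_ringEquiv e.toRingEquiv

variable {k A : Type*} [Field k] [CommRing A] [Algebra k A]
  (𝒜 : ℕ → Submodule k A) [GradedAlgebra 𝒜]

/-- If the degree zero part is a regular ring, then `A` is a regular ring. -/
theorem regular_of_graded [CharZero k] [IsDomain A] [IsIntegrallyClosed A]
    [Algebra.FiniteType (𝒜 0) A] [Module.Projective A (Derivation k A A)]
    [IsRegularRing (𝒜 0)] : IsRegularRing A := by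
  classical
  haveI : IsNoetherianRing A := Algebra.FiniteType.isNoetherianRing (𝒜 0) A
  rw [isRegularRing_iff]
  intro P hP
  let 𝔭 : Ideal (𝒜 0) := P.comap (algebraMap (𝒜 0) A)
  have h𝔭 : 𝔭 ≠ ⊤ := Ideal.IsPrime.ne_top inferInstance
  obtain ⟨𝔪, h𝔪, hle⟩ := Ideal.exists_le_maximal 𝔭 h𝔭
  haveI := h𝔪
  obtain ⟨r, f, n, _, hind, s, hs, hsa⟩ := graded_global 𝒜 𝔪
  have hsP : (s : A) ∉ P := fun h => hs (hle h)
  have hC : ∀ K : ℕ, (MvPolynomial.aeval f : MvPolynomial (Fin r) (𝒜 0) →ₐ[𝒜 0] A)
      (MvPolynomial.C s) = (s : A) := fun _ => MvPolynomial.aeval_C f s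
  haveI hreg : IsRegularRing (MvPolynomial (Fin r) (𝒜 0)) :=
    MvPolynomial.isRegularRing_of_isRegularRing (𝒜 0)
  have hinj' : Function.Injective
      ((MvPolynomial.aeval f : MvPolynomial (Fin r) (𝒜 0) →ₐ[𝒜 0] A).toRingHom) := hind
  refine regular_local_of_saturated
    ((MvPolynomial.aeval f : MvPolynomial (Fin r) (𝒜 0) →ₐ[𝒜 0] A).toRingHom) hinj' P
    (MvPolynomial.C s) ?_ ?_
  · change (MvPolynomial.aeval f : MvPolynomial (Fin r) (𝒜 0) →ₐ[𝒜 0] A) (MvPolynomial.C s) ∉ P
    rw [hC 0]
    exact hsP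
  · intro a
    obtain ⟨K, hK⟩ := hsa a
    rw [Algebra.adjoin_range_eq_range_aeval] at hK
    obtain ⟨u, hu⟩ := hK
    refine ⟨K, u, ?_⟩
    change ((MvPolynomial.aeval f : MvPolynomial (Fin r) (𝒜 0) →ₐ[𝒜 0] A) (MvPolynomial.C s)) ^ K * a =
      (MvPolynomial.aeval f : MvPolynomial (Fin r) (𝒜 0) →ₐ[𝒜 0] A) u
    rw [hC 0]
    exact hu.symm

end Reg

end Vale.Agent.Lib.P266
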