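import Vale.Agent.Lib.P266.Deriv
import Mathlib.RingTheory.MvPolynomial.Localization

/-!
The trace of a functional on derivations.
-/

namespace Vale.Agent.Lib.P266

set_option linter.unusedSectionVars false
set_option linter.overlappingInstances false
set_option linter.style.haveILetI false

open scoped nonZeroDivisors

section Trace

variable {A0 A K0 L K : Type*} {s : ℕ}
  [CommRing A0] [IsDomain A0] [CommRing A] [IsDomain A] [IsIntegrallyClosed A] [Algebra A0 A]
  [Field K0] [Algebra A0 K0] [IsFractionRing A0 K0] [CharZero K0]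
  [Field L] [Algebra A L] [IsFractionRing A L] [Algebra K0 L] [Algebra A0 L]
  [IsScalarTower A0 K0 L] [IsScalarTower A0 A L]
  [Algebra (MvPolynomial (Fin s) K0) L] [IsScalarTower K0 (MvPolynomial (Fin s) K0) L]
  [Field K] [Algebra (MvPolynomial (Fin s) K0) K] [IsFractionRing (MvPolynomial (Fin s) K0) K]
  [Algebra K L] [IsScalarTower (MvPolynomial (Fin s) K0) K L] [FiniteDimensional K L]

include K0 in
lemma algebraMap_map_eq (g : Fin s → A)
    (hX : ∀ i, algebraMap (MvPolynomial (Fin s) K0) L (MvPolynomial.X i) = algebraMap A L (g i))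
    (b : MvPolynomial (Fin s) A0) :
    algebraMap (MvPolynomial (Fin s) K0) L (MvPolynomial.map (algebraMap A0 K0) b) =
      algebraMap A L (MvPolynomial.aeval g b) := by
  induction b using MvPolynomial.induction_on with
  | C a =>
    simp only [MvPolynomial.map_C, MvPolynomial.aeval_C]
    rw [← MvPolynomial.algebraMap_eq, ← IsScalarTower.algebraMap_apply K0,
      ← IsScalarTower.algebraMap_apply A0, ← IsScalarTower.algebraMap_apply A0]
  | add p q hp hq => simp only [map_add, hp, hq]
  | mul_X p i hp => simp only [map_mul, hp, MvPolynomial.map_X, MvPolynomial.aeval_X, hX]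

attribute [local instance] MvPolynomial.algebraMvPolynomial in
/-- Denominators of an element integral over the polynomial ring over `K0`. -/
lemma clear_den (g : Fin s → A)
    (hX : ∀ i, algebraMap (MvPolynomial (Fin s) K0) L (MvPolynomial.X i) = algebraMap A L (g i))
    (z : L) (hz : IsIntegral (MvPolynomial (Fin s) K0) z) :
    ∃ s0 : A0, s0 ≠ 0 ∧ ∃ a : A, algebraMap A0 L s0 * z = algebraMap A L a := by
  classical
  let R0 := MvPolynomial (Fin s) A0
  let B := MvPolynomial (Fin s) K0
  letI : Algebra R0 L := ((algebraMap B L).comp (algebraMap R0 B)).toAlgebra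
  haveI : IsScalarTower R0 B L := IsScalarTower.of_algebraMap_eq (fun _ => rfl)
  let M : Submonoid R0 := (A0⁰).map (MvPolynomial.C (σ := Fin s))
  haveI : IsLocalization M B := MvPolynomial.isLocalization (σ := Fin s) A0⁰ K0
  obtain ⟨⟨m, hm⟩, hmz⟩ := IsIntegral.exists_multiple_integral_of_isLocalization (Rₘ := B) M z hz
  obtain ⟨s0, hs0, rfl⟩ := Submonoid.mem_map.1 hm
  refine ⟨s0, nonZeroDivisors.ne_zero hs0, ?_⟩
  have hcomp : algebraMap R0 L =
      (algebraMap A L).comp (MvPolynomial.aeval g : R0 →ₐ[A0] A).toRingHom := by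
    refine RingHom.ext fun b => ?_
    exact algebraMap_map_eq g hX b
  have hint : IsIntegral A ((⟨MvPolynomial.C s0, hm⟩ : M) • z) := by
    have h1 : (algebraMap R0 L).IsIntegralElem ((⟨MvPolynomial.C s0, hm⟩ : M) • z) := hmz
    rw [hcomp] at h1
    exact RingHom.IsIntegralElem.of_comp h1
  obtain ⟨a, ha⟩ := IsIntegrallyClosed.isIntegral_iff.1 hint
  refine ⟨a, ?_⟩
  rw [ha, Submonoid.smul_def, Algebra.smul_def]
  congr 1
  rw [hcomp]
  have h5 : (MvPolynomial.aeval g : R0 →ₐ[A0] A) (MvPolynomial.C s0) = algebraMap A0 A s0 :=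
    MvPolynomial.aeval_C g s0
  change algebraMap A0 L s0 = algebraMap A L ((MvPolynomial.aeval g : R0 →ₐ[A0] A)
    (MvPolynomial.C s0))
  rw [h5]
  exact IsScalarTower.algebraMap_apply A0 A L s0

/-- Common denominators for finitely many elements integral over the polynomial ring. -/
lemma clear_den_finset (g : Fin s → A)
    (hX : ∀ i, algebraMap (MvPolynomial (Fin s) K0) L (MvPolynomial.X i) = algebraMap A L (g i))
    (T : Finset L) (hT : ∀ z ∈ T, IsIntegral (MvPolynomial (Fin s) K0) z) :
    ∃ s0 : A0, s0 ≠ 0 ∧ ∀ z ∈ T, ∃ a : A, algebraMap A0 L s0 * z = algebraMap A L a := by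
  classical
  induction T using Finset.induction_on with
  | empty => exact ⟨1, one_ne_zero, by simp⟩
  | insert z T _ ih =>
    obtain ⟨s1, hs1, h1⟩ := ih (fun w hw => hT w (Finset.mem_insert_of_mem hw))
    obtain ⟨s2, hs2, a2, h2⟩ := clear_den (A0 := A0) g hX z (hT z (Finset.mem_insert_self _ _))
    refine ⟨s1 * s2, mul_ne_zero hs1 hs2, ?_⟩
    intro w hw
    rcases Finset.mem_insert.1 hw with rfl | hw
    · refine ⟨algebraMap A0 A s1 * a2, ?_⟩
      rw [map_mul, map_mul, mul_assoc, h2, IsScalarTower.algebraMap_apply A0 A L s1]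
    · obtain ⟨a1, ha1⟩ := h1 w hw
      refine ⟨algebraMap A0 A s2 * a1, ?_⟩
      rw [map_mul, map_mul, ← ha1, IsScalarTower.algebraMap_apply A0 A L s1,
        IsScalarTower.algebraMap_apply A0 A L s2]
      ring

/-- The hypothesis of the gluing criterion holds for functionals on derivations. -/
theorem trace_integral_of_valid [Algebra.IsSeparable K L]
    (g : Fin s → A)
    (hX : ∀ i, algebraMap (MvPolynomial (Fin s) K0) L (MvPolynomial.X i) = algebraMap A L (g i))
    (hint : ∀ a : A, IsIntegral (MvPolynomial (Fin s) K0) (algebraMap A L a))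
    (S : Finset A) (hS : Algebra.adjoin A0 (S : Set A) = ⊤)
    (D : L → L) (hadd : ∀ x y, D (x + y) = D x + D y)
    (hmul : ∀ x y, D (x * y) = x * D y + y * D x)
    (hconst : ∀ c : A0, D (algebraMap A0 L c) = 0)
    (hB : ∀ b : MvPolynomial (Fin s) K0, ∃ b', D (algebraMap (MvPolynomial (Fin s) K0) L b) =
      algebraMap (MvPolynomial (Fin s) K0) L b')
    (h : L)
    (hv : ∀ x : L, (∀ a : A, ∃ a' : A, x * D (algebraMap A L a) = algebraMap A L a') →
      ∃ a' : A, x * h = algebraMap A L a') :
    ∃ b : MvPolynomial (Fin s) K0, Algebra.trace K L h =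
      algebraMap (MvPolynomial (Fin s) K0) K b := by
  classical
  have hQ : ∀ n : ℕ, n ≠ 0 → IsUnit (n : MvPolynomial (Fin s) K0) := by
    intro n hn
    have h1 : IsUnit (n : K0) := (Nat.cast_ne_zero.2 hn).isUnit
    have h2 := h1.map (MvPolynomial.C (σ := Fin s) (R := K0))
    simpa using h2
  refine trace_integral (B := MvPolynomial (Fin s) K0) hQ D hadd hmul hB h ?_
  intro p hp c _ hall
  -- denominators on generators
  have hgen : ∀ t : A, ∃ st : MvPolynomial (Fin s) K0, ¬ p ∣ st ∧
      IsIntegral (MvPolynomial (Fin s) K0)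
        (algebraMap (MvPolynomial (Fin s) K0) L st * (c * D (algebraMap A L t))) := by
    intro t
    exact hall (algebraMap A L t) ⟨1, fun h1 => hp.not_dvd_one h1, by simpa using hint t⟩
  choose st hst hst2 using hgen
  let s1 : MvPolynomial (Fin s) K0 := ∏ t ∈ S, st t
  have hs1 : ¬ p ∣ s1 := by
    intro h1
    obtain ⟨t, _, ht⟩ := (hp.dvd_finsetProd_iff _).1 h1
    exact hst t ht
  have hz : ∀ t ∈ S, IsIntegral (MvPolynomial (Fin s) K0)
      (algebraMap (MvPolynomial (Fin s) K0) L s1 * (c * D (algebraMap A L t))) := by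
    intro t ht
    have h1 : s1 = (∏ t' ∈ S.erase t, st t') * st t := (Finset.prod_erase_mul _ _ ht).symm
    rw [h1, map_mul, mul_assoc]
    exact isIntegral_algebraMap.mul (hst2 t)
  let T : Finset L := insert (algebraMap (MvPolynomial (Fin s) K0) L s1)
    (S.image fun t => algebraMap (MvPolynomial (Fin s) K0) L s1 * (c * D (algebraMap A L t)))
  obtain ⟨s0, hs0, hs0T⟩ := clear_den_finset (A0 := A0) g hX T (by
    intro z hz'
    rcases Finset.mem_insert.1 hz' with rfl | hz'
    · exact isIntegral_algebraMap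
    · obtain ⟨t, ht, rfl⟩ := Finset.mem_image.1 hz'
      exact hz t ht)
  obtain ⟨a1, ha1⟩ := hs0T _ (Finset.mem_insert_self _ _)
  -- the multiplier
  let x : L := algebraMap A0 L s0 * algebraMap (MvPolynomial (Fin s) K0) L s1 * c
  have hxgen : ∀ t ∈ S, ∃ a' : A, x * D (algebraMap A L t) = algebraMap A L a' := by
    intro t ht
    obtain ⟨a', ha'⟩ := hs0T _ (Finset.mem_insert_of_mem
      (Finset.mem_image_of_mem (fun t => algebraMap (MvPolynomial (Fin s) K0) L s1 *
        (c * D (algebraMap A L t))) ht))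
    refine ⟨a', ?_⟩
    rw [← ha']
    simp only [x]
    ring
  have hxall : ∀ a : A, ∃ a' : A, x * D (algebraMap A L a) = algebraMap A L a' := by
    intro a
    have ha : a ∈ Algebra.adjoin A0 (S : Set A) := by rw [hS]; trivial
    induction ha using Algebra.adjoin_induction with
    | mem t ht => exact hxgen t ht
    | algebraMap r =>
      refine ⟨0, ?_⟩
      rw [← IsScalarTower.algebraMap_apply, hconst, mul_zero, map_zero]
    | add a b _ _ ha hb =>
      obtain ⟨a', ha'⟩ := ha
      obtain ⟨b', hb'⟩ := hb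
      refine ⟨a' + b', ?_⟩
      rw [map_add, hadd, mul_add, ha', hb', map_add]
    | mul a b _ _ ha hb =>
      obtain ⟨a', ha'⟩ := ha
      obtain ⟨b', hb'⟩ := hb
      refine ⟨a * b' + b * a', ?_⟩
      rw [map_mul, hmul, map_add, map_mul, map_mul, ← ha', ← hb']
      ring
  obtain ⟨a', ha'⟩ := hv x hxall
  -- the conclusion
  have hs0K : algebraMap A0 K0 s0 ≠ 0 := by
    intro h0
    exact hs0 ((map_eq_zero_iff _ (IsFractionRing.injective A0 K0)).1 h0)
  have hunit : IsUnit (MvPolynomial.C (algebraMap A0 K0 s0) : MvPolynomial (Fin s) K0) :=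
    hs0K.isUnit.map _
  refine ⟨MvPolynomial.C (algebraMap A0 K0 s0) * s1, ?_, ?_⟩
  · intro h1
    exact hs1 ((hunit.dvd_mul_left).1 h1)
  · have h2 : algebraMap (MvPolynomial (Fin s) K0) L (MvPolynomial.C (algebraMap A0 K0 s0)) =
        algebraMap A0 L s0 := by
      rw [← MvPolynomial.algebraMap_eq, ← IsScalarTower.algebraMap_apply K0,
        ← IsScalarTower.algebraMap_apply A0]
    have h3 : algebraMap (MvPolynomial (Fin s) K0) L (MvPolynomial.C (algebraMap A0 K0 s0) * s1) *
        (c * h) = algebraMap A L a' := by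
      rw [← ha', map_mul, h2]
      simp only [x]
      ring
    rw [h3]
    exact hint a'

end Trace

end Vale.Agent.Lib.P266
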