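import Vale.Agent.Lib.P266.Trace

/-!
Functionals on derivations and the coordinate derivations.
-/

namespace Vale.Agent.Lib.P266

set_option linter.unusedSectionVars false
set_option linter.overlappingInstances false
set_option linter.style.haveILetI false

open scoped nonZeroDivisors

section Gen

/-- A Leibniz map vanishing on a subring vanishes on its fractions. -/
lemma vanish_frac {R L : Type*} [CommRing R] [Field L] [Algebra R L]
    (D : L → L) (hmul : ∀ x y, D (x * y) = x * D y + y * D x)
    (hR : ∀ r : R, D (algebraMap R L r) = 0) (y : L) (r r' : R)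
    (hr : algebraMap R L r ≠ 0) (h : algebraMap R L r * y = algebraMap R L r') : D y = 0 := by
  have h1 := congrArg D h
  rw [hmul, hR, hR, mul_zero, add_zero] at h1
  exact (mul_eq_zero.mp h1).resolve_left hr

/-- The coordinate derivations. -/
lemma exists_partial {s : ℕ} {K0 K L : Type*} [Field K0] [Field L]
    [Algebra (MvPolynomial (Fin s) K0) L]
    [Field K] [Algebra (MvPolynomial (Fin s) K0) K] [IsFractionRing (MvPolynomial (Fin s) K0) K]
    [Algebra K L] [IsScalarTower (MvPolynomial (Fin s) K0) K L] [Algebra.IsSeparable K L]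
    (j : Fin s) :
    ∃ (d : K → K) (D : L → L), (∀ x y, d (x + y) = d x + d y) ∧ (∀ x y, D (x + y) = D x + D y) ∧
      (∀ x y, D (x * y) = x * D y + y * D x) ∧
      (∀ b, d (algebraMap (MvPolynomial (Fin s) K0) K b) =
        algebraMap (MvPolynomial (Fin s) K0) K (MvPolynomial.pderiv j b)) ∧
      (∀ x, D (algebraMap K L x) = algebraMap K L (d x)) := by
  haveI : Algebra.FormallyEtale (MvPolynomial (Fin s) K0) K :=
    Algebra.FormallyEtale.of_isLocalization (MvPolynomial (Fin s) K0)⁰
  haveI : Algebra.FormallyEtale K L := Algebra.FormallyEtale.of_isSeparable K L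
  let d0 : Derivation ℤ (MvPolynomial (Fin s) K0) K :=
    (Algebra.linearMap (MvPolynomial (Fin s) K0) K).compDer
      ((MvPolynomial.pderiv j : Derivation K0 _ _).restrictScalars ℤ)
  obtain ⟨dK, hdK⟩ := exists_lift_derivation d0
  let d1 : Derivation ℤ K L := (Algebra.linearMap K L).compDer dK
  obtain ⟨DL, hDL⟩ := exists_lift_derivation d1
  refine ⟨dK, DL, fun x y => map_add _ _ _, fun x y => map_add _ _ _, fun x y => ?_, fun b => ?_,
    fun x => ?_⟩
  · have := DL.leibniz x y
    simpa using this
  · exact hdK b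
  · exact hDL x

end Gen

section Trace

variable {A0 A K0 L K : Type*} {s : ℕ}
  [CommRing A0] [IsDomain A0] [CommRing A] [IsDomain A] [IsIntegrallyClosed A] [Algebra A0 A]
  [Field K0] [Algebra A0 K0] [IsFractionRing A0 K0] [CharZero K0]
  [Field L] [Algebra A L] [IsFractionRing A L] [Algebra K0 L] [Algebra A0 L]
  [IsScalarTower A0 K0 L] [IsScalarTower A0 A L]
  [Algebra (MvPolynomial (Fin s) K0) L] [IsScalarTower K0 (MvPolynomial (Fin s) K0) L]
  [Field K] [Algebra (MvPolynomial (Fin s) K0) K] [IsFractionRing (MvPolynomial (Fin s) K0) K]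
  [Algebra K L] [IsScalarTower (MvPolynomial (Fin s) K0) K L] [FiniteDimensional K L]

/-- A derivation of `A` attached to a valid multiplier. -/
lemma exists_theta (D : L → L) (hadd : ∀ x y, D (x + y) = D x + D y)
    (hmul : ∀ x y, D (x * y) = x * D y + y * D x)
    (hconst : ∀ c : A0, D (algebraMap A0 L c) = 0) (x : L)
    (hx : ∀ a : A, ∃ a' : A, x * D (algebraMap A L a) = algebraMap A L a') :
    ∃ θ : Derivation A0 A A, ∀ a, algebraMap A L (θ a) = x * D (algebraMap A L a) := by
  choose f hf using hx
  have hinj := IsFractionRing.injective A L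
  let F : A →ₗ[A0] A :=
    { toFun := f
      map_add' := fun a b => by
        apply hinj
        rw [← hf, map_add, map_add, ← hf, ← hf, hadd]
        ring
      map_smul' := fun c a => by
        apply hinj
        have h1 : algebraMap A L (c • a) = algebraMap A0 L c * algebraMap A L a := by
          rw [Algebra.smul_def, map_mul, ← IsScalarTower.algebraMap_apply]
        rw [← hf, h1, hmul, hconst, RingHom.id_apply, Algebra.smul_def, map_mul, ← hf,
          ← IsScalarTower.algebraMap_apply]
        ring }
  refine ⟨Derivation.mk' F (fun a b => ?_), fun a => (hf a).symm⟩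
  apply hinj
  change algebraMap A L (f (a * b)) = algebraMap A L (a • f b + b • f a)
  rw [← hf, map_mul, hmul, map_add, smul_eq_mul, smul_eq_mul, map_mul, map_mul, ← hf, ← hf]
  ring

lemma valid_of_gens (S : Finset A) (hS : Algebra.adjoin A0 (S : Set A) = ⊤)
    (D : L → L) (hadd : ∀ x y, D (x + y) = D x + D y)
    (hmul : ∀ x y, D (x * y) = x * D y + y * D x)
    (hconst : ∀ c : A0, D (algebraMap A0 L c) = 0) (x : L)
    (hx : ∀ t ∈ S, ∃ a' : A, x * D (algebraMap A L t) = algebraMap A L a') (a : A) :
    ∃ a' : A, x * D (algebraMap A L a) = algebraMap A L a' := by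
  have ha : a ∈ Algebra.adjoin A0 (S : Set A) := by rw [hS]; trivial
  induction ha using Algebra.adjoin_induction with
  | mem t ht => exact hx t ht
  | algebraMap r =>
    refine ⟨0, ?_⟩
    rw [← IsScalarTower.algebraMap_apply, hconst, mul_zero, map_zero]
  | add a b _ _ ha hb =>
    obtain ⟨a', ha'⟩ := ha
    obtain ⟨b', hb'⟩ := hb
    refine ⟨a' + b', ?_⟩
    rw [map_add, hadd, mul_add, ha', hb', map_add]
  | mul a b _ _ ha hb =>
    obtain ⟨a', ha'⟩ := ha
    obtain ⟨b', hb'⟩ := hb
    refine ⟨a * b' + b * a', ?_⟩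
    rw [map_mul, hmul, map_add, map_mul, map_mul, ← ha', ← hb']
    ring

/-- The elements `h j` attached to a functional. -/
theorem exists_h (φ : Derivation A0 A A →ₗ[A] A)
    (S : Finset A) (hS : Algebra.adjoin A0 (S : Set A) = ⊤)
    (g : Fin s → A)
    (D : Fin s → L → L) (hadd : ∀ j x y, D j (x + y) = D j x + D j y)
    (hmul : ∀ j x y, D j (x * y) = x * D j y + y * D j x)
    (hconst : ∀ j, ∀ c : A0, D j (algebraMap A0 L c) = 0) :
    ∃ h : Fin s → L,
      (∀ j x, (∀ a : A, ∃ a' : A, x * D j (algebraMap A L a) = algebraMap A L a') →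
        ∃ a' : A, x * h j = algebraMap A L a') ∧
      (∀ D' : Derivation A0 A A,
        (∀ a, algebraMap A L (D' a) = ∑ j, algebraMap A L (D' (g j)) * D j (algebraMap A L a)) →
        algebraMap A L (φ D') = ∑ j, algebraMap A L (D' (g j)) * h j) := by
  classical
  have hinj := IsFractionRing.injective A L
  obtain ⟨⟨c, hc⟩, hcT⟩ := IsLocalization.exist_integer_multiples_of_finset (A⁰)
    ((Finset.univ ×ˢ S).image (fun p : Fin s × A => D p.1 (algebraMap A L p.2)))
  have hc0 : c ≠ 0 := nonZeroDivisors.ne_zero hc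
  have hcL : algebraMap A L c ≠ 0 := by
    rw [Ne, map_eq_zero_iff _ hinj]
    exact hc0
  have hvalid : ∀ j, ∀ a : A, ∃ a' : A, algebraMap A L c * D j (algebraMap A L a) =
      algebraMap A L a' := by
    intro j
    refine valid_of_gens S hS (D j) (hadd j) (hmul j) (hconst j) _ fun t ht => ?_
    have h1 := hcT (D j (algebraMap A L t)) (Finset.mem_image.2 ⟨(j, t), by simp [ht], rfl⟩)
    obtain ⟨a', ha'⟩ := h1
    refine ⟨a', ?_⟩
    rw [ha', Algebra.smul_def]
  have hθ := fun j => exists_theta (A0 := A0) (D j) (hadd j) (hmul j) (hconst j) _ (hvalid j)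
  choose θ hθ using hθ
  refine ⟨fun j => algebraMap A L (φ (θ j)) / algebraMap A L c, ?_, ?_⟩
  · intro j x hx
    obtain ⟨θx, hθx⟩ := exists_theta (A0 := A0) (D j) (hadd j) (hmul j) (hconst j) x hx
    obtain ⟨u, v, hv, rfl⟩ := IsFractionRing.div_surjective (A := A) x
    have hv0 : algebraMap A L v ≠ 0 := by
      rw [Ne, map_eq_zero_iff _ hinj]
      exact nonZeroDivisors.ne_zero hv
    have h1 : (v * c) • θx = u • θ j := by
      ext a
      apply hinj
      simp only [Derivation.smul_apply, smul_eq_mul, map_mul]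
      rw [hθx, hθ]
      field_simp
    have h2 := congrArg φ h1
    rw [map_smul, map_smul, smul_eq_mul, smul_eq_mul] at h2
    refine ⟨φ θx, ?_⟩
    have h3 := congrArg (algebraMap A L) h2
    rw [map_mul, map_mul, map_mul] at h3
    field_simp
    linear_combination (-1 : L) * h3
  · intro D' hD'
    have h1 : c • D' = ∑ j, (D' (g j)) • θ j := by
      ext a
      apply hinj
      have h0 : (∑ j, D' (g j) • θ j) a = ∑ j, (D' (g j) • θ j) a :=
        map_sum (Derivation.coeFnAddMonoidHom.comp (AddMonoidHom.id _) |>.comp (AddMonoidHom.id _) |> fun f => (Pi.evalAddMonoidHom _ a).comp f) _ _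
      rw [Derivation.smul_apply, h0]
      simp only [Derivation.smul_apply, smul_eq_mul, map_mul, map_sum]
      rw [hD' a, Finset.mul_sum]
      refine Finset.sum_congr rfl fun j _ => ?_
      rw [hθ]
      ring
    have h2 := congrArg φ h1
    rw [map_smul, map_sum, smul_eq_mul] at h2
    have h3 := congrArg (algebraMap A L) h2
    rw [map_mul, map_sum] at h3
    simp only [map_smul, smul_eq_mul, map_mul] at h3
    simp only [← mul_div_assoc]
    rw [← Finset.sum_div, ← h3]
    field_simp

/-- A derivation of `A` is determined by its values on `g`. -/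
theorem derivation_formula [Algebra.IsSeparable K L]
    (g : Fin s → A)
    (hX : ∀ i, algebraMap (MvPolynomial (Fin s) K0) L (MvPolynomial.X i) = algebraMap A L (g i))
    (D : Fin s → L → L) (hadd : ∀ j x y, D j (x + y) = D j x + D j y)
    (hmul : ∀ j x y, D j (x * y) = x * D j y + y * D j x)
    (hB : ∀ j b, D j (algebraMap (MvPolynomial (Fin s) K0) L b) =
      algebraMap (MvPolynomial (Fin s) K0) L (MvPolynomial.pderiv j b))
    (D' : Derivation A0 A A) (a : A) :
    algebraMap A L (D' a) = ∑ j, algebraMap A L (D' (g j)) * D j (algebraMap A L a) := by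
  classical
  haveI : Algebra.FormallyEtale A L := Algebra.FormallyEtale.of_isLocalization A⁰
  let d0 : Derivation ℤ A L := (Algebra.linearMap A L).compDer (D'.restrictScalars ℤ)
  obtain ⟨Dh, hDh⟩ := exists_lift_derivation d0
  have hDh' : ∀ a, Dh (algebraMap A L a) = algebraMap A L (D' a) := hDh
  let Δ : L → L := fun x => Dh x - ∑ j, algebraMap A L (D' (g j)) * D j x
  have hΔadd : ∀ x y, Δ (x + y) = Δ x + Δ y := by
    intro x y
    simp only [Δ, map_add, hadd, mul_add, Finset.sum_add_distrib]
    ring
  have hΔmul : ∀ x y, Δ (x * y) = x * Δ y + y * Δ x := by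
    intro x y
    simp only [Δ, hmul, Derivation.leibniz, smul_eq_mul, mul_add, Finset.sum_add_distrib, mul_sub,
      Finset.mul_sum]
    have h1 : ∀ j, algebraMap A L (D' (g j)) * (x * D j y) =
        x * (algebraMap A L (D' (g j)) * D j y) := fun j => by ring
    have h2 : ∀ j, algebraMap A L (D' (g j)) * (y * D j x) =
        y * (algebraMap A L (D' (g j)) * D j x) := fun j => by ring
    simp only [h1, h2]
    ring
  have hinj := IsFractionRing.injective A L
  have hA0 : ∀ r : A0, Δ (algebraMap A0 L r) = 0 := by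
    intro r
    have h1 : algebraMap A0 L r = algebraMap (MvPolynomial (Fin s) K0) L
        (MvPolynomial.C (algebraMap A0 K0 r)) := by
      rw [← MvPolynomial.algebraMap_eq, ← IsScalarTower.algebraMap_apply K0,
        ← IsScalarTower.algebraMap_apply A0]
    have h2 : Dh (algebraMap A0 L r) = 0 := by
      rw [IsScalarTower.algebraMap_apply A0 A L, hDh', Derivation.map_algebraMap, map_zero]
    have h3 : ∀ j, D j (algebraMap A0 L r) = 0 := by
      intro j
      rw [h1, hB, MvPolynomial.pderiv_C, map_zero]
    simp only [Δ, h2, h3, mul_zero, Finset.sum_const_zero, sub_zero]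
  have hK0 : ∀ c : K0, Δ (algebraMap K0 L c) = 0 := by
    intro c
    obtain ⟨u, v, hv, rfl⟩ := IsFractionRing.div_surjective (A := A0) c
    have hv0 : algebraMap A0 K0 v ≠ 0 := by
      rw [Ne, map_eq_zero_iff _ (IsFractionRing.injective A0 K0)]
      exact nonZeroDivisors.ne_zero hv
    refine vanish_frac (R := A0) Δ hΔmul hA0 _ v u ?_ ?_
    · rw [IsScalarTower.algebraMap_apply A0 K0 L]
      exact (map_ne_zero _).2 hv0
    · rw [IsScalarTower.algebraMap_apply A0 K0 L, IsScalarTower.algebraMap_apply A0 K0 L,
        ← map_mul]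
      congr 1
      field_simp
  have hBv : ∀ b : MvPolynomial (Fin s) K0, Δ (algebraMap (MvPolynomial (Fin s) K0) L b) = 0 := by
    intro b
    induction b using MvPolynomial.induction_on with
    | C c =>
      rw [← MvPolynomial.algebraMap_eq, ← IsScalarTower.algebraMap_apply K0]
      exact hK0 c
    | add p q hp hq => rw [map_add, hΔadd, hp, hq, add_zero]
    | mul_X p i hp =>
      rw [map_mul, hΔmul, hp, mul_zero, add_zero]
      have h1 : Δ (algebraMap (MvPolynomial (Fin s) K0) L (MvPolynomial.X i)) = 0 := by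
        simp only [Δ]
        rw [hX, hDh', sub_eq_zero]
        have h2 : ∀ j, D j (algebraMap A L (g i)) =
            if j = i then 1 else 0 := by
          intro j
          rw [← hX, hB]
          by_cases h : j = i
          · subst h
            simp
          · have h3 : i ≠ j := fun h' => h h'.symm
            rw [if_neg h, MvPolynomial.pderiv_X_of_ne h3, map_zero]
        simp only [h2, mul_ite, mul_one, mul_zero, Finset.sum_ite_eq', Finset.mem_univ, if_true]
      rw [h1, mul_zero]
  have hKv : ∀ x : K, Δ (algebraMap K L x) = 0 := by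
    intro x
    obtain ⟨u, v, hv, rfl⟩ := IsFractionRing.div_surjective (A := MvPolynomial (Fin s) K0) x
    have hv0 : algebraMap (MvPolynomial (Fin s) K0) K v ≠ 0 := by
      rw [Ne, map_eq_zero_iff _ (IsFractionRing.injective (MvPolynomial (Fin s) K0) K)]
      exact nonZeroDivisors.ne_zero hv
    refine vanish_frac (R := MvPolynomial (Fin s) K0) Δ hΔmul hBv _ v u ?_ ?_
    · rw [IsScalarTower.algebraMap_apply (MvPolynomial (Fin s) K0) K L]
      exact (map_ne_zero _).2 hv0
    · rw [IsScalarTower.algebraMap_apply (MvPolynomial (Fin s) K0) K L,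
        IsScalarTower.algebraMap_apply (MvPolynomial (Fin s) K0) K L, ← map_mul]
      congr 1
      field_simp
  have hfin := deriv_eq_zero_of_base (K := K) Δ hΔadd hΔmul hKv (algebraMap A L a)
  simp only [Δ, hDh', sub_eq_zero] at hfin
  exact hfin

/-- The general trace formula. -/
theorem final_trace [Algebra.IsSeparable K L]
    (φ : Derivation A0 A A →ₗ[A] A)
    (S : Finset A) (hS : Algebra.adjoin A0 (S : Set A) = ⊤)
    (g : Fin s → A)
    (hX : ∀ i, algebraMap (MvPolynomial (Fin s) K0) L (MvPolynomial.X i) = algebraMap A L (g i))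
    (hint : ∀ a : A, IsIntegral (MvPolynomial (Fin s) K0) (algebraMap A L a)) :
    ∃ t : Fin s → MvPolynomial (Fin s) K0, ∀ (D' : Derivation A0 A A)
      (β : Fin s → MvPolynomial (Fin s) K0),
      (∀ j, algebraMap A L (D' (g j)) = algebraMap (MvPolynomial (Fin s) K0) L (β j)) →
      Algebra.trace K L (algebraMap A L (φ D')) =
        algebraMap (MvPolynomial (Fin s) K0) K (∑ j, β j * t j) := by
  classical
  have hp := fun j : Fin s => exists_partial (s := s) (K0 := K0) (K := K) (L := L) j
  choose d D dadd hadd hmul hdB hDK using hp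
  have hB : ∀ j b, D j (algebraMap (MvPolynomial (Fin s) K0) L b) =
      algebraMap (MvPolynomial (Fin s) K0) L (MvPolynomial.pderiv j b) := by
    intro j b
    rw [IsScalarTower.algebraMap_apply (MvPolynomial (Fin s) K0) K L, hDK, hdB,
      ← IsScalarTower.algebraMap_apply]
  have hconst : ∀ j, ∀ c : A0, D j (algebraMap A0 L c) = 0 := by
    intro j c
    have h1 : algebraMap A0 L c = algebraMap (MvPolynomial (Fin s) K0) L
        (MvPolynomial.C (algebraMap A0 K0 c)) := by
      rw [← MvPolynomial.algebraMap_eq, ← IsScalarTower.algebraMap_apply K0,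
        ← IsScalarTower.algebraMap_apply A0]
    rw [h1, hB, MvPolynomial.pderiv_C, map_zero]
  obtain ⟨h, hv, hform⟩ := exists_h (A0 := A0) φ S hS g D hadd hmul hconst
  have ht : ∀ j, ∃ b : MvPolynomial (Fin s) K0, Algebra.trace K L (h j) =
      algebraMap (MvPolynomial (Fin s) K0) K b := by
    intro j
    exact trace_integral_of_valid (A0 := A0) (K0 := K0) g hX hint S hS (D j) (hadd j) (hmul j)
      (hconst j) (fun b => ⟨_, hB j b⟩) (h j) (fun x hx => hv j x hx)
  choose t ht using ht
  refine ⟨t, ?_⟩
  intro D' β hβ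
  rw [hform D' (fun a => derivation_formula (A0 := A0) (K0 := K0) (K := K) g hX D hadd hmul hB D' a),
    map_sum, map_sum]
  refine Finset.sum_congr rfl fun j _ => ?_
  rw [hβ, IsScalarTower.algebraMap_apply (MvPolynomial (Fin s) K0) K L, ← Algebra.smul_def,
    map_smul, ht, smul_eq_mul, map_mul]

/-- An eigenvector with non-zero eigenvalue of a derivation scaling `g` has trace
with zero constant term. -/
theorem euler_trace [Algebra.IsSeparable K L]
    (g : Fin s → A)
    (hX : ∀ i, algebraMap (MvPolynomial (Fin s) K0) L (MvPolynomial.X i) = algebraMap A L (g i))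
    (hint : ∀ a : A, IsIntegral (MvPolynomial (Fin s) K0) (algebraMap A L a))
    (E : Derivation A0 A A) (n : ℕ) (hE : ∀ j, E (g j) = n • g j)
    (y : A) (l : ℕ) (hy : E y = l • y) (hl : l ≠ 0) :
    ∃ b : MvPolynomial (Fin s) K0, Algebra.trace K L (algebraMap A L y) =
        algebraMap (MvPolynomial (Fin s) K0) K b ∧ MvPolynomial.constantCoeff b = 0 := by
  classical
  have hp := fun j : Fin s => exists_partial (s := s) (K0 := K0) (K := K) (L := L) j
  choose d D dadd hadd hmul hdB hDK using hp
  have hB : ∀ j b, D j (algebraMap (MvPolynomial (Fin s) K0) L b) =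
      algebraMap (MvPolynomial (Fin s) K0) L (MvPolynomial.pderiv j b) := by
    intro j b
    rw [IsScalarTower.algebraMap_apply (MvPolynomial (Fin s) K0) K L, hDK, hdB,
      ← IsScalarTower.algebraMap_apply]
  have hform := derivation_formula (A0 := A0) (K0 := K0) (K := K) g hX D hadd hmul hB E y
  have htr : IsIntegral (MvPolynomial (Fin s) K0) (Algebra.trace K L (algebraMap A L y)) :=
    Algebra.isIntegral_trace (hint y)
  obtain ⟨b, hb⟩ := IsIntegrallyClosed.isIntegral_iff.1 htr
  refine ⟨b, hb.symm, ?_⟩
  have hinjB := IsFractionRing.injective (MvPolynomial (Fin s) K0) K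
  have key : (l : MvPolynomial (Fin s) K0) * b = ∑ j, (n : MvPolynomial (Fin s) K0) *
      MvPolynomial.X j * MvPolynomial.pderiv j b := by
    apply hinjB
    have h1 := congrArg (Algebra.trace K L) hform
    rw [hy, map_sum] at h1
    have h2 : Algebra.trace K L (algebraMap A L (l • y)) = (l : K) * algebraMap _ K b := by
      rw [nsmul_eq_mul, map_mul, map_natCast, ← nsmul_eq_mul, map_nsmul, hb, nsmul_eq_mul]
    rw [h2] at h1
    rw [map_mul, map_natCast, h1, map_sum]
    refine Finset.sum_congr rfl fun j _ => ?_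
    have h4 : algebraMap A L (E (g j)) = algebraMap K L (algebraMap (MvPolynomial (Fin s) K0) K
        ((n : MvPolynomial (Fin s) K0) * MvPolynomial.X j)) := by
      rw [← IsScalarTower.algebraMap_apply, map_mul, map_natCast, hX, hE, nsmul_eq_mul, map_mul,
        map_natCast]
    rw [h4, ← Algebra.smul_def, map_smul,
      trace_deriv (D j) (hadd j) (hmul j) (d j) (dadd j) (hDK j), ← hb, hdB, smul_eq_mul, ← map_mul]
  have h3 := congrArg MvPolynomial.constantCoeff key
  rw [map_mul, map_natCast, map_sum] at h3
  simp only [map_mul, map_natCast, MvPolynomial.constantCoeff_X, mul_zero, zero_mul,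
    Finset.sum_const_zero] at h3
  exact (mul_eq_zero.mp h3).resolve_left (Nat.cast_ne_zero.2 hl)

end Trace

end Vale.Agent.Lib.P266
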