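import Vale.Agent.Lib.P266.Euler

/-!
The degree zero part of the value of a functional on the Euler derivation vanishes.
-/

namespace Vale.Agent.Lib.P266

set_option linter.unusedSectionVars false
set_option linter.overlappingInstances false
set_option linter.style.haveILetI false

open scoped nonZeroDivisors

lemma isIntegral_of_adjoin {K0 L : Type*} [Field K0] [Field L] [Algebra K0 L] {s : ℕ}
    (h : Fin s → L) [Algebra (MvPolynomial (Fin s) K0) L]
    (hB : ∀ b, algebraMap (MvPolynomial (Fin s) K0) L b = MvPolynomial.aeval (R := K0) h b) (x : L)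
    (hx : IsIntegral (Algebra.adjoin K0 (Set.range h)) x) :
    IsIntegral (MvPolynomial (Fin s) K0) x := by
  classical
  let S := Algebra.adjoin K0 (Set.range h)
  have hmem : ∀ b, MvPolynomial.aeval (R := K0) h b ∈ S := by
    intro b
    change _ ∈ Algebra.adjoin K0 (Set.range h)
    rw [Algebra.adjoin_range_eq_range_aeval]
    exact ⟨b, rfl⟩
  let f : MvPolynomial (Fin s) K0 →+* S :=
    { toFun := fun b => ⟨MvPolynomial.aeval (R := K0) h b, hmem b⟩
      map_one' := Subtype.ext (map_one _)
      map_mul' := fun a b => Subtype.ext (map_mul _ a b)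
      map_zero' := Subtype.ext (map_zero _)
      map_add' := fun a b => Subtype.ext (map_add _ a b) }
  have hf : Function.Surjective f := by
    rintro ⟨t, ht⟩
    have ht' : t ∈ Algebra.adjoin K0 (Set.range h) := ht
    rw [Algebra.adjoin_range_eq_range_aeval] at ht'
    obtain ⟨b, hb⟩ := ht'
    exact ⟨b, Subtype.ext hb⟩
  obtain ⟨p, hp, hp0⟩ := hx
  have hl : p ∈ Polynomial.lifts f := Polynomial.mem_lifts _ |>.2 (Polynomial.map_surjective f hf p)
  obtain ⟨q, hq, _, hqm⟩ := Polynomial.lifts_and_degree_eq_and_monic hl hp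
  refine ⟨q, hqm, ?_⟩
  have h1 : algebraMap (MvPolynomial (Fin s) K0) L = (algebraMap S L).comp f := by
    refine RingHom.ext fun b => ?_
    rw [hB]
    rfl
  rw [h1, ← Polynomial.eval₂_map, hq]
  exact hp0

section Zero

variable {k A : Type*} [Field k] [CharZero k] [CommRing A] [IsDomain A] [IsIntegrallyClosed A]
  [Algebra k A] (𝒜 : ℕ → Submodule k A) [GradedAlgebra 𝒜] [Algebra.FiniteType (𝒜 0) A]
  {K0 L : Type*} [Field K0] [Algebra (𝒜 0) K0] [IsFractionRing (𝒜 0) K0]
  [Field L] [Algebra A L] [IsFractionRing A L] [Algebra K0 L] [Algebra (𝒜 0) L]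
  [IsScalarTower (𝒜 0) K0 L] [IsScalarTower (𝒜 0) A L]

include K0 L in
theorem zero_part_aux (φ : Derivation (𝒜 0) A A →ₗ[A] A) :
    (DirectSum.decompose 𝒜 (φ (euler 𝒜)) 0 : A) = 0 := by
  classical
  haveI : IsDomain (𝒜 0) := isDomain_zero 𝒜
  have hinjk : Function.Injective (algebraMap k (𝒜 0)) := (algebraMap k (𝒜 0)).injective
  haveI : CharZero (𝒜 0) := charZero_of_injective_algebraMap hinjk
  haveI : CharZero K0 := charZero_of_injective_algebraMap (IsFractionRing.injective (𝒜 0) K0)
  obtain ⟨F, hF, hFgen⟩ := exists_homog_gens 𝒜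
  obtain ⟨d, s, g, hd, hg, hgind, hgint⟩ := exists_noether_A (K0 := K0) (L := L) 𝒜 F hF hFgen
  have hinjA : Function.Injective (algebraMap A L) := IsFractionRing.injective A L
  let h : Fin s → L := fun j => algebraMap A L (g j)
  have hgindL : AlgebraicIndependent (𝒜 0) h :=
    hgind.map' (f := IsScalarTower.toAlgHom (𝒜 0) A L) hinjA
  haveI : Algebra.IsAlgebraic (𝒜 0) K0 := IsLocalization.isAlgebraic (R := 𝒜 0) (S := K0) (nonZeroDivisors (𝒜 0))
  have hgindK : AlgebraicIndependent K0 h := hgindL.extendScalars K0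
  letI algB : Algebra (MvPolynomial (Fin s) K0) L :=
    (MvPolynomial.aeval h : MvPolynomial (Fin s) K0 →ₐ[K0] L).toRingHom.toAlgebra
  have hB : ∀ b, algebraMap (MvPolynomial (Fin s) K0) L b = MvPolynomial.aeval (R := K0) h b :=
    fun _ => rfl
  haveI : IsScalarTower K0 (MvPolynomial (Fin s) K0) L :=
    IsScalarTower.of_algebraMap_eq (fun x => by
      rw [hB, MvPolynomial.algebraMap_eq, MvPolynomial.aeval_C])
  have hX : ∀ i, algebraMap (MvPolynomial (Fin s) K0) L (MvPolynomial.X i) = algebraMap A L (g i) :=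
    fun i => by rw [hB, MvPolynomial.aeval_X]
  have hinjB : Function.Injective (algebraMap (MvPolynomial (Fin s) K0) L) := hgindK
  haveI : FaithfulSMul (MvPolynomial (Fin s) K0) L :=
    (faithfulSMul_iff_algebraMap_injective _ _).2 hinjB
  let K := FractionRing (MvPolynomial (Fin s) K0)
  letI : Algebra K L := FractionRing.liftAlgebra _ L
  haveI : IsScalarTower (MvPolynomial (Fin s) K0) K L := FractionRing.isScalarTower_liftAlgebra _ L
  have hint : ∀ a : A, IsIntegral (MvPolynomial (Fin s) K0) (algebraMap A L a) :=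
    fun a => isIntegral_of_adjoin h hB _ (hgint a)
  have hconstK : ∀ r : 𝒜 0, ∃ x : K, algebraMap (𝒜 0) L r = algebraMap K L x := by
    intro r
    refine ⟨algebraMap (MvPolynomial (Fin s) K0) K (MvPolynomial.C (algebraMap (𝒜 0) K0 r)), ?_⟩
    rw [← IsScalarTower.algebraMap_apply, ← MvPolynomial.algebraMap_eq,
      ← IsScalarTower.algebraMap_apply K0, ← IsScalarTower.algebraMap_apply (𝒜 0)]
  -- finiteness
  haveI : FiniteDimensional K L := by
    let T : Set L := algebraMap A L '' (F : Set A)
    haveI : Finite T := (F.finite_toSet.image _).to_subtype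
    have hTint : ∀ x ∈ T, IsIntegral K x := by
      rintro _ ⟨a, _, rfl⟩
      exact (hint a).tower_top
    haveI hfd : FiniteDimensional K (IntermediateField.adjoin K T) :=
      IntermediateField.finiteDimensional_adjoin hTint
    have hA : ∀ a : A, algebraMap A L a ∈ IntermediateField.adjoin K T := by
      intro a
      have ha : a ∈ Algebra.adjoin (𝒜 0) (F : Set A) := by rw [hFgen]; trivial
      induction ha using Algebra.adjoin_induction with
      | mem x hx => exact IntermediateField.subset_adjoin _ _ ⟨x, hx, rfl⟩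
      | algebraMap r =>
        rw [← IsScalarTower.algebraMap_apply]
        obtain ⟨x, hx⟩ := hconstK r
        rw [hx]
        exact IntermediateField.algebraMap_mem _ x
      | add x y _ _ hx hy =>
        rw [map_add]
        exact add_mem hx hy
      | mul x y _ _ hx hy =>
        rw [map_mul]
        exact mul_mem hx hy
    have htop : IntermediateField.adjoin K T = ⊤ := by
      rw [eq_top_iff]
      intro x _
      obtain ⟨u, v, _, rfl⟩ := IsFractionRing.div_surjective (A := A) x
      exact div_mem (hA u) (hA v)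
    rw [htop] at hfd
    exact (IntermediateField.topEquiv (F := K) (E := L)).toLinearEquiv.finiteDimensional
  haveI : CharZero (MvPolynomial (Fin s) K0) := inferInstance
  haveI : CharZero K := charZero_of_injective_algebraMap
    (IsFractionRing.injective (MvPolynomial (Fin s) K0) K)
  haveI : Algebra.IsSeparable K L := Algebra.IsAlgebraic.isSeparable_of_perfectField
  -- Euler
  have hE : ∀ j, euler 𝒜 (g j) = d • g j := fun j => euler_apply 𝒜 (hg j)
  obtain ⟨t, ht⟩ := final_trace (A0 := 𝒜 0) (K0 := K0) (K := K) (L := L) φ F hFgen g hX hint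
  let β : Fin s → MvPolynomial (Fin s) K0 :=
    fun j => (d : MvPolynomial (Fin s) K0) * MvPolynomial.X j
  have hβ : ∀ j, algebraMap A L (euler 𝒜 (g j)) = algebraMap (MvPolynomial (Fin s) K0) L (β j) := by
    intro j
    simp only [β]
    rw [hE, nsmul_eq_mul, map_mul, map_natCast, map_mul, map_natCast, hX]
  have h1 := ht (euler 𝒜) β hβ
  have hall : ∀ a : A, ∃ b : MvPolynomial (Fin s) K0,
      Algebra.trace K L (algebraMap A L a) = algebraMap (MvPolynomial (Fin s) K0) K b ∧
      MvPolynomial.constantCoeff b =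
        (Module.finrank K L : K0) * algebraMap (𝒜 0) K0 (DirectSum.decompose 𝒜 a 0) := by
    intro a
    induction a using DirectSum.Decomposition.inductionOn 𝒜 with
    | zero => exact ⟨0, by simp, by simp⟩
    | add a a' ha ha' =>
      obtain ⟨b, hb, hb0⟩ := ha
      obtain ⟨b', hb', hb0'⟩ := ha'
      refine ⟨b + b', by rw [map_add, map_add, hb, hb', map_add], ?_⟩
      rw [map_add, hb0, hb0', DirectSum.decompose_add, DirectSum.add_apply, map_add, mul_add]
    | @homogeneous i m =>
      by_cases hi : i = 0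
      · subst hi
        refine ⟨(Module.finrank K L : MvPolynomial (Fin s) K0) *
          MvPolynomial.C (algebraMap (𝒜 0) K0 m), ?_, ?_⟩
        · have h2 : algebraMap A L (m : A) = algebraMap K L (algebraMap
              (MvPolynomial (Fin s) K0) K (MvPolynomial.C (algebraMap (𝒜 0) K0 m))) := by
            rw [← IsScalarTower.algebraMap_apply, ← MvPolynomial.algebraMap_eq,
              ← IsScalarTower.algebraMap_apply K0, ← IsScalarTower.algebraMap_apply (𝒜 0)]
            exact IsScalarTower.algebraMap_apply (𝒜 0) A L m |>.symm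
          rw [h2, Algebra.trace_algebraMap, nsmul_eq_mul, map_mul, map_natCast]
        · have h3 : (DirectSum.decompose 𝒜 (m : A) 0) = m := by
            rw [DirectSum.decompose_coe, DirectSum.of_eq_same]
          rw [h3]
          simp
      · obtain ⟨b, hb, hb0⟩ := euler_trace (A0 := 𝒜 0) (K0 := K0) (K := K) (L := L) g hX hint
          (euler 𝒜) d hE (m : A) i (euler_apply 𝒜 m.2) hi
        refine ⟨b, hb, ?_⟩
        have h3 : (DirectSum.decompose 𝒜 (m : A) 0) = 0 :=
          Subtype.ext (DirectSum.decompose_of_mem_ne 𝒜 m.2 hi)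
        rw [hb0, h3, map_zero, mul_zero]
  obtain ⟨b, hb, hb0⟩ := hall (φ (euler 𝒜))
  have h2 : b = ∑ j, β j * t j := by
    apply IsFractionRing.injective (MvPolynomial (Fin s) K0) K
    rw [← hb, h1]
  have h3 : MvPolynomial.constantCoeff b = 0 := by
    rw [h2, map_sum]
    refine Finset.sum_eq_zero fun j _ => ?_
    simp [β]
  rw [h3] at hb0
  have hfr : (Module.finrank K L : K0) ≠ 0 := Nat.cast_ne_zero.2 Module.finrank_pos.ne'
  have h4 := (mul_eq_zero.1 hb0.symm).resolve_left hfr
  have h5 : DirectSum.decompose 𝒜 (φ (euler 𝒜)) 0 = 0 :=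
    (map_eq_zero_iff _ (IsFractionRing.injective (𝒜 0) K0)).1 h4
  rw [h5]
  rfl

end Zero

end Vale.Agent.Lib.P266
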